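import Vale.Agent.P298.H379.Geo

/-!
P298, block IRV (helper379): elementary facts on the polynomials `ev h` and `F.f t`.
-/

namespace Vale.Agent.P298.H379

open Filter Topology Metric MeasureTheory Set Vale.Agent.P298
open scoped ENNReal NNReal ContDiff

variable {d e : ℕ}

/-- monomial function -/
noncomputable def mono (α : Fin 3 → ℕ) (x : Fin 3 → ℂ) : ℂ := ∏ i, x i ^ α i

theorem ev_eq (h : Q d e) (x : Fin 3 → ℂ) : ev h x = ∑ α, h α * mono (fun i => α.1 i) x := rfl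

theorem contDiff_mono (α : Fin 3 → ℕ) {n : WithTop ℕ∞} : ContDiff ℂ n (mono α) := by
  unfold mono
  exact contDiff_prod fun i _ => (contDiff_apply ℂ ℂ i).pow _

theorem contDiff_ev (h : Q d e) {n : WithTop ℕ∞} : ContDiff ℂ n (ev h) := by
  have : ev h = fun x => ∑ α, h α * mono (fun i => α.1 i) x := rfl
  rw [this]
  exact ContDiff.sum fun α _ => contDiff_const.mul (contDiff_mono _)

theorem ev_add (h g : Q d e) (x : Fin 3 → ℂ) : ev (h + g) x = ev h x + ev g x := by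
  simp only [ev_eq, Pi.add_apply, add_mul, Finset.sum_add_distrib]

theorem ev_smul (c : ℂ) (h : Q d e) (x : Fin 3 → ℂ) : ev (c • h) x = c * ev h x := by
  simp only [ev_eq, Pi.smul_apply, smul_eq_mul, mul_assoc, Finset.mul_sum]

theorem pd_ev (i : Fin 3) (h : Q d e) (x : Fin 3 → ℂ) :
    pd i (ev h) x = ∑ α, h α * pd i (mono fun i => α.1 i) x := by
  have hf : ev h = fun x => ∑ α, h α * mono (fun i => α.1 i) x := rfl
  unfold pd
  rw [hf, fderiv_fun_sum fun α _ => ?_]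
  · rw [_root_.sum_apply]
    refine Finset.sum_congr rfl fun α _ => ?_
    rw [fderiv_const_mul ((contDiff_mono (n := 1) _).differentiable one_ne_zero).differentiableAt]
    rfl
  · exact (((contDiff_mono (n := 1) _).differentiable one_ne_zero).differentiableAt).const_mul _

theorem continuous_pd_mono (i : Fin 3) (α : Fin 3 → ℕ) : Continuous (pd i (mono α)) := by
  unfold pd
  exact ((contDiff_mono (n := 1) α).continuous_fderiv one_ne_zero).clm_apply continuous_const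

variable {R δ : ℝ} (F : PFam d R δ)

/-- the top form -/
noncomputable def PFam.top (x : Fin 3 → ℂ) : ℂ := ∑ i, F.c i * x i ^ d

theorem PFam.f_eq (t : ℂ) : F.f t = fun x => F.top x + ev (F.a t) x := rfl

theorem PFam.contDiff_top {n : WithTop ℕ∞} : ContDiff ℂ n F.top :=
  ContDiff.sum fun i _ => contDiff_const.mul ((contDiff_apply ℂ ℂ i).pow _)

theorem PFam.contDiff_f (t : ℂ) {n : WithTop ℕ∞} : ContDiff ℂ n (F.f t) :=
  F.contDiff_top.add (contDiff_ev _)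

theorem PFam.pd_top (i : Fin 3) (x : Fin 3 → ℂ) : pd i F.top x = F.c i * (d * x i ^ (d - 1)) := by
  have h : HasFDerivAt F.top (∑ j, F.c j • ((d : ℂ) * x j ^ (d - 1)) •
      (ContinuousLinearMap.proj j : (Fin 3 → ℂ) →L[ℂ] ℂ)) x := by
    unfold PFam.top
    refine HasFDerivAt.fun_sum fun j _ => ?_
    have h1 : HasFDerivAt (fun y : Fin 3 → ℂ => y j)
      (ContinuousLinearMap.proj j : (Fin 3 → ℂ) →L[ℂ] ℂ) x := hasFDerivAt_apply j x
    have h2 := (h1.pow d).const_mul (F.c j)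
    rw [nsmul_eq_mul] at h2
    exact h2
  unfold pd
  rw [h.fderiv, _root_.sum_apply, Finset.sum_eq_single i]
  · simp
  · intro j _ hj
    simp [hj]
  · simp

theorem PFam.pd_f (i : Fin 3) (t : ℂ) (x : Fin 3 → ℂ) :
    pd i (F.f t) x = F.c i * (d * x i ^ (d - 1)) + pd i (ev (F.a t)) x := by
  rw [← F.pd_top]
  unfold pd
  rw [F.f_eq, fderiv_fun_add]
  · rfl
  · exact ((F.contDiff_top (n := 1)).differentiable one_ne_zero).differentiableAt
  · exact ((contDiff_ev (n := 1) _).differentiable one_ne_zero).differentiableAt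

theorem continuous_ev2 : Continuous fun y : Q d e × (Fin 3 → ℂ) => ev y.1 y.2 := by
  simp only [ev_eq]
  refine continuous_finsetSum _ fun α _ => ?_
  exact ((continuous_apply α).comp continuous_fst).mul
    ((contDiff_mono (n := 0) _).continuous.comp continuous_snd)

theorem continuous_pd_ev2 (i : Fin 3) :
    Continuous fun y : Q d e × (Fin 3 → ℂ) => pd i (ev y.1) y.2 := by
  simp only [pd_ev]
  refine continuous_finsetSum _ fun α _ => ?_
  exact ((continuous_apply α).comp continuous_fst).mul ((continuous_pd_mono i _).comp continuous_snd)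

theorem PFam.continuousAt_a {t : ℂ} (ht : t ∈ ball (0 : ℂ) R) : ContinuousAt F.a t :=
  (F.holo.differentiableAt (isOpen_ball.mem_nhds ht)).continuousAt

theorem PFam.continuousAt_aux {t : ℂ} (ht : t ∈ ball (0 : ℂ) R) (x : Fin 3 → ℂ) :
    Tendsto (fun y : ℂ × (Fin 3 → ℂ) => (F.a y.1, y.2)) (𝓝 (t, x)) (𝓝 (F.a t, x)) := by
  rw [nhds_prod_eq, nhds_prod_eq]
  exact ((F.continuousAt_a ht).tendsto.comp tendsto_fst).prodMk tendsto_snd

theorem PFam.continuousAt_f {t : ℂ} (ht : t ∈ ball (0 : ℂ) R) (x : Fin 3 → ℂ) :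
    ContinuousAt (fun y : ℂ × (Fin 3 → ℂ) => F.f y.1 y.2) (t, x) := by
  have h1 : Tendsto (fun y : Q d (d - 1) × (Fin 3 → ℂ) => ev y.1 y.2) (𝓝 (F.a t, x))
      (𝓝 (ev (F.a t) x)) := continuous_ev2.tendsto (F.a t, x)
  have h2 := h1.comp (F.continuousAt_aux ht x)
  have h3 : Tendsto (fun y : ℂ × (Fin 3 → ℂ) => F.top y.2) (𝓝 (t, x)) (𝓝 (F.top x)) :=
    ((F.contDiff_top (n := 0)).continuous.comp continuous_snd).tendsto (t, x)
  have h4 := h3.add h2
  exact h4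

theorem PFam.continuousAt_pd {t : ℂ} (ht : t ∈ ball (0 : ℂ) R) (i : Fin 3) (x : Fin 3 → ℂ) :
    ContinuousAt (fun y : ℂ × (Fin 3 → ℂ) => pd i (F.f y.1) y.2) (t, x) := by
  have h0 : (fun y : ℂ × (Fin 3 → ℂ) => pd i (F.f y.1) y.2) =
      fun y : ℂ × (Fin 3 → ℂ) => F.c i * (d * y.2 i ^ (d - 1)) + pd i (ev (F.a y.1)) y.2 := by
    ext1 y
    exact F.pd_f i y.1 y.2
  rw [h0]
  have h1 : Tendsto (fun y : Q d (d - 1) × (Fin 3 → ℂ) => pd i (ev y.1) y.2) (𝓝 (F.a t, x))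
      (𝓝 (pd i (ev (F.a t)) x)) := (continuous_pd_ev2 i).tendsto (F.a t, x)
  have h2 := h1.comp (F.continuousAt_aux ht x)
  have h3 : Continuous fun y : ℂ × (Fin 3 → ℂ) => F.c i * (d * y.2 i ^ (d - 1)) := by fun_prop
  have h4 := (h3.tendsto (t, x)).add h2
  exact h4

theorem continuous_pt : Continuous fun y : (ℂ × ℂ) × ℂ => pt y.1 y.2 := by
  refine continuous_pi fun i => ?_
  fin_cases i <;> simp [pt] <;> fun_prop

theorem contDiff_pt {n : WithTop ℕ∞} : ContDiff ℂ n fun y : (ℂ × ℂ) × ℂ => pt y.1 y.2 := by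
  rw [contDiff_pi]
  intro i
  fin_cases i <;> simp [pt] <;> fun_prop

theorem pt_eq (p : ℂ × ℂ) (z w : ℂ) : pt p z = pt p w + (z - w) • Pi.single 2 1 := by
  ext i
  fin_cases i <;> simp [pt]

theorem hasDerivAt_pt (p : ℂ × ℂ) (z : ℂ) :
    HasDerivAt (fun w => pt p w) (Pi.single 2 1) z := by
  have h : (fun w => pt p w) = fun w => pt p 0 + (w - 0) • (Pi.single 2 1 : Fin 3 → ℂ) := by
    ext1 w
    exact pt_eq p w 0
  rw [h]
  have h1 : HasDerivAt (fun w : ℂ => (w - 0)) 1 z := (hasDerivAt_id z).sub_const 0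
  simpa using (h1.smul_const (Pi.single 2 1 : Fin 3 → ℂ)).const_add (pt p 0)

/-- The joint function `(t, s, p, z) ↦ F_t(p, z) - s`. -/
noncomputable def PFam.G (y : (ℂ × ℂ × (ℂ × ℂ)) × ℂ) : ℂ :=
  F.f y.1.1 (pt y.1.2.2 y.2) - y.1.2.1

theorem PFam.contDiffAt_G {t : ℂ} (ht : t ∈ ball (0 : ℂ) R) (s : ℂ) (p : ℂ × ℂ) (z : ℂ) :
    ContDiffAt ℂ 1 F.G ((t, s, p), z) := by
  have ha : ContDiffAt ℂ 1 F.a t :=
    ((F.holo.analyticOnNhd isOpen_ball) t ht).contDiffAt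
  have h0 : ContDiffAt ℂ 1 (fun y : (ℂ × ℂ × (ℂ × ℂ)) × ℂ => pt y.1.2.2 y.2) ((t, s, p), z) := by
    have : ContDiff ℂ 1 (fun y : (ℂ × ℂ × (ℂ × ℂ)) × ℂ => (y.1.2.2, y.2)) := by fun_prop
    exact (contDiff_pt.comp this).contDiffAt
  have h1 : ContDiffAt ℂ 1 (fun y : (ℂ × ℂ × (ℂ × ℂ)) × ℂ => F.top (pt y.1.2.2 y.2))
      ((t, s, p), z) := (F.contDiff_top.contDiffAt).comp _ h0
  have h2 : ContDiffAt ℂ 1 (fun y : (ℂ × ℂ × (ℂ × ℂ)) × ℂ => F.a y.1.1) ((t, s, p), z) :=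
    ContDiffAt.comp (g := F.a) (f := fun y : (ℂ × ℂ × (ℂ × ℂ)) × ℂ => y.1.1) _ ha
      (contDiffAt_fst.fst)
  have h3 : ContDiffAt ℂ 1 (fun y : (ℂ × ℂ × (ℂ × ℂ)) × ℂ => ev (F.a y.1.1) (pt y.1.2.2 y.2))
      ((t, s, p), z) := by
    simp only [ev_eq]
    refine ContDiffAt.sum fun α _ => ?_
    refine ContDiffAt.mul ?_ ?_
    · exact contDiffAt_pi.1 h2 α
    · exact ((contDiff_mono _).contDiffAt).comp _ h0
  exact (h1.add h3).sub (contDiffAt_fst.snd.fst)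

theorem PFam.fderiv_G_inr {t : ℂ} (ht : t ∈ ball (0 : ℂ) R) (s : ℂ) (p : ℂ × ℂ) (z : ℂ) :
    fderiv ℂ F.G ((t, s, p), z) (0, 1) = pd 2 (F.f t) (pt p z) := by
  have h1 : HasFDerivAt F.G (fderiv ℂ F.G ((t, s, p), z)) ((t, s, p), z) :=
    ((F.contDiffAt_G ht s p z).differentiableAt one_ne_zero).hasFDerivAt
  have h2 : HasDerivAt (fun w : ℂ => (((t, s, p), w) : (ℂ × ℂ × (ℂ × ℂ)) × ℂ)) (0, 1) z :=
    (hasDerivAt_const z _).prodMk (hasDerivAt_id z)
  have h3 := h1.comp_hasDerivAt (f := fun w : ℂ => (((t, s, p), w) : (ℂ × ℂ × (ℂ × ℂ)) × ℂ)) z h2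
  have h4 : HasFDerivAt (F.f t) (fderiv ℂ (F.f t) (pt p z)) (pt p z) :=
    (((F.contDiff_f t (n := 1)).differentiable one_ne_zero) _).hasFDerivAt
  have h5 := (h4.comp_hasDerivAt z (hasDerivAt_pt p z)).sub_const s
  exact h3.unique h5

end Vale.Agent.P298.H379
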