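import Vale.Agent.P298.H379.Basic

/-!
P298, block IRV (helper379): coercivity of `N`.
-/

namespace Vale.Agent.P298.H379

open Filter Topology Metric MeasureTheory Set Vale.Agent.P298
open scoped ENNReal NNReal

variable {d e : ℕ} {R δ : ℝ} (F : PFam d R δ)

theorem norm_pt (p : ℂ × ℂ) (z : ℂ) : ‖pt p z‖ = max ‖p‖ ‖z‖ := by
  apply le_antisymm
  · rw [pi_norm_le_iff_of_nonneg (le_max_of_le_left (norm_nonneg _))]
    intro i
    fin_cases i
    · exact (norm_fst_le p).trans (le_max_left _ _)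
    · exact (norm_snd_le p).trans (le_max_left _ _)
    · exact le_max_right _ _
  · refine max_le ?_ (norm_le_pi_norm (pt p z) 2)
    rw [Prod.norm_def]
    exact max_le (norm_le_pi_norm (pt p z) 0) (norm_le_pi_norm (pt p z) 1)

/-- There is a point `p` over which all the roots are nondegenerate. -/
theorem PFam.exists_good (t s : ℂ) :
    ∃ p : ℂ × ℂ, ∀ z, F.f t (pt p z) = s → pd 2 (F.f t) (pt p z) ≠ 0 := by
  obtain ⟨n, hn⟩ : ∃ n, d = n + 2 := ⟨d - 2, by have := F.hd; omega⟩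
  have hn0 : d - 1 = n + 1 := by omega
  set h := F.a t with hh
  set M0 : ℝ := Fintype.card (Mon d (d - 1)) * ‖h‖ with hM0
  set M1 : ℝ := Fintype.card (Mon d (d - 1)) * ((d - 1 : ℕ) : ℝ) * ‖h‖ with hM1
  have hM00 : 0 ≤ M0 := by positivity
  have hM10 : 0 ≤ M1 := by positivity
  have hc0 : 0 < ‖F.c 0‖ := norm_pos_iff.2 (F.hc 0)
  have hc2 : 0 < ‖F.c 2‖ := norm_pos_iff.2 (F.hc 2)
  obtain ⟨l, hl⟩ : ∃ l : ℝ, 1 ≤ l ∧ M1 * 2 ^ n < ‖F.c 2‖ * l ∧
      M1 * 2 ^ n + M0 * 2 ^ (n + 1) + ‖s‖ < ‖F.c 0‖ * l := by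
    have h1 : ∀ᶠ l : ℝ in atTop, M1 * 2 ^ n < ‖F.c 2‖ * l :=
      (tendsto_id.const_mul_atTop hc2).eventually_gt_atTop _
    have h2 : ∀ᶠ l : ℝ in atTop, M1 * 2 ^ n + M0 * 2 ^ (n + 1) + ‖s‖ < ‖F.c 0‖ * l :=
      (tendsto_id.const_mul_atTop hc0).eventually_gt_atTop _
    exact ((eventually_ge_atTop 1).and (h1.and h2)).exists
  obtain ⟨hl1, hl2, hl3⟩ := hl
  have hl0 : 0 < l := by linarith
  refine ⟨((l : ℂ), 0), fun z hz hpd => ?_⟩
  have hX : ‖pt ((l : ℂ), 0) z‖ = max l ‖z‖ := by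
    rw [norm_pt]
    simp [abs_of_pos hl0, Prod.norm_def, hl0.le]
  have e0 : ‖ev h (pt ((l : ℂ), 0) z)‖ ≤ M0 * (1 + max l ‖z‖) ^ (n + 1) := by
    rw [← hn0, ← hX]
    exact norm_ev_le h (pt ((l : ℂ), 0) z)
  have hn1 : n = d - 1 - 1 := by omega
  have e1 : ‖pd 2 (ev h) (pt ((l : ℂ), 0) z)‖ ≤ M1 * (1 + max l ‖z‖) ^ n := by
    rw [← hX, hn1]
    exact norm_pd_ev_le 2 h (pt ((l : ℂ), 0) z)
  rw [F.pd_f] at hpd
  have hz2 : (pt ((l : ℂ), 0) z) 2 = z := rfl
  have hz0 : (pt ((l : ℂ), 0) z) 0 = l := rfl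
  have hz1 : (pt ((l : ℂ), 0) z) 1 = 0 := rfl
  rw [hz2] at hpd
  have k1 : ‖F.c 2‖ * ‖z‖ ^ (n + 1) ≤ M1 * (1 + max l ‖z‖) ^ n := by
    have h1 : F.c 2 * (d * z ^ (n + 1)) = -pd 2 (ev h) (pt ((l : ℂ), 0) z) := by
      rw [← hn0]
      exact eq_neg_of_add_eq_zero_left hpd
    have h2 : ‖F.c 2 * (d * z ^ (n + 1))‖ = ‖F.c 2‖ * (d * ‖z‖ ^ (n + 1)) := by
      rw [norm_mul, norm_mul, norm_pow, Complex.norm_natCast]
    have h3 : ‖F.c 2‖ * ‖z‖ ^ (n + 1) ≤ ‖F.c 2‖ * (d * ‖z‖ ^ (n + 1)) := by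
      refine mul_le_mul_of_nonneg_left ?_ hc2.le
      have : (1 : ℝ) ≤ d := by
        have := F.hd
        exact_mod_cast (by omega : 1 ≤ d)
      exact le_mul_of_one_le_left (by positivity) this
    rw [← h2, h1, norm_neg] at h3
    exact h3.trans e1
  rcases le_total l ‖z‖ with hlz | hlz
  · rw [max_eq_right hlz] at k1
    have hz1' : 1 ≤ ‖z‖ := hl1.trans hlz
    have h2 : (1 + ‖z‖) ^ n ≤ 2 ^ n * ‖z‖ ^ n := by
      rw [← mul_pow]
      exact pow_le_pow_left₀ (by positivity) (by linarith) _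
    have h3 : ‖F.c 2‖ * ‖z‖ * ‖z‖ ^ n ≤ M1 * 2 ^ n * ‖z‖ ^ n := by
      calc ‖F.c 2‖ * ‖z‖ * ‖z‖ ^ n = ‖F.c 2‖ * ‖z‖ ^ (n + 1) := by ring
        _ ≤ M1 * (1 + ‖z‖) ^ n := k1
        _ ≤ M1 * (2 ^ n * ‖z‖ ^ n) := mul_le_mul_of_nonneg_left h2 hM10
        _ = M1 * 2 ^ n * ‖z‖ ^ n := by ring
    have h4 : ‖F.c 2‖ * ‖z‖ ≤ M1 * 2 ^ n := le_of_mul_le_mul_right h3 (by positivity)
    have h5 : ‖F.c 2‖ * l ≤ ‖F.c 2‖ * ‖z‖ := mul_le_mul_of_nonneg_left hlz hc2.le
    linarith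
  · rw [max_eq_left hlz] at k1 e0
    have h2 : ∀ m : ℕ, (1 + l) ^ m ≤ 2 ^ m * l ^ m := fun m => by
      rw [← mul_pow]
      exact pow_le_pow_left₀ (by positivity) (by linarith) _
    have h3 : ‖F.c 2‖ * ‖z‖ ^ (n + 2) ≤ M1 * 2 ^ n * l ^ (n + 1) := by
      calc ‖F.c 2‖ * ‖z‖ ^ (n + 2) = ‖F.c 2‖ * ‖z‖ ^ (n + 1) * ‖z‖ := by ring
        _ ≤ (M1 * (2 ^ n * l ^ n)) * l := by
            refine mul_le_mul (k1.trans (mul_le_mul_of_nonneg_left (h2 n) hM10)) hlz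
              (norm_nonneg _) (by positivity)
        _ = M1 * 2 ^ n * l ^ (n + 1) := by ring
    have h4 : F.c 0 * (l : ℂ) ^ (n + 2) = s - F.c 2 * z ^ (n + 2) - ev h (pt ((l : ℂ), 0) z) := by
      have h5 : F.f t (pt ((l : ℂ), 0) z) = F.c 0 * (l : ℂ) ^ d + F.c 1 * 0 ^ d + F.c 2 * z ^ d +
          ev h (pt ((l : ℂ), 0) z) := by
        unfold PFam.f
        rw [Fin.sum_univ_three, hz2, hz0, hz1]
      have e5 : (0 : ℂ) ^ d = 0 := zero_pow (by omega)
      have e6 : (l : ℂ) ^ d = (l : ℂ) ^ (n + 2) := by rw [hn]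
      have e7 : z ^ d = z ^ (n + 2) := by rw [hn]
      rw [hz, e5, e6, e7] at h5
      rw [h5]
      ring
    have h5 : ‖F.c 0‖ * l ^ (n + 2) ≤ ‖s‖ + ‖F.c 2‖ * ‖z‖ ^ (n + 2) + M0 * (1 + l) ^ (n + 1) := by
      have h6 : ‖F.c 0 * (l : ℂ) ^ (n + 2)‖ = ‖F.c 0‖ * l ^ (n + 2) := by
        rw [norm_mul, norm_pow, Complex.norm_real, Real.norm_of_nonneg hl0.le]
      rw [← h6, h4]
      refine (norm_sub_le _ _).trans (add_le_add ((norm_sub_le _ _).trans_eq ?_) e0)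
      rw [norm_mul, norm_pow]
    have h6 : 1 ≤ l ^ (n + 1) := one_le_pow₀ hl1
    have h7 : ‖F.c 0‖ * l * l ^ (n + 1) ≤ (M1 * 2 ^ n + M0 * 2 ^ (n + 1) + ‖s‖) * l ^ (n + 1) := by
      calc ‖F.c 0‖ * l * l ^ (n + 1) = ‖F.c 0‖ * l ^ (n + 2) := by ring
        _ ≤ ‖s‖ + ‖F.c 2‖ * ‖z‖ ^ (n + 2) + M0 * (1 + l) ^ (n + 1) := h5
        _ ≤ ‖s‖ * l ^ (n + 1) + M1 * 2 ^ n * l ^ (n + 1) + M0 * (2 ^ (n + 1) * l ^ (n + 1)) := by
            refine add_le_add (add_le_add ?_ h3) (mul_le_mul_of_nonneg_left (h2 _) hM00)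
            exact le_mul_of_one_le_right (norm_nonneg _) h6
        _ = (M1 * 2 ^ n + M0 * 2 ^ (n + 1) + ‖s‖) * l ^ (n + 1) := by ring
    have h8 := le_of_mul_le_mul_right h7 (by positivity)
    linarith

/-- number of roots counted without multiplicity, when all are nondegenerate -/
theorem PFam.exists_roots {t s : ℂ} {p : ℂ × ℂ}
    (hp : ∀ z, F.f t (pt p z) = s → pd 2 (F.f t) (pt p z) ≠ 0) :
    ∃ T : Finset ℂ, T.card = d ∧ ∀ z ∈ T, z ∈ Rts (F.f t) s p := by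
  classical
  -- the polynomial in the last variable
  let h := F.a t
  let P : Polynomial ℂ := Polynomial.C (F.c 2) * Polynomial.X ^ d +
    (Polynomial.C (F.c 0 * p.1 ^ d + F.c 1 * p.2 ^ d - s) +
      ∑ α : Mon d (d - 1), Polynomial.C (h α * (p.1 ^ (α.1 0 : ℕ) * p.2 ^ (α.1 1 : ℕ))) *
        Polynomial.X ^ (α.1 2 : ℕ))
  have hd := F.hd
  have hP : ∀ z, P.eval z = F.f t (pt p z) - s := by
    intro z
    have h1 : F.f t (pt p z) = F.c 0 * p.1 ^ d + F.c 1 * p.2 ^ d + F.c 2 * z ^ d +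
        ev h (pt p z) := by
      unfold PFam.f
      rw [Fin.sum_univ_three]
      rfl
    have h2 : ev h (pt p z) = ∑ α : Mon d (d - 1), h α * (p.1 ^ (α.1 0 : ℕ) * p.2 ^ (α.1 1 : ℕ)) *
        z ^ (α.1 2 : ℕ) := by
      unfold ev
      refine Finset.sum_congr rfl fun α _ => ?_
      rw [Fin.prod_univ_three]
      simp only [pt, Matrix.cons_val_zero, Matrix.cons_val_one, Matrix.cons_val]
      ring
    rw [h1, h2]
    simp only [P, Polynomial.eval_add, Polynomial.eval_mul, Polynomial.eval_C, Polynomial.eval_pow,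
      Polynomial.eval_X, Polynomial.eval_finsetSum]
    ring
  have hlow : (Polynomial.C (F.c 0 * p.1 ^ d + F.c 1 * p.2 ^ d - s) +
      ∑ α : Mon d (d - 1), Polynomial.C (h α * (p.1 ^ (α.1 0 : ℕ) * p.2 ^ (α.1 1 : ℕ))) *
        Polynomial.X ^ (α.1 2 : ℕ)).degree < (d : WithBot ℕ) := by
    refine (Polynomial.degree_add_le _ _).trans_lt (max_lt ?_ ?_)
    · refine Polynomial.degree_C_le.trans_lt ?_
      exact_mod_cast (by omega : 0 < d)
    · refine (Polynomial.degree_sum_le _ _).trans_lt ?_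
      refine (Finset.sup_lt_iff (WithBot.bot_lt_coe d)).2 fun α _ => ?_
      refine (Polynomial.degree_C_mul_X_pow_le _ _).trans_lt ?_
      exact WithBot.coe_lt_coe.2 α.2.2
  have hdeg : P.natDegree = d := by
    have h1 : P.degree = d := by
      have h2 : (Polynomial.C (F.c 2) * Polynomial.X ^ d : Polynomial ℂ).degree = d :=
        Polynomial.degree_C_mul_X_pow d (F.hc 2)
      rw [Polynomial.degree_add_eq_left_of_degree_lt (by rw [h2]; exact hlow), h2]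
    exact Polynomial.natDegree_eq_of_degree_eq_some h1
  have hP0 : P ≠ 0 := by
    intro h0
    rw [h0, Polynomial.natDegree_zero] at hdeg
    omega
  have hder : ∀ z, P.derivative.eval z = pd 2 (F.f t) (pt p z) := by
    intro z
    have h1 : HasDerivAt (fun w => P.eval w) (P.derivative.eval z) z := P.hasDerivAt z
    have h2 : (fun w => P.eval w) = fun w => F.f t (pt p w) - s := funext hP
    have h4 : HasFDerivAt (F.f t) (fderiv ℂ (F.f t) (pt p z)) (pt p z) :=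
      (((F.contDiff_f t (n := 1)).differentiable one_ne_zero) _).hasFDerivAt
    have h5 := (h4.comp_hasDerivAt z (hasDerivAt_pt p z)).sub_const s
    rw [h2] at h1
    exact h1.unique h5
  refine ⟨P.roots.toFinset, ?_, ?_⟩
  · have hnd : P.roots.Nodup := by
      rw [Multiset.nodup_iff_count_le_one]
      intro z
      rw [Polynomial.count_roots]
      by_contra hlt
      push Not at hlt
      have h1 := (Polynomial.one_lt_rootMultiplicity_iff_isRoot hP0).1 hlt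
      have h2 : F.f t (pt p z) = s := by
        have h3 := hP z
        have h4 : P.eval z = 0 := h1.1
        rw [h4] at h3
        exact (sub_eq_zero.1 h3.symm)
      apply hp z h2
      rw [← hder]
      exact h1.2
    rw [Multiset.toFinset_card_of_nodup hnd, ← hdeg]
    exact IsAlgClosed.card_roots_eq_natDegree
  · intro z hz
    rw [Multiset.mem_toFinset, Polynomial.mem_roots hP0] at hz
    have h2 : F.f t (pt p z) = s := by
      have h3 := hP z
      have h4 : P.eval z = 0 := hz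
      rw [h4] at h3
      exact (sub_eq_zero.1 h3.symm)
    exact ⟨h2, hp z h2⟩

/-- all the roots persist near a good point -/
theorem PFam.eventually_roots {t : ℂ} (ht : t ∈ ball (0 : ℂ) R) {s : ℂ} {p : ℂ × ℂ}
    {T : Finset ℂ} (hT : ∀ z ∈ T, z ∈ Rts (F.f t) s p) :
    ∀ᶠ q in 𝓝 p, ∃ T' : Finset ℂ, T'.card = T.card ∧ ∀ z ∈ T', z ∈ Rts (F.f t) s q := by
  classical
  have hex := fun z : T => F.exists_root ht (hT z z.2)
  choose ζ hζ1 hζ2 using hex
  have h0 : Tendsto (fun q : ℂ × ℂ => (t, s, q)) (𝓝 p) (𝓝 (t, s, p)) :=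
    (Continuous.tendsto (by fun_prop) p)
  have h1 : ∀ z : T, Tendsto (fun q => ζ z (t, s, q)) (𝓝 p) (𝓝 (z : ℂ)) := fun z =>
    (hζ1 z).comp h0
  have h2 : ∀ᶠ q in 𝓝 p, ∀ z : T, ζ z (t, s, q) ∈ Rts (F.f t) s q :=
    eventually_all.2 fun z => h0.eventually (hζ2 z)
  have h3 : ∀ᶠ q in 𝓝 p, ∀ z w : T, z ≠ w → ζ z (t, s, q) ≠ ζ w (t, s, q) := by
    refine eventually_all.2 fun z => eventually_all.2 fun w => ?_
    by_cases hzw : z = w
    · exact Eventually.of_forall fun y h => absurd hzw h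
    · have h8 : ((z : ℂ) - w) ≠ 0 := sub_ne_zero.2 fun h => hzw (Subtype.ext h)
      filter_upwards [((h1 z).sub (h1 w)).eventually_ne h8] with y hy _
      exact sub_ne_zero.1 hy
  filter_upwards [h2, h3] with q h4 h5
  refine ⟨Finset.univ.image fun z : T => ζ z (t, s, q), ?_, ?_⟩
  · rw [Finset.card_image_of_injective]
    · simp
    · intro z w hzw
      by_contra hne
      exact h5 z w hne hzw
  · intro z hz
    obtain ⟨w, -, rfl⟩ := Finset.mem_image.1 hz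
    exact h4 w

/-- a polynomial in `Q d e` vanishing at all nondegenerate roots is zero -/
theorem PFam.eq_zero_of_forall {t : ℂ} (ht : t ∈ ball (0 : ℂ) R) {s : ℂ} {h : Q d e}
    (h0 : ∀ p, ∀ z ∈ Rts (F.f t) s p, ev h (pt p z) = 0) : h = 0 := by
  classical
  obtain ⟨p₀, hp₀⟩ := F.exists_good t s
  obtain ⟨T, hTc, hT⟩ := F.exists_roots hp₀
  have h1 := F.eventually_roots ht hT
  have hd := F.hd
  -- the polynomial in the last variable
  let P : ℂ × ℂ → Polynomial ℂ := fun p =>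
    ∑ α : Mon d e, Polynomial.C (h α * (p.1 ^ (α.1 0 : ℕ) * p.2 ^ (α.1 1 : ℕ))) *
        Polynomial.X ^ (α.1 2 : ℕ)
  have hP : ∀ p z, (P p).eval z = ev h (pt p z) := by
    intro p z
    unfold ev
    simp only [P, Polynomial.eval_mul, Polynomial.eval_C, Polynomial.eval_pow,
      Polynomial.eval_X, Polynomial.eval_finsetSum]
    refine Finset.sum_congr rfl fun α _ => ?_
    rw [Fin.prod_univ_three]
    simp only [pt, Matrix.cons_val_zero, Matrix.cons_val_one, Matrix.cons_val]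
    ring
  have hdeg : ∀ p, (P p).degree < (d : WithBot ℕ) := by
    intro p
    refine (Polynomial.degree_sum_le _ _).trans_lt ?_
    refine (Finset.sup_lt_iff (WithBot.bot_lt_coe d)).2 fun α _ => ?_
    refine (Polynomial.degree_C_mul_X_pow_le _ _).trans_lt ?_
    exact WithBot.coe_lt_coe.2 α.2.2
  have hP0 : ∀ᶠ q in 𝓝 p₀, P q = 0 := by
    filter_upwards [h1] with q hq
    obtain ⟨T', hT'c, hT'⟩ := hq
    refine Polynomial.eq_zero_of_degree_lt_of_eval_finset_eq_zero T' ?_ ?_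
    · rw [hT'c, hTc]
      exact hdeg q
    · intro z hz
      rw [hP]
      exact h0 q z (hT' z hz)
  -- the coefficients
  obtain ⟨ε, hε, hball⟩ := Metric.eventually_nhds_iff_ball.1 hP0
  ext β
  let q : MvPolynomial (Fin 2) ℂ := ∑ α : Mon d e, if (α.1 2 : ℕ) = β.1 2 then
    MvPolynomial.C (h α) * (MvPolynomial.X 0 ^ (α.1 0 : ℕ) * MvPolynomial.X 1 ^ (α.1 1 : ℕ)) else 0
  have hq : q = 0 := by
    refine MvPolynomial.funext_set (![ball p₀.1 ε, ball p₀.2 ε]) ?_ ?_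
    · intro i
      fin_cases i
      · exact (isOpen_ball.mem_nhds (mem_ball_self hε) : ball p₀.1 ε ∈ 𝓝 p₀.1) |> fun h =>
          infinite_of_mem_nhds _ h
      · exact (isOpen_ball.mem_nhds (mem_ball_self hε) : ball p₀.2 ε ∈ 𝓝 p₀.2) |> fun h =>
          infinite_of_mem_nhds _ h
    · intro x hx
      have hx0 : x 0 ∈ ball p₀.1 ε := hx 0 (Set.mem_univ _)
      have hx1 : x 1 ∈ ball p₀.2 ε := hx 1 (Set.mem_univ _)
      have hx2 : ((x 0, x 1) : ℂ × ℂ) ∈ ball p₀ ε := by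
        rw [← ball_prod_same]
        exact ⟨hx0, hx1⟩
      have h2 : P (x 0, x 1) = 0 := hball _ hx2
      have h3 : (P (x 0, x 1)).coeff (β.1 2) = 0 := by rw [h2, Polynomial.coeff_zero]
      rw [map_zero, map_sum, ← h3, Polynomial.finsetSum_coeff]
      refine Finset.sum_congr rfl fun α _ => ?_
      rw [Polynomial.coeff_C_mul, Polynomial.coeff_X_pow]
      by_cases hα : (α.1 2 : ℕ) = β.1 2
      · rw [if_pos hα, if_pos hα.symm]
        simp
      · rw [if_neg hα, if_neg fun h => hα h.symm]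
        simp
  have h2 : q.coeff (Finsupp.single 0 (β.1 0 : ℕ) + Finsupp.single 1 (β.1 1 : ℕ)) = h β := by
    rw [MvPolynomial.coeff_sum, Finset.sum_eq_single β]
    · rw [if_pos rfl, MvPolynomial.coeff_C_mul]
      have h3 : (MvPolynomial.X 0 ^ (β.1 0 : ℕ) * MvPolynomial.X 1 ^ (β.1 1 : ℕ) :
          MvPolynomial (Fin 2) ℂ) = MvPolynomial.monomial
            (Finsupp.single 0 (β.1 0 : ℕ) + Finsupp.single 1 (β.1 1 : ℕ)) 1 := by
        rw [MvPolynomial.X_pow_eq_monomial, MvPolynomial.X_pow_eq_monomial,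
          MvPolynomial.monomial_mul, one_mul]
      rw [h3, MvPolynomial.coeff_monomial, if_pos rfl, mul_one]
    · intro α _ hα
      by_cases hα2 : (α.1 2 : ℕ) = β.1 2
      · rw [if_pos hα2, MvPolynomial.coeff_C_mul]
        have h3 : (MvPolynomial.X 0 ^ (α.1 0 : ℕ) * MvPolynomial.X 1 ^ (α.1 1 : ℕ) :
            MvPolynomial (Fin 2) ℂ) = MvPolynomial.monomial
              (Finsupp.single 0 (α.1 0 : ℕ) + Finsupp.single 1 (α.1 1 : ℕ)) 1 := by
          rw [MvPolynomial.X_pow_eq_monomial, MvPolynomial.X_pow_eq_monomial,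
            MvPolynomial.monomial_mul, one_mul]
        rw [h3, MvPolynomial.coeff_monomial, if_neg, mul_zero]
        intro h4
        apply hα
        have h5 := DFunLike.congr_fun h4 0
        have h6 := DFunLike.congr_fun h4 1
        simp at h5 h6
        apply Subtype.ext
        funext i
        fin_cases i
        · exact Fin.ext h5
        · exact Fin.ext h6
        · exact Fin.ext hα2
      · rw [if_neg hα2, MvPolynomial.coeff_zero]
    · intro hβ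
      exact absurd (Finset.mem_univ _) hβ
  rw [← h2, hq]
  rfl

theorem PFam.N_pos {k : ℝ} (hk : 0 < k) {t : ℂ} (ht : t ∈ ball (0 : ℂ) R) (s : ℂ) {h : Q d e}
    (hh : h ≠ 0) : 0 < F.N k t s h := by
  rw [pos_iff_ne_zero]
  intro h0
  apply hh
  have hp : 0 < 2 / k := by positivity
  have hm := F.measurable_rootSum ht s (lsc_pow_ev k h)
  have h1 := (lintegral_eq_zero_iff hm).1 h0
  have hlsc := F.lsc_rootSum_p ht s (lsc_pow_ev k h)
  have hopen : IsOpen {p | 0 < rootSum (F.f t) s (fun x => ‖ev h x‖ₑ ^ (2 / k)) p} :=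
    hlsc.isOpen_preimage 0
  have h2 : {p | 0 < rootSum (F.f t) s (fun x => ‖ev h x‖ₑ ^ (2 / k)) p} = ∅ := by
    by_contra hne
    have h3 := hopen.measure_pos (volume : Measure (ℂ × ℂ)) (nonempty_iff_ne_empty.2 hne)
    have h4 : volume {p | 0 < rootSum (F.f t) s (fun x => ‖ev h x‖ₑ ^ (2 / k)) p} = 0 := by
      refine measure_mono_null ?_ h1
      intro p hp
      exact (show 0 < rootSum (F.f t) s (fun x => ‖ev h x‖ₑ ^ (2 / k)) p from hp).ne'
    exact h3.ne' h4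
  refine F.eq_zero_of_forall ht (s := s) fun p z hz => ?_
  have h3 : rootSum (F.f t) s (fun x => ‖ev h x‖ₑ ^ (2 / k)) p = 0 := by
    by_contra hne
    have : p ∈ {p | 0 < rootSum (F.f t) s (fun x => ‖ev h x‖ₑ ^ (2 / k)) p} :=
      pos_iff_ne_zero.2 hne
    rw [h2] at this
    exact this
  have h4 := ENNReal.tsum_eq_zero.1 h3 ⟨z, hz⟩
  rw [ENNReal.div_eq_zero_iff] at h4
  rcases h4 with h4 | h4
  · rw [ENNReal.rpow_eq_zero_iff] at h4
    rcases h4 with h4 | h4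
    · exact enorm_eq_zero.1 h4.1
    · exact absurd h4.1 enorm_ne_top
  · exact absurd h4 (ENNReal.pow_ne_top enorm_ne_top)

/-- Coercivity, uniformly on compact sets of parameters. -/
theorem PFam.coercive {k : ℝ} (hk : 0 < k) {R₁ : ℝ} (hR₁ : R₁ < R) (δ₁ : ℝ) :
    ∃ c : ℝ≥0, 0 < c ∧ ∀ t ∈ closedBall (0 : ℂ) R₁, ∀ s ∈ closedBall (0 : ℂ) δ₁, ∀ h : Q d e,
      c * (‖h‖₊ : ℝ≥0∞) ^ (2 / k) ≤ F.N k t s h := by
  have hp : 0 < 2 / k := by positivity
  set S : Set (ℂ × ℂ × Q d e) :=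
    closedBall (0 : ℂ) R₁ ×ˢ (closedBall (0 : ℂ) δ₁ ×ˢ sphere (0 : Q d e) 1) with hS
  have hSc : IsCompact S := (isCompact_closedBall _ _).prod
    ((isCompact_closedBall _ _).prod (isCompact_sphere _ _))
  have hball : ∀ t ∈ closedBall (0 : ℂ) R₁, t ∈ ball (0 : ℂ) R := fun t ht =>
    closedBall_subset_ball hR₁ ht
  obtain ⟨c, hc, hcS⟩ : ∃ c : ℝ≥0, 0 < c ∧ ∀ y ∈ S, (c : ℝ≥0∞) ≤ F.N k y.1 y.2.1 y.2.2 := by
    rcases S.eq_empty_or_nonempty with hemp | hne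
    · exact ⟨1, one_pos, fun y hy => by rw [hemp] at hy; exact absurd hy (notMem_empty y)⟩
    · have hls : LowerSemicontinuousOn (fun y : ℂ × ℂ × Q d e => F.N k y.1 y.2.1 y.2.2) S :=
        fun y hy => (F.lsc_N k (hball _ hy.1) y.2.1 y.2.2).lowerSemicontinuousWithinAt S
      obtain ⟨y₀, hy₀, hmin⟩ := hls.exists_isMinOn hne hSc
      have hne0 : y₀.2.2 ≠ 0 := by
        intro h0
        have h1 := hy₀.2.2
        rw [mem_sphere_zero_iff_norm, h0, norm_zero] at h1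
        exact zero_ne_one h1
      have hpos := F.N_pos hk (hball _ hy₀.1) y₀.2.1 hne0
      obtain ⟨c, hc0, hc1⟩ := ENNReal.lt_iff_exists_nnreal_btwn.1 hpos
      refine ⟨c, by exact_mod_cast hc0, fun y hy => hc1.le.trans ?_⟩
      exact hmin hy
  refine ⟨c, hc, fun t ht s hs h => ?_⟩
  by_cases h0 : h = 0
  · rw [h0, nnnorm_zero, ENNReal.coe_zero, ENNReal.zero_rpow_of_pos hp, mul_zero]
    exact zero_le
  · have hn : ‖h‖ ≠ 0 := norm_ne_zero_iff.2 h0
    set g : Q d e := ((‖h‖⁻¹ : ℝ) : ℂ) • h with hg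
    have hgn : ‖g‖ = 1 := by
      rw [hg, norm_smul, Complex.norm_real, norm_inv, norm_norm, inv_mul_cancel₀ hn]
    have hhg : h = ((‖h‖ : ℝ) : ℂ) • g := by
      rw [hg, smul_smul, ← Complex.ofReal_mul, mul_inv_cancel₀ hn, Complex.ofReal_one, one_smul]
    have h1 := hcS (t, s, g) ⟨ht, hs, by rw [mem_sphere_zero_iff_norm, hgn]⟩
    have h2 : F.N k t s h = (‖h‖₊ : ℝ≥0∞) ^ (2 / k) * F.N k t s g := by
      conv_lhs => rw [hhg]
      rw [F.N_smul hk]
      congr 2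
      simp
    rw [h2, mul_comm]
    gcongr

end Vale.Agent.P298.H379
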