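import Vale.Agent.P298.H379.Lsc

/-!
P298, block IRV (helper379): elementary rules for the root-sum integrals.
-/

namespace Vale.Agent.P298.H379

open Filter Topology Metric MeasureTheory Set Vale.Agent.P298
open scoped ENNReal NNReal

section gen

variable {f : (Fin 3 → ℂ) → ℂ} {s : ℂ} {φ ψ : (Fin 3 → ℂ) → ℝ≥0∞}

theorem rootSum_mono (h : ∀ x, f x = s → φ x ≤ ψ x) (p : ℂ × ℂ) :
    rootSum f s φ p ≤ rootSum f s ψ p :=
  ENNReal.tsum_le_tsum fun z => ENNReal.div_le_div_right (h _ z.2.1) _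

theorem nu_mono (h : ∀ x, f x = s → φ x ≤ ψ x) : nu f s φ ≤ nu f s ψ :=
  lintegral_mono fun p => rootSum_mono h p

theorem rootSum_add (p : ℂ × ℂ) :
    rootSum f s (fun x => φ x + ψ x) p = rootSum f s φ p + rootSum f s ψ p := by
  unfold rootSum
  rw [← ENNReal.tsum_add]
  exact tsum_congr fun z => ENNReal.add_div

theorem nu_add (hφ : Measurable (rootSum f s φ)) :
    nu f s (fun x => φ x + ψ x) = nu f s φ + nu f s ψ := by
  unfold nu
  rw [← lintegral_add_left hφ]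
  exact lintegral_congr fun p => rootSum_add p

theorem rootSum_const_mul (c : ℝ≥0∞) (p : ℂ × ℂ) :
    rootSum f s (fun x => c * φ x) p = c * rootSum f s φ p := by
  unfold rootSum
  rw [← ENNReal.tsum_mul_left]
  exact tsum_congr fun z => mul_div_assoc _ _ _

theorem nu_const_mul {c : ℝ≥0∞} (hc : c ≠ ∞) : nu f s (fun x => c * φ x) = c * nu f s φ := by
  unfold nu
  rw [← lintegral_const_mul' _ _ hc]
  exact lintegral_congr fun p => rootSum_const_mul c p

theorem nu_zero : nu f s (fun _ => 0) = 0 := by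
  unfold nu rootSum
  simp

end gen

theorem enorm_add_rpow_le (a b : ℂ) {p : ℝ} (hp : 0 < p) :
    ‖a + b‖ₑ ^ p ≤ 2 ^ p * (‖a‖ₑ ^ p + ‖b‖ₑ ^ p) := by
  have h1 : ‖a + b‖ₑ ≤ 2 * max ‖a‖ₑ ‖b‖ₑ := by
    refine (enorm_add_le a b).trans ?_
    rw [two_mul]
    exact add_le_add (le_max_left _ _) (le_max_right _ _)
  refine (ENNReal.rpow_le_rpow h1 hp.le).trans ?_
  rw [ENNReal.mul_rpow_of_nonneg _ _ hp.le]
  gcongr
  rcases le_total ‖a‖ₑ ‖b‖ₑ with h | h
  · rw [max_eq_right h]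
    exact le_add_self
  · rw [max_eq_left h]
    exact le_self_add

variable {d e : ℕ} {R δ : ℝ} (F : PFam d R δ)

theorem lsc_pow_ev (k : ℝ) (h : Q d e) :
    LowerSemicontinuous fun x : Fin 3 → ℂ => ‖ev h x‖ₑ ^ (2 / k) := by
  have h2 : Continuous fun x : Fin 3 → ℂ => (h, x) := by fun_prop
  have h3 := (continuous_pow_ev k).comp h2
  exact h3.lowerSemicontinuous

theorem PFam.N_add {k : ℝ} (hk : 0 < k) {t : ℂ} (ht : t ∈ ball (0 : ℂ) R) (s : ℂ) (h g : Q d e) :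
    F.N k t s (h + g) ≤ 2 ^ (2 / k) * (F.N k t s h + F.N k t s g) := by
  have hp : 0 < 2 / k := by positivity
  have h1 : (2 : ℝ≥0∞) ^ (2 / k) ≠ ∞ := ENNReal.rpow_ne_top_of_nonneg hp.le ENNReal.ofNat_ne_top
  have h2 : F.N k t s h + F.N k t s g =
      nu (F.f t) s (fun x => ‖ev h x‖ₑ ^ (2 / k) + ‖ev g x‖ₑ ^ (2 / k)) :=
    (nu_add (F.measurable_rootSum ht s (lsc_pow_ev k h))).symm
  rw [h2, ← nu_const_mul h1]
  refine nu_mono fun x _ => ?_
  rw [ev_add]
  exact enorm_add_rpow_le _ _ hp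

theorem PFam.N_smul {k : ℝ} (hk : 0 < k) (t s c : ℂ) (h : Q d e) :
    F.N k t s (c • h) = (‖c‖₊ : ℝ≥0∞) ^ (2 / k) * F.N k t s h := by
  have hp : 0 < 2 / k := by positivity
  have h1 : (‖c‖₊ : ℝ≥0∞) ^ (2 / k) ≠ ∞ := ENNReal.rpow_ne_top_of_nonneg hp.le ENNReal.coe_ne_top
  unfold PFam.N Nk
  rw [← nu_const_mul h1]
  congr 1
  ext1 x
  rw [ev_smul, enorm_mul, ENNReal.mul_rpow_of_nonneg _ _ hp.le]
  rfl

theorem ev_zero (x : Fin 3 → ℂ) : ev (0 : Q d e) x = 0 := by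
  simp [ev_eq]

theorem PFam.N_zero {k : ℝ} (hk : 0 < k) (t s : ℂ) : F.N k t s (0 : Q d e) = 0 := by
  have hp : 0 < 2 / k := by positivity
  unfold PFam.N Nk
  have : (fun x : Fin 3 → ℂ => ‖ev (0 : Q d e) x‖ₑ ^ (2 / k)) = fun _ => 0 := by
    ext1 x
    rw [ev_zero, enorm_zero, ENNReal.zero_rpow_of_pos hp]
  rw [this, nu_zero]

/-! ### Growth of polynomials -/

theorem norm_mono_le (α : Fin 3 → ℕ) (x : Fin 3 → ℂ) :
    ‖mono α x‖ ≤ (1 + ‖x‖) ^ (α 0 + α 1 + α 2) := by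
  unfold mono
  rw [norm_prod, Fin.prod_univ_three, pow_add, pow_add]
  have h : ∀ i, ‖x i ^ α i‖ ≤ (1 + ‖x‖) ^ α i := fun i => by
    rw [norm_pow]
    exact pow_le_pow_left₀ (norm_nonneg _) ((norm_le_pi_norm x i).trans (by linarith)) _
  gcongr <;> exact h _

theorem norm_ev_le (h : Q d e) (x : Fin 3 → ℂ) :
    ‖ev h x‖ ≤ Fintype.card (Mon d e) * ‖h‖ * (1 + ‖x‖) ^ e := by
  rw [ev_eq]
  refine (norm_sum_le _ _).trans ?_
  have h1 : ∀ α ∈ (Finset.univ : Finset (Mon d e)), ‖h α * mono (fun i => α.1 i) x‖ ≤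
      ‖h‖ * (1 + ‖x‖) ^ e := by
    intro α _
    rw [norm_mul]
    refine mul_le_mul (norm_le_pi_norm h α) ((norm_mono_le _ x).trans ?_) (norm_nonneg _)
      (norm_nonneg _)
    exact pow_le_pow_right₀ (by linarith [norm_nonneg x]) α.2.1
  refine (Finset.sum_le_card_nsmul _ _ _ h1).trans_eq ?_
  rw [nsmul_eq_mul, mul_assoc]
  rfl

theorem pd_mono (i : Fin 3) (α : Fin 3 → ℕ) (x : Fin 3 → ℂ) :
    pd i (mono α) x = α i * mono (Function.update α i (α i - 1)) x := by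
  have h : HasFDerivAt (mono α) (∑ j, (∏ l ∈ Finset.univ.erase j, x l ^ α l) •
      ((α j : ℂ) * x j ^ (α j - 1)) • (ContinuousLinearMap.proj j : (Fin 3 → ℂ) →L[ℂ] ℂ)) x := by
    unfold mono
    refine HasFDerivAt.finsetProd fun j _ => ?_
    have h1 : HasFDerivAt (fun y : Fin 3 → ℂ => y j)
      (ContinuousLinearMap.proj j : (Fin 3 → ℂ) →L[ℂ] ℂ) x := hasFDerivAt_apply j x
    have h2 := h1.pow (α j)
    rw [nsmul_eq_mul] at h2
    exact h2
  unfold pd
  rw [h.fderiv, _root_.sum_apply, Finset.sum_eq_single i]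
  · simp only [_root_.smul_apply, ContinuousLinearMap.proj_apply, Pi.single_eq_same,
      smul_eq_mul, mul_one, mono]
    rw [← Finset.mul_prod_erase Finset.univ _ (Finset.mem_univ i), Function.update_self]
    have h3 : ∏ l ∈ Finset.univ.erase i, x l ^ α l =
        ∏ l ∈ Finset.univ.erase i, x l ^ Function.update α i (α i - 1) l := by
      refine Finset.prod_congr rfl fun l hl => ?_
      rw [Function.update_of_ne (Finset.ne_of_mem_erase hl)]
    rw [h3]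
    ring
  · intro j _ hj
    simp [hj]
  · simp

theorem update_sum (α : Fin 3 → ℕ) (i : Fin 3) (h : α i ≠ 0) :
    Function.update α i (α i - 1) 0 + Function.update α i (α i - 1) 1 +
      Function.update α i (α i - 1) 2 = α 0 + α 1 + α 2 - 1 := by
  fin_cases i
  · have h0 : α 0 ≠ 0 := h
    change α 0 - 1 + α 1 + α 2 = _
    omega
  · have h0 : α 1 ≠ 0 := h
    change α 0 + (α 1 - 1) + α 2 = _
    omega
  · have h0 : α 2 ≠ 0 := h
    change α 0 + α 1 + (α 2 - 1) = _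
    omega

theorem norm_pd_ev_le (i : Fin 3) (h : Q d e) (x : Fin 3 → ℂ) :
    ‖pd i (ev h) x‖ ≤ Fintype.card (Mon d e) * e * ‖h‖ * (1 + ‖x‖) ^ (e - 1) := by
  rw [pd_ev]
  refine (norm_sum_le _ _).trans ?_
  have h1 : ∀ α ∈ (Finset.univ : Finset (Mon d e)), ‖h α * pd i (mono fun i => α.1 i) x‖ ≤
      ‖h‖ * (e * (1 + ‖x‖) ^ (e - 1)) := by
    intro α _
    rw [norm_mul, pd_mono, norm_mul]
    refine mul_le_mul (norm_le_pi_norm h α) ?_ (by positivity) (norm_nonneg _)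
    have h4 : ∀ j, (α.1 j : ℕ) ≤ e := fun j => Nat.lt_succ_iff.1 (α.1 j).2
    by_cases h0 : (α.1 i : ℕ) = 0
    · rw [h0]
      simp
      positivity
    · refine mul_le_mul ?_ ((norm_mono_le _ x).trans ?_) (norm_nonneg _) (Nat.cast_nonneg _)
      · rw [Complex.norm_natCast]
        exact_mod_cast h4 i
      · refine pow_le_pow_right₀ (by linarith [norm_nonneg x]) ?_
        have h5 := α.2.1
        rw [update_sum (fun i => (α.1 i : ℕ)) i h0]
        omega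
  refine (Finset.sum_le_card_nsmul _ _ _ h1).trans_eq ?_
  rw [nsmul_eq_mul, Finset.card_univ]
  ring

end Vale.Agent.P298.H379
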