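import Mathlib

/-!
P298, block IRV (helper379): limits of bounded families of holomorphic maps along a filter,
and ultrafilter limits.
-/

open Filter Topology Metric Set

namespace Vale.Agent.P298.H379

section Lim

variable {ι E : Type*} [NormedAddCommGroup E] [NormedSpace ℂ E]

/-- Uniformly bounded holomorphic maps which converge pointwise along a filter converge locally
uniformly. -/
theorem tlu_of_bounded {l : Filter ι} {D : Set ℂ} (hD : IsOpen D) {H : ι → ℂ → E} {h : ℂ → E}
    {B : ℝ} (hH : ∀ᶠ j in l, DifferentiableOn ℂ (H j) D ∧ ∀ t ∈ D, ‖H j t‖ ≤ B)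
    (hlim : ∀ t ∈ D, Tendsto (fun j => H j t) l (𝓝 (h t))) :
    TendstoLocallyUniformlyOn H h l D := by
  rcases l.eq_or_neBot with rfl | hne
  · rw [Metric.tendstoLocallyUniformlyOn_iff]
    intro ε hε x hx
    exact ⟨D, self_mem_nhdsWithin, by simp⟩
  rw [Metric.tendstoLocallyUniformlyOn_iff]
  intro ε hε x hx
  obtain ⟨r, hr, hrD⟩ := Metric.isOpen_iff.1 hD x hx
  set A : ℝ := 2 * |B| + 1 with hA
  have hApos : 0 < A := by positivity
  obtain ⟨δ, hδ, hδr, hδε⟩ : ∃ δ > 0, δ ≤ r ∧ A / r * δ ≤ ε / 4 := by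
    refine ⟨min r (ε / 4 * r / A), by positivity, min_le_left _ _, ?_⟩
    calc A / r * min r (ε / 4 * r / A) ≤ A / r * (ε / 4 * r / A) := by
          gcongr; exact min_le_right _ _
      _ = ε / 4 := by field_simp
  have key : ∀ᶠ j in l, ∀ y ∈ ball x δ, dist (H j y) (H j x) ≤ ε / 4 := by
    filter_upwards [hH] with j hj y hy
    have hmaps : MapsTo (H j) (ball x r) (ball (H j x) A) := by
      intro z hz
      rw [mem_ball, dist_eq_norm]
      have h1 := hj.2 z (hrD hz)
      have h2 := hj.2 x hx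
      have h3 : B ≤ |B| := le_abs_self B
      calc ‖H j z - H j x‖ ≤ ‖H j z‖ + ‖H j x‖ := norm_sub_le _ _
        _ ≤ 2 * |B| := by linarith
        _ < A := by rw [hA]; linarith
    have hyr : y ∈ ball x r := ball_subset_ball hδr hy
    have := Complex.dist_le_div_mul_dist_of_mapsTo_ball (hj.1.mono hrD)
      (hmaps.mono_right ball_subset_closedBall) hyr
    refine this.trans (le_trans ?_ hδε)
    gcongr
    exact (mem_ball.1 hy).le
  refine ⟨ball x δ ∩ D, inter_mem_nhdsWithin _ (ball_mem_nhds x hδ) |> fun h => by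
    rwa [inter_comm] at h, ?_⟩
  have hx' : ∀ᶠ j in l, dist (H j x) (h x) < ε / 4 := (Metric.tendsto_nhds.1 (hlim x hx)) _ (by
    positivity)
  filter_upwards [key, hx'] with j hj hjx y hy
  have hlimy : dist (h y) (h x) ≤ ε / 4 := by
    have ht : Tendsto (fun j => dist (H j y) (H j x)) l (𝓝 (dist (h y) (h x))) :=
      (hlim y hy.2).dist (hlim x hx)
    exact le_of_tendsto ht (key.mono fun j hj => hj y hy.1)
  calc dist (h y) (H j y) ≤ dist (h y) (h x) + dist (h x) (H j x) + dist (H j x) (H j y) :=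
        dist_triangle4 _ _ _ _
    _ < ε := by
        have h1 := hj y hy.1
        rw [dist_comm (H j x) (H j y), dist_comm (h x) (H j x)]
        linarith

theorem differentiableOn_lim [CompleteSpace E] {l : Filter ι} [l.NeBot] {D : Set ℂ} (hD : IsOpen D)
    {H : ι → ℂ → E} {h : ℂ → E}
    {B : ℝ} (hH : ∀ᶠ j in l, DifferentiableOn ℂ (H j) D ∧ ∀ t ∈ D, ‖H j t‖ ≤ B)
    (hlim : ∀ t ∈ D, Tendsto (fun j => H j t) l (𝓝 (h t))) : DifferentiableOn ℂ h D :=
  (tlu_of_bounded hD hH hlim).differentiableOn (hH.mono fun _ h => h.1) hD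

end Lim

section Ultra

variable {ι E : Type*} [NormedAddCommGroup E] [ProperSpace E]

/-- A bounded family has a limit along an ultrafilter. -/
theorem exists_lim (U : Ultrafilter ι) {x : ι → E} {B : ℝ} (hx : ∀ᶠ j in (U : Filter ι), ‖x j‖ ≤ B) :
    ∃ y, ‖y‖ ≤ B ∧ Tendsto x U (𝓝 y) := by
  have hc : IsCompact (closedBall (0 : E) B) := isCompact_closedBall 0 B
  have hmem : closedBall (0 : E) B ∈ (U.map x : Filter E) := by
    rw [Ultrafilter.coe_map, Filter.mem_map]
    filter_upwards [hx] with j hj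
    simpa using hj
  obtain ⟨y, hy, hle⟩ := hc.ultrafilter_le_nhds' (U.map x) hmem
  exact ⟨y, by simpa using hy, by simpa [Tendsto] using hle⟩

end Ultra

end Vale.Agent.P298.H379
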