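import Mathlib
import Vale.Agent.P298.H379.Lim

/-!
P298, block IRV (helper379): the abstract semicontinuity theorem RV-ABS of the route of helper680
(note 5187).  `Q` is a finite dimensional complex vector space (polynomials of degree at most `e`
in the linear model), `N k t j h` is the `L^{2/k}` quantity of `h` on the surface `S_{t, s_j}`.
-/

open Filter Topology Metric Set
open scoped NNReal ENNReal

namespace Vale.Agent.P298.H379

/-- A system of norms.  `K` = admissible exponents, `R` = radius of the parameter disc, `ρ` =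
radius ratio of the core estimate, `U` = ultrafilter along which `s_j → 0`. -/
structure NSys (ι Q : Type*) [NormedAddCommGroup Q] [NormedSpace ℂ Q] (U : Ultrafilter ι)
    (K : Set ℝ) (R ρ : ℝ) where
  /-- the quantity `N_k(t, s_j; h)` -/
  N : ℝ → ℂ → ι → Q → ℝ≥0∞
  R_pos : 0 < R
  ρ_pos : 0 < ρ
  ρ_lt : ρ < 1
  pos : ∀ k ∈ K, 0 < k
  dense : ∀ a ∈ K, ∀ b ∈ K, a < b → ∃ c ∈ K, a < c ∧ c < b
  add : ∀ k ∈ K, ∃ C : ℝ≥0, ∀ᶠ j in (U : Filter ι), ∀ t ∈ ball (0 : ℂ) R, ∀ h g : Q,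
    N k t j (h + g) ≤ C * (N k t j h + N k t j g)
  smul : ∀ k ∈ K, ∀ᶠ j in (U : Filter ι), ∀ t ∈ ball (0 : ℂ) R, ∀ (c : ℂ) (h : Q),
    N k t j (c • h) = (‖c‖₊ : ℝ≥0∞) ^ (2 / k) * N k t j h
  coer : ∀ k ∈ K, ∃ c : ℝ≥0, 0 < c ∧ ∀ᶠ j in (U : Filter ι), ∀ t ∈ ball (0 : ℂ) R, ∀ h : Q,
    c * (‖h‖₊ : ℝ≥0∞) ^ (2 / k) ≤ N k t j h
  mono : ∀ k' ∈ K, ∀ k ∈ K, k' < k → ∃ C : ℝ≥0, ∀ᶠ j in (U : Filter ι),
    ∀ t ∈ ball (0 : ℂ) R, ∀ h : Q,
      N k' t j h ≤ C * (‖h‖₊ : ℝ≥0∞) ^ (2 / k' - 2 / k) * N k t j h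
  core : ∀ k ∈ K, ∀ᶠ j in (U : Filter ι), ∀ r₂ ≤ R, ∀ r ∈ Ioo 0 r₂, ∀ h : ℂ → Q,
    DifferentiableOn ℂ h (ball 0 r₂) → ∀ Λ : ℝ≥0∞,
      (∀ t : ℂ, ρ * r ≤ ‖t‖ → ‖t‖ ≤ r → N k t j (h t) ≤ Λ) →
        ∀ t : ℂ, ‖t‖ ≤ r → N k t j (h t) ≤ 2 * Λ
  ext : ∀ k ∈ K, ∀ t₀ ∈ ball (0 : ℂ) R, ∃ C : ℝ≥0, ∀ᶠ j in (U : Filter ι), ∀ v : Q,
    ∃ h : ℂ → Q, DifferentiableOn ℂ h (ball 0 R) ∧ h t₀ = v ∧
      ∀ t ∈ ball (0 : ℂ) R, N k t j (h t) ≤ C * N k t₀ j v

namespace NSys

variable {ι Q : Type*} [NormedAddCommGroup Q] [NormedSpace ℂ Q] {U : Ultrafilter ι}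
  {K : Set ℝ} {R ρ : ℝ} (S : NSys ι Q U K R ρ)

include S in
theorem two_div_pos {k : ℝ} (hk : k ∈ K) : 0 < 2 / k := div_pos two_pos (S.pos k hk)

include S in
theorem expo_pos {k k' : ℝ} (hk : k ∈ K) (hk' : k' ∈ K) (hlt : k' < k) : 0 < 2 / k' - 2 / k := by
  have h1 := S.pos k hk
  have h2 := S.pos k' hk'
  rw [sub_pos]
  exact div_lt_div_of_pos_left two_pos h2 hlt

/-- The limit space: limits of `h_j` with bounded `N k t j h_j`. -/
def L (k : ℝ) (t : ℂ) (hk : k ∈ K) (ht : t ∈ ball (0 : ℂ) R) : Submodule ℂ Q where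
  carrier := {h | ∃ H : ι → Q, Tendsto H U (𝓝 h) ∧ ∃ Λ : ℝ≥0, ∀ᶠ j in (U : Filter ι),
    S.N k t j (H j) ≤ Λ}
  zero_mem' := by
    refine ⟨fun _ => 0, tendsto_const_nhds, 0, ?_⟩
    filter_upwards [S.smul k hk] with j hj
    have := hj t ht 0 0
    rw [zero_smul] at this
    rw [this]
    simp [ENNReal.zero_rpow_of_pos (S.two_div_pos hk)]
  add_mem' := by
    rintro a b ⟨A, hA, Λa, ha⟩ ⟨B, hB, Λb, hb⟩
    obtain ⟨C, hC⟩ := S.add k hk
    refine ⟨fun j => A j + B j, hA.add hB, C * (Λa + Λb), ?_⟩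
    filter_upwards [hC, ha, hb] with j h1 h2 h3
    refine (h1 t ht _ _).trans ?_
    push_cast
    gcongr
  smul_mem' := by
    rintro c a ⟨A, hA, Λa, ha⟩
    refine ⟨fun j => c • A j, hA.const_smul c, ‖c‖₊ ^ (2 / k) * Λa, ?_⟩
    filter_upwards [S.smul k hk, ha] with j h1 h2
    rw [h1 t ht, ENNReal.coe_mul, ENNReal.coe_rpow_of_nonneg _ (S.two_div_pos hk).le]
    gcongr

/-- Families in the limit class of exponent `k` on the disc of radius `r`. -/
def Fam (k r : ℝ) (H : ℂ → Q) : Prop :=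
  ∃ A : ι → ℂ → Q, ∃ Λ : ℝ≥0, (∀ᶠ j in (U : Filter ι), DifferentiableOn ℂ (A j) (ball 0 r) ∧
    ∀ t ∈ ball (0 : ℂ) r, S.N k t j (A j t) ≤ Λ) ∧
    ∀ t ∈ ball (0 : ℂ) r, Tendsto (fun j => A j t) U (𝓝 (H t))

variable {S}

theorem Fam.mono_radius {k r r' : ℝ} {H : ℂ → Q} (h : S.Fam k r H) (hr : r' ≤ r) :
    S.Fam k r' H := by
  obtain ⟨A, Λ, h1, h2⟩ := h
  refine ⟨A, Λ, ?_, fun t ht => h2 t (ball_subset_ball hr ht)⟩
  filter_upwards [h1] with j hj
  exact ⟨hj.1.mono (ball_subset_ball hr), fun t ht => hj.2 t (ball_subset_ball hr ht)⟩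

/-- norm bound from the bound of `N`. -/
theorem norm_le_of_N {k : ℝ} (hk : k ∈ K) : ∃ c : ℝ≥0, 0 < c ∧ ∀ᶠ j in (U : Filter ι),
    ∀ t ∈ ball (0 : ℂ) R, ∀ (h : Q) (Λ : ℝ≥0), S.N k t j h ≤ Λ →
      ‖h‖₊ ≤ (c * Λ) ^ (k / 2) := by
  obtain ⟨c, hc, h⟩ := S.coer k hk
  refine ⟨c⁻¹, by positivity, ?_⟩
  filter_upwards [h] with j hj t ht h Λ hΛ
  have h1 := (hj t ht h).trans hΛ
  have hkp := S.pos k hk
  rw [← ENNReal.coe_rpow_of_nonneg _ (S.two_div_pos hk).le, ← ENNReal.coe_mul,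
    ENNReal.coe_le_coe] at h1
  have h2 : ‖h‖₊ ^ (2 / k) ≤ c⁻¹ * Λ := by
    rw [inv_mul_eq_div, le_div_iff₀ hc, mul_comm]; exact h1
  have h3 := NNReal.rpow_le_rpow h2 (by positivity : 0 ≤ k / 2)
  rwa [← NNReal.rpow_mul, show 2 / k * (k / 2) = 1 by field_simp, NNReal.rpow_one] at h3

theorem Fam.bounded {k r : ℝ} (hk : k ∈ K) (hr : r ≤ R) {A : ι → ℂ → Q} {Λ : ℝ≥0}
    (h : ∀ᶠ j in (U : Filter ι), DifferentiableOn ℂ (A j) (ball 0 r) ∧
      ∀ t ∈ ball (0 : ℂ) r, S.N k t j (A j t) ≤ Λ) :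
    ∃ B : ℝ≥0, ∀ᶠ j in (U : Filter ι), DifferentiableOn ℂ (A j) (ball 0 r) ∧
      ∀ t ∈ ball (0 : ℂ) r, ‖A j t‖ ≤ B := by
  obtain ⟨c, hc, h1⟩ := S.norm_le_of_N hk
  refine ⟨(c * Λ) ^ (k / 2), ?_⟩
  filter_upwards [h, h1] with j h2 h3
  exact ⟨h2.1, fun t ht => by
    exact_mod_cast h3 t (ball_subset_ball hr ht) _ _ (h2.2 t ht)⟩

theorem Fam.differentiableOn [CompleteSpace Q] {k r : ℝ} (hk : k ∈ K) (hr : r ≤ R) {H : ℂ → Q}
    (h : S.Fam k r H) : DifferentiableOn ℂ H (ball 0 r) := by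
  obtain ⟨A, Λ, h1, h2⟩ := h
  obtain ⟨B, hB⟩ := Fam.bounded hk hr h1
  exact differentiableOn_lim isOpen_ball hB h2

theorem Fam.mem_L {k r : ℝ} (hk : k ∈ K) (hr : r ≤ R) {H : ℂ → Q} (h : S.Fam k r H) {t : ℂ}
    (ht : t ∈ ball (0 : ℂ) r) : H t ∈ S.L k t hk (ball_subset_ball hr ht) := by
  obtain ⟨A, Λ, h1, h2⟩ := h
  exact ⟨fun j => A j t, h2 t ht, Λ, h1.mono fun j hj => hj.2 t ht⟩

theorem Fam.add {k r : ℝ} (hk : k ∈ K) (hr : r ≤ R) {H G : ℂ → Q} (h : S.Fam k r H)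
    (g : S.Fam k r G) : S.Fam k r (H + G) := by
  obtain ⟨A, Λ, h1, h2⟩ := h
  obtain ⟨B, Λ', g1, g2⟩ := g
  obtain ⟨C, hC⟩ := S.add k hk
  refine ⟨fun j => A j + B j, C * (Λ + Λ'), ?_, fun t ht => (h2 t ht).add (g2 t ht)⟩
  filter_upwards [h1, g1, hC] with j a b c
  refine ⟨a.1.add b.1, fun t ht => (c t (ball_subset_ball hr ht) _ _).trans ?_⟩
  push_cast
  gcongr
  · exact a.2 t ht
  · exact b.2 t ht

theorem Fam.smul {k r : ℝ} (hk : k ∈ K) (hr : r ≤ R) {H : ℂ → Q} (c : ℂ) (h : S.Fam k r H) :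
    S.Fam k r (c • H) := by
  obtain ⟨A, Λ, h1, h2⟩ := h
  refine ⟨fun j => c • A j, ‖c‖₊ ^ (2 / k) * Λ, ?_, fun t ht => (h2 t ht).const_smul c⟩
  filter_upwards [h1, S.smul k hk] with j a b
  refine ⟨a.1.const_smul c, fun t ht => ?_⟩
  rw [Pi.smul_apply, b t (ball_subset_ball hr ht), ENNReal.coe_mul,
    ENNReal.coe_rpow_of_nonneg _ (S.two_div_pos hk).le]
  gcongr
  exact a.2 t ht

theorem Fam.zero {k r : ℝ} (hk : k ∈ K) (hr : r ≤ R) : S.Fam k r (0 : ℂ → Q) := by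
  refine ⟨fun _ => 0, 0, ?_, fun t ht => tendsto_const_nhds⟩
  filter_upwards [S.smul k hk] with j hj
  refine ⟨differentiableOn_const 0, fun t ht => ?_⟩
  have := hj t (ball_subset_ball hr ht) 0 0
  rw [zero_smul] at this
  rw [Pi.zero_apply, this]
  simp [ENNReal.zero_rpow_of_pos (S.two_div_pos hk)]

theorem Fam.sum {k r : ℝ} (hk : k ∈ K) (hr : r ≤ R) {α : Type*} (s : Finset α) (c : α → ℂ)
    (H : α → ℂ → Q) (h : ∀ a ∈ s, S.Fam k r (H a)) : S.Fam k r (∑ a ∈ s, c a • H a) := by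
  classical
  induction s using Finset.induction_on with
  | empty => simpa using Fam.zero hk hr
  | insert a s ha ih =>
    rw [Finset.sum_insert ha]
    exact Fam.add hk hr (Fam.smul hk hr (c a) (h a (Finset.mem_insert_self _ _)))
      (ih fun b hb => h b (Finset.mem_insert_of_mem hb))

/-- Lowering the exponent. -/
theorem Fam.lower {k k' r : ℝ} (hk : k ∈ K) (hk' : k' ∈ K) (hlt : k' < k) (hr : r ≤ R)
    {H : ℂ → Q} (h : S.Fam k r H) : S.Fam k' r H := by
  obtain ⟨A, Λ, h1, h2⟩ := h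
  obtain ⟨B, hB⟩ := Fam.bounded hk hr h1
  obtain ⟨C, hC⟩ := S.mono k' hk' k hk hlt
  have he := (S.expo_pos hk hk' hlt).le
  refine ⟨A, C * B ^ (2 / k' - 2 / k) * Λ, ?_, h2⟩
  filter_upwards [h1, hB, hC] with j a b c
  refine ⟨a.1, fun t ht => (c t (ball_subset_ball hr ht) _).trans ?_⟩
  rw [ENNReal.coe_mul, ENNReal.coe_mul, ENNReal.coe_rpow_of_nonneg _ he]
  gcongr
  · exact_mod_cast b.2 t ht
  · exact a.2 t ht


/-- Start: every element of the limit space at `t₁` is the value of a family on the whole disc. -/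
theorem exists_fam [FiniteDimensional ℂ Q] {k : ℝ} (hk : k ∈ K) {t₁ : ℂ}
    (ht₁ : t₁ ∈ ball (0 : ℂ) R) {v : Q} (hv : v ∈ S.L k t₁ hk ht₁) :
    ∃ H : ℂ → Q, S.Fam k R H ∧ H t₁ = v := by
  have : ProperSpace Q := FiniteDimensional.proper ℂ Q
  obtain ⟨V, hV, Λ, hΛ⟩ := hv
  obtain ⟨C, hC⟩ := S.ext k hk t₁ ht₁
  have hA : ∀ j, ∃ h : ℂ → Q, (∀ v : Q, ∃ h : ℂ → Q, DifferentiableOn ℂ h (ball 0 R) ∧ h t₁ = v ∧
      ∀ t ∈ ball (0 : ℂ) R, S.N k t j (h t) ≤ C * S.N k t₁ j v) →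
      (DifferentiableOn ℂ h (ball 0 R) ∧ h t₁ = V j ∧
        ∀ t ∈ ball (0 : ℂ) R, S.N k t j (h t) ≤ C * S.N k t₁ j (V j)) := by
    intro j
    by_cases hj : ∀ v : Q, ∃ h : ℂ → Q, DifferentiableOn ℂ h (ball 0 R) ∧ h t₁ = v ∧
        ∀ t ∈ ball (0 : ℂ) R, S.N k t j (h t) ≤ C * S.N k t₁ j v
    · obtain ⟨h, hh⟩ := hj (V j)
      exact ⟨h, fun _ => hh⟩
    · exact ⟨0, fun h => absurd h hj⟩
  choose A hA using hA
  have hA' : ∀ᶠ j in (U : Filter ι), DifferentiableOn ℂ (A j) (ball 0 R) ∧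
      ∀ t ∈ ball (0 : ℂ) R, S.N k t j (A j t) ≤ ((C * Λ : ℝ≥0) : ℝ≥0∞) := by
    filter_upwards [hC, hΛ] with j h1 h2
    obtain ⟨a, b, c⟩ := hA j h1
    refine ⟨a, fun t ht => (c t ht).trans ?_⟩
    push_cast
    gcongr
  have hA1 : ∀ᶠ j in (U : Filter ι), A j t₁ = V j := by
    filter_upwards [hC] with j h1
    exact (hA j h1).2.1
  obtain ⟨B, hB⟩ := Fam.bounded hk le_rfl hA'
  have hlim : ∀ t : ℂ, ∃ y : Q, t ∈ ball (0 : ℂ) R → Tendsto (fun j => A j t) U (𝓝 y) := by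
    intro t
    by_cases ht : t ∈ ball (0 : ℂ) R
    · obtain ⟨y, -, hy⟩ := exists_lim U (x := fun j => A j t) (B := B)
        (hB.mono fun j hj => hj.2 t ht)
      exact ⟨y, fun _ => hy⟩
    · exact ⟨0, fun h => absurd h ht⟩
  choose H hH using hlim
  refine ⟨H, ⟨A, C * Λ, hA', hH⟩, ?_⟩
  have h1 := hH t₁ ht₁
  have h2 : Tendsto (fun j => A j t₁) U (𝓝 v) := by
    refine hV.congr' ?_
    filter_upwards [hA1] with j hj using hj.symm
  exact tendsto_nhds_unique h1 h2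

/-- Division by `t`. -/
theorem Fam.divide [FiniteDimensional ℂ Q] {k k' r r' : ℝ} (hk : k ∈ K) (hk' : k' ∈ K)
    (hlt : k' < k) (hr : r ≤ R) (hr'0 : 0 < r') (hr' : r' < r) {H : ℂ → Q} (h : S.Fam k r H)
    (h0 : H 0 = 0) :
    ∃ G : ℂ → Q, S.Fam k' r' G ∧ ∀ t ∈ ball (0 : ℂ) r', H t = t • G t := by
  have : ProperSpace Q := FiniteDimensional.proper ℂ Q
  have : CompleteSpace Q := FiniteDimensional.complete ℂ Q
  obtain ⟨A, Λ, hA, hlim⟩ := h
  have hr0 : 0 < r := hr'0.trans hr'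
  have h0r : (0 : ℂ) ∈ ball (0 : ℂ) r := mem_ball_self hr0
  have h0R : (0 : ℂ) ∈ ball (0 : ℂ) R := mem_ball_self S.R_pos
  -- the bound for the exponent `k'`
  obtain ⟨Λ₁, hΛ₁⟩ : ∃ Λ₁ : ℝ≥0, ∀ᶠ j in (U : Filter ι), ∀ t ∈ ball (0 : ℂ) r,
      S.N k' t j (A j t) ≤ Λ₁ := by
    obtain ⟨B, hB⟩ := Fam.bounded hk hr hA
    obtain ⟨C, hC⟩ := S.mono k' hk' k hk hlt
    have he := (S.expo_pos hk hk' hlt).le
    refine ⟨C * B ^ (2 / k' - 2 / k) * Λ, ?_⟩
    filter_upwards [hA, hB, hC] with j a b c t ht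
    refine (c t (ball_subset_ball hr ht) _).trans ?_
    rw [ENNReal.coe_mul, ENNReal.coe_mul, ENNReal.coe_rpow_of_nonneg _ he]
    gcongr
    · exact_mod_cast b.2 t ht
    · exact a.2 t ht
  -- the values at `0` tend to `0` in `N k'`
  have hN0 : Tendsto (fun j => S.N k' 0 j (A j 0)) U (𝓝 0) := by
    obtain ⟨C, hC⟩ := S.mono k' hk' k hk hlt
    have he := S.expo_pos hk hk' hlt
    have h1 : Tendsto (fun j => (C : ℝ≥0∞) * (‖A j 0‖₊ : ℝ≥0∞) ^ (2 / k' - 2 / k) * Λ) U (𝓝 0) := by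
      have h2 : Tendsto (fun j => (‖A j 0‖₊ : ℝ≥0∞)) U (𝓝 0) := by
        have h3 := (hlim 0 h0r).nnnorm
        rw [h0, nnnorm_zero] at h3
        have h3' := ENNReal.tendsto_coe.2 h3
        rw [ENNReal.coe_zero] at h3'
        exact h3'
      have h4 : Tendsto (fun j => (‖A j 0‖₊ : ℝ≥0∞) ^ (2 / k' - 2 / k)) U (𝓝 0) := by
        have h5 := (ENNReal.continuous_rpow_const (y := 2 / k' - 2 / k)).tendsto 0
        rw [ENNReal.zero_rpow_of_pos he] at h5
        exact h5.comp h2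
      have h6 := ENNReal.Tendsto.const_mul (a := (C : ℝ≥0∞)) h4 (Or.inr ENNReal.coe_ne_top)
      rw [mul_zero] at h6
      have h7 := ENNReal.Tendsto.mul_const (b := (Λ : ℝ≥0∞)) h6 (Or.inr ENNReal.coe_ne_top)
      rwa [zero_mul] at h7
    refine tendsto_of_tendsto_of_tendsto_of_le_of_le' tendsto_const_nhds h1
      (Eventually.of_forall fun _ => bot_le) ?_
    filter_upwards [hA, hC] with j a c
    refine (c 0 h0R _).trans ?_
    gcongr
    exact a.2 0 h0r
  -- extensions of the values at `0`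
  obtain ⟨C₂, hC₂⟩ := S.ext k' hk' 0 h0R
  have hg : ∀ j, ∃ h : ℂ → Q, (∀ v : Q, ∃ h : ℂ → Q, DifferentiableOn ℂ h (ball 0 R) ∧ h 0 = v ∧
      ∀ t ∈ ball (0 : ℂ) R, S.N k' t j (h t) ≤ C₂ * S.N k' 0 j v) →
      (DifferentiableOn ℂ h (ball 0 R) ∧ h 0 = A j 0 ∧
        ∀ t ∈ ball (0 : ℂ) R, S.N k' t j (h t) ≤ C₂ * S.N k' 0 j (A j 0)) := by
    intro j
    by_cases hj : ∀ v : Q, ∃ h : ℂ → Q, DifferentiableOn ℂ h (ball 0 R) ∧ h 0 = v ∧
        ∀ t ∈ ball (0 : ℂ) R, S.N k' t j (h t) ≤ C₂ * S.N k' 0 j v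
    · obtain ⟨h, hh⟩ := hj (A j 0)
      exact ⟨h, fun _ => hh⟩
    · exact ⟨0, fun h => absurd h hj⟩
  choose g hg using hg
  have hg' : ∀ᶠ j in (U : Filter ι), DifferentiableOn ℂ (g j) (ball 0 R) ∧ g j 0 = A j 0 ∧
        ∀ t ∈ ball (0 : ℂ) R, S.N k' t j (g j t) ≤ C₂ * S.N k' 0 j (A j 0) :=
    hC₂.mono fun j hj => hg j hj
  -- `g j t → 0`
  have hgN : ∀ ε : ℝ≥0, 0 < ε → ∀ᶠ j in (U : Filter ι), ∀ t ∈ ball (0 : ℂ) R,
      S.N k' t j (g j t) ≤ ε := by
    intro ε hε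
    have h1 := ENNReal.Tendsto.const_mul (a := (C₂ : ℝ≥0∞)) hN0 (Or.inr ENNReal.coe_ne_top)
    rw [mul_zero] at h1
    have h2 := (ENNReal.tendsto_nhds_zero.1 h1) ε (by exact_mod_cast hε)
    filter_upwards [h2, hg'] with j a b t ht
    exact (b.2.2 t ht).trans a
  have hg0 : ∀ t ∈ ball (0 : ℂ) R, Tendsto (fun j => g j t) U (𝓝 0) := by
    intro t ht
    obtain ⟨c, hc, hcN⟩ := S.norm_le_of_N hk'
    rw [tendsto_zero_iff_norm_tendsto_zero, Metric.tendsto_nhds]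
    intro ε hε
    have hk'pos := S.pos k' hk'
    obtain ⟨δ, hδ, hδε⟩ : ∃ δ : ℝ≥0, 0 < δ ∧ (c * δ) ^ (k' / 2) < ⟨ε, hε.le⟩ := by
      have h1 : Tendsto (fun δ : ℝ≥0 => (c * δ) ^ (k' / 2)) (𝓝[>] 0) (𝓝 0) := by
        have h2 : Continuous fun δ : ℝ≥0 => (c * δ) ^ (k' / 2) :=
          (NNReal.continuous_rpow_const (by positivity)).comp (continuous_const.mul continuous_id)
        have h3 := h2.tendsto 0
        simp only [mul_zero] at h3
        rw [NNReal.zero_rpow (by positivity)] at h3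
        exact h3.mono_left nhdsWithin_le_nhds
      have h4 : ∀ᶠ δ in 𝓝[>] (0 : ℝ≥0), (c * δ) ^ (k' / 2) < ⟨ε, hε.le⟩ :=
        h1.eventually (gt_mem_nhds (by exact_mod_cast hε))
      obtain ⟨δ, h5, h6⟩ := (h4.and self_mem_nhdsWithin).exists
      exact ⟨δ, h6, h5⟩
    filter_upwards [hgN δ hδ, hcN] with j a b
    have h1 := b t ht (g j t) δ (a t ht)
    have h2 := h1.trans_lt hδε
    rw [dist_zero_right, norm_norm]
    exact_mod_cast h2
  -- the quotients
  set q : ι → ℂ → Q := fun j => dslope (fun t => A j t - g j t) 0 with hq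
  have hqne : ∀ j, ∀ t : ℂ, t ≠ 0 → A j 0 - g j 0 = 0 → q j t = t⁻¹ • (A j t - g j t) := by
    intro j t ht h
    rw [hq]
    simp only
    rw [dslope_of_ne _ ht, slope_def_module, h]
    simp
  set r₁ := (r' + r) / 2 with hr₁
  have hr₁0 : 0 < r₁ := by rw [hr₁]; linarith
  have hr₁r : r₁ < r := by rw [hr₁]; linarith
  have hr'r₁ : r' < r₁ := by rw [hr₁]; linarith
  obtain ⟨C₃, hC₃⟩ := S.add k' hk'
  set ρr : ℝ≥0 := ⟨ρ * r₁, (mul_pos S.ρ_pos hr₁0).le⟩ with hρr'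
  have hρr0 : 0 < ρr := by
    rw [← NNReal.coe_lt_coe, hρr']; exact mul_pos S.ρ_pos hr₁0
  set Λ₂ : ℝ≥0 := (ρr⁻¹) ^ (2 / k') * (C₃ * (Λ₁ + 1)) with hΛ₂
  have hqb : ∀ᶠ j in (U : Filter ι), DifferentiableOn ℂ (q j) (ball 0 r') ∧
      ∀ t ∈ ball (0 : ℂ) r', S.N k' t j (q j t) ≤ ((2 * Λ₂ : ℝ≥0) : ℝ≥0∞) := by
    filter_upwards [hA, hΛ₁, hg', hgN 1 one_pos, hC₃, S.smul k' hk', S.core k' hk'] with
      j a b c d e f i
    have hdiff : DifferentiableOn ℂ (q j) (ball 0 r) := by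
      rw [hq]
      simp only
      rw [Complex.differentiableOn_dslope (ball_mem_nhds 0 hr0)]
      exact a.1.sub (c.1.mono (ball_subset_ball hr))
    have h00 : A j 0 - g j 0 = 0 := by rw [c.2.1, sub_self]
    refine ⟨hdiff.mono (ball_subset_ball hr'.le), fun t ht => ?_⟩
    have hmain := i r hr r₁ ⟨hr₁0, hr₁r⟩ (q j) hdiff Λ₂ (fun t ht1 ht2 => by
      have ht0 : t ≠ 0 := by
        rintro rfl
        rw [norm_zero] at ht1
        exact absurd ht1 (not_le.2 (mul_pos S.ρ_pos hr₁0))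
      have htr : t ∈ ball (0 : ℂ) r := by rw [mem_ball_zero_iff]; exact ht2.trans_lt hr₁r
      have htR : t ∈ ball (0 : ℂ) R := ball_subset_ball hr htr
      rw [hqne j t ht0 h00, f t htR, sub_eq_add_neg]
      have h1 := e t htR (A j t) (-(g j t))
      have h2 : S.N k' t j (-(g j t)) ≤ 1 := by
        have h3 := f t htR (-1) (g j t)
        rw [neg_one_smul] at h3
        rw [h3]
        simpa using d t htR
      rw [hΛ₂]
      push_cast
      rw [ENNReal.coe_rpow_of_nonneg _ (S.two_div_pos hk').le]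
      refine mul_le_mul' ?_ (h1.trans ?_)
      · refine ENNReal.rpow_le_rpow ?_ (S.two_div_pos hk').le
        rw [nnnorm_inv, ENNReal.coe_le_coe]
        refine inv_anti₀ hρr0 ?_
        rw [← NNReal.coe_le_coe, hρr']
        exact ht1
      · gcongr
        exact b t htr) t (by
          rw [mem_ball_zero_iff] at ht
          exact (ht.trans hr'r₁).le)
    refine hmain.trans ?_
    push_cast
    rfl
  obtain ⟨B, hB⟩ := Fam.bounded hk' (hr'.le.trans hr) hqb
  have hlimq : ∀ t : ℂ, ∃ y : Q, t ∈ ball (0 : ℂ) r' → Tendsto (fun j => q j t) U (𝓝 y) := by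
    intro t
    by_cases ht : t ∈ ball (0 : ℂ) r'
    · obtain ⟨y, -, hy⟩ := exists_lim U (x := fun j => q j t) (B := B)
        (hB.mono fun j hj => hj.2 t ht)
      exact ⟨y, fun _ => hy⟩
    · exact ⟨0, fun h => absurd h ht⟩
  choose G hG using hlimq
  refine ⟨G, ⟨q, 2 * Λ₂, hqb, hG⟩, ?_⟩
  intro t ht
  rcases eq_or_ne t 0 with rfl | ht0
  · rw [h0, zero_smul]
  have htr : t ∈ ball (0 : ℂ) r := ball_subset_ball hr'.le ht
  have htR : t ∈ ball (0 : ℂ) R := ball_subset_ball hr htr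
  have h1 : Tendsto (fun j => t⁻¹ • (A j t - g j t)) U (𝓝 (t⁻¹ • (H t - 0))) :=
    ((hlim t htr).sub (hg0 t htR)).const_smul _
  have h2 : Tendsto (fun j => q j t) U (𝓝 (t⁻¹ • (H t - 0))) := by
    refine h1.congr' ?_
    filter_upwards [hg'] with j hj
    rw [hqne j t ht0 (by rw [hj.2.1, sub_self])]
  have h3 := tendsto_nhds_unique (hG t ht) h2
  rw [h3, sub_zero, smul_inv_smul₀ ht0]


/-- Saturation: induction on the order of vanishing at `0` of a determinant. -/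
theorem exists_indep [FiniteDimensional ℂ Q] {n : ℕ} (g : Q →ₗ[ℂ] (Fin n → ℂ)) {k' : ℝ}
    (hk' : k' ∈ K) (m : ℕ) : ∀ (k : ℝ) (_ : k ∈ K) (_ : k' < k) (r : ℝ) (_ : 0 < r) (_ : r ≤ R)
    (H : Fin n → ℂ → Q), (∀ a, S.Fam k r (H a)) →
    analyticOrderAt (fun t : ℂ => Matrix.det (Matrix.of fun a b => g (H b t) a)) 0 = m →
    ∃ v : Fin n → Q, LinearIndependent ℂ v ∧
      ∀ a, v a ∈ S.L k' 0 hk' (mem_ball_self S.R_pos) := by
  have : CompleteSpace Q := FiniteDimensional.complete ℂ Q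
  induction m with
  | zero =>
    intro k hk hlt r hr hrR H hH hord
    refine ⟨fun a => H a 0, ?_, fun a =>
      ((hH a).lower hk hk' hlt hrR).mem_L hk' hrR (mem_ball_self hr)⟩
    rw [Nat.cast_zero, analyticOrderAt_eq_zero] at hord
    have hdet : Matrix.det (Matrix.of fun a b => g (H b 0) a) ≠ 0 := by
      rcases hord with h | h
      · exfalso
        apply h
        have hd : DifferentiableOn ℂ (fun t : ℂ =>
            Matrix.det (Matrix.of fun a b => g (H b t) a)) (ball 0 r) := by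
          simp only [Matrix.det_apply]
          refine DifferentiableOn.fun_sum fun σ _ => DifferentiableOn.const_smul ?_ _
          refine DifferentiableOn.fun_finsetProd fun i _ => ?_
          simp only [Matrix.of_apply]
          have h1 := (hH i).differentiableOn hk hrR
          have h2 : Differentiable ℂ fun q : Q => g q (σ i) :=
            ((LinearMap.proj (σ i)) ∘ₗ g : Q →ₗ[ℂ] ℂ).toContinuousLinearMap.differentiable
          exact h2.comp_differentiableOn h1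
        exact (hd.analyticOnNhd isOpen_ball) 0 (mem_ball_self hr)
      · exact h
    have hli : LinearIndependent ℂ fun b : Fin n => g (H b 0) := by
      have h1 := Matrix.linearIndependent_cols_of_det_ne_zero hdet
      exact h1
    exact hli.of_comp g
  | succ m ih =>
    intro k hk hlt r hr hrR H hH hord
    by_cases hli : LinearIndependent ℂ fun b : Fin n => H b 0
    · exact ⟨fun a => H a 0, hli, fun a =>
        ((hH a).lower hk hk' hlt hrR).mem_L hk' hrR (mem_ball_self hr)⟩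
    rw [Fintype.not_linearIndependent_iff] at hli
    obtain ⟨c, hc, b₀, hb₀⟩ := hli
    obtain ⟨k'', hk'', h1, h2⟩ := S.dense k' hk' k hk hlt
    have hHt : S.Fam k r (∑ b, c b • H b) := Fam.sum hk hrR _ _ _ fun a _ => hH a
    obtain ⟨G, hG, hGe⟩ := hHt.divide hk hk'' h2 hrR (half_pos hr) (half_lt_self hr)
      (by simpa using hc)
    have hr2R : r / 2 ≤ R := (half_le_self hr.le).trans hrR
    have hr2 : 0 < r / 2 := half_pos hr
    set H' : Fin n → ℂ → Q := Function.update H b₀ G with hH'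
    have hfam : ∀ a, S.Fam k'' (r / 2) (H' a) := by
      intro a
      rcases eq_or_ne a b₀ with rfl | hne
      · rw [hH', Function.update_self]
        exact hG
      · rw [hH', Function.update_of_ne hne]
        exact ((hH a).lower hk hk'' h2 hrR).mono_radius (half_le_self hr.le)
    -- the determinants
    have hdet : ∀ t ∈ ball (0 : ℂ) (r / 2),
        t * Matrix.det (Matrix.of fun a b => g (H' b t) a) =
          c b₀ * Matrix.det (Matrix.of fun a b => g (H b t) a) := by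
      intro t ht
      have e1 : (Matrix.of fun a b => g (H' b t) a : Matrix (Fin n) (Fin n) ℂ) =
          (Matrix.of fun a b => g (H b t) a).updateCol b₀ (fun a => g (G t) a) := by
        ext a b
        rcases eq_or_ne b b₀ with rfl | hne
        · simp [hH']
        · simp [hH', hne]
      have e2 := Matrix.det_updateCol_sum (Matrix.of fun a b => g (H b t) a) b₀ c
      rw [e1, ← Matrix.det_updateCol_smul, ← smul_eq_mul (c b₀), ← e2]
      congr 1
      ext a b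
      rcases eq_or_ne b b₀ with rfl | hne
      · simp only [Matrix.updateCol_self, Pi.smul_apply, Matrix.of_apply]
        have h3 := hGe t ht
        have h4 : g (∑ b, c b • H b t) = t • g (G t) := by
          rw [← map_smul, ← h3]
          simp
        have h5 := congrFun h4 a
        rw [map_sum] at h5
        simp only [Finset.sum_apply, map_smul, Pi.smul_apply] at h5
        exact h5.symm
      · simp [hne]
    have hdiff : DifferentiableOn ℂ (fun t : ℂ =>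
        Matrix.det (Matrix.of fun a b => g (H' b t) a)) (ball 0 (r / 2)) := by
      simp only [Matrix.det_apply]
      refine DifferentiableOn.fun_sum fun σ _ => DifferentiableOn.const_smul ?_ _
      refine DifferentiableOn.fun_finsetProd fun i _ => ?_
      simp only [Matrix.of_apply]
      have h1 := (hfam i).differentiableOn hk'' hr2R
      have h2 : Differentiable ℂ fun q : Q => g q (σ i) :=
        ((LinearMap.proj (σ i)) ∘ₗ g : Q →ₗ[ℂ] ℂ).toContinuousLinearMap.differentiable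
      exact h2.comp_differentiableOn h1
    have han : AnalyticAt ℂ (fun t : ℂ =>
        Matrix.det (Matrix.of fun a b => g (H' b t) a)) 0 :=
      (hdiff.analyticOnNhd isOpen_ball) 0 (mem_ball_self hr2)
    have hord' : analyticOrderAt (fun t : ℂ =>
        Matrix.det (Matrix.of fun a b => g (H' b t) a)) 0 = m := by
      have e1 : analyticOrderAt ((fun t : ℂ => t) * fun t : ℂ =>
          Matrix.det (Matrix.of fun a b => g (H' b t) a)) 0 = (m + 1 : ℕ) := by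
        have e2 : ((fun t : ℂ => t) * fun t : ℂ =>
            Matrix.det (Matrix.of fun a b => g (H' b t) a)) =ᶠ[𝓝 0]
            ((fun _ : ℂ => c b₀) * fun t : ℂ =>
              Matrix.det (Matrix.of fun a b => g (H b t) a)) := by
          filter_upwards [ball_mem_nhds (0 : ℂ) hr2] with t ht
          exact hdet t ht
        have han2 : AnalyticAt ℂ (fun t : ℂ =>
            Matrix.det (Matrix.of fun a b => g (H b t) a)) 0 := by
          by_contra hna
          rw [analyticOrderAt_of_not_analyticAt hna] at hord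
          exact absurd hord.symm (by exact_mod_cast Nat.succ_ne_zero m)
        rw [analyticOrderAt_congr e2, analyticOrderAt_mul analyticAt_const han2, hord]
        have e3 : analyticOrderAt (fun _ : ℂ => c b₀) 0 = 0 := by
          rw [analyticOrderAt_eq_zero]
          exact Or.inr hb₀
        rw [e3, zero_add]
      rw [analyticOrderAt_mul (f := fun t : ℂ => t) analyticAt_id han] at e1
      have e4 : analyticOrderAt (fun t : ℂ => t) 0 = 1 := analyticOrderAt_id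
      rw [e4, Nat.cast_add, Nat.cast_one, add_comm (m : ℕ∞) 1] at e1
      exact ENat.add_right_injective_of_ne_top (n := 1) (by simp) e1
    exact ih k'' hk'' h1 (r / 2) hr2 hr2R H' hfam hord'

/-- **RV-ABS.**  Semicontinuity of the dimension of the limit spaces. -/
theorem finrank_L_le [FiniteDimensional ℂ Q] {k k' : ℝ} (hk : k ∈ K) (hk' : k' ∈ K)
    (hlt : k' < k) {t₁ : ℂ} (ht₁ : t₁ ∈ ball (0 : ℂ) R) :
    Module.finrank ℂ (S.L k t₁ hk ht₁) ≤
      Module.finrank ℂ (S.L k' 0 hk' (mem_ball_self S.R_pos)) := by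
  have : CompleteSpace Q := FiniteDimensional.complete ℂ Q
  set n := Module.finrank ℂ (S.L k t₁ hk ht₁) with hn
  let b := Module.finBasisOfFinrankEq ℂ (S.L k t₁ hk ht₁) hn.symm
  have hbH : ∀ a, ∃ H : ℂ → Q, S.Fam k R H ∧ H t₁ = (b a : Q) := fun a =>
    exists_fam hk ht₁ (b a).2
  choose H hH hHt using hbH
  have hli : LinearIndependent ℂ fun a => H a t₁ := by
    have h1 := b.linearIndependent.map' (S.L k t₁ hk ht₁).subtype (Submodule.ker_subtype _)
    have h2 : (fun a => H a t₁) = (S.L k t₁ hk ht₁).subtype ∘ b := by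
      ext a
      simp [hHt a]
    rw [h2]
    exact h1
  -- dual family
  have hinj : LinearMap.ker (Fintype.linearCombination ℂ fun a => H a t₁) = ⊥ := by
    rw [LinearMap.ker_eq_bot]
    exact linearIndependent_iff_injective_fintypeLinearCombination.1 hli
  obtain ⟨g, hg⟩ := LinearMap.exists_leftInverse_of_injective _ hinj
  have hgH : ∀ a c, g (H a t₁) c = if c = a then 1 else 0 := by
    intro a c
    have h1 := LinearMap.congr_fun hg (Pi.single a (1 : ℂ))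
    have h2 := congrFun h1 c
    simpa [Pi.single_apply, Fintype.linearCombination_apply] using h2
  have hdet1 : Matrix.det (Matrix.of fun a b => g (H b t₁) a) = 1 := by
    have : (Matrix.of fun a b => g (H b t₁) a : Matrix (Fin n) (Fin n) ℂ) = 1 := by
      ext a c
      rw [Matrix.of_apply, hgH, Matrix.one_apply]
    rw [this, Matrix.det_one]
  have hdiff : DifferentiableOn ℂ (fun t : ℂ =>
      Matrix.det (Matrix.of fun a b => g (H b t) a)) (ball 0 R) := by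
    simp only [Matrix.det_apply]
    refine DifferentiableOn.fun_sum fun σ _ => DifferentiableOn.const_smul ?_ _
    refine DifferentiableOn.fun_finsetProd fun i _ => ?_
    simp only [Matrix.of_apply]
    have h1 := (hH i).differentiableOn hk le_rfl
    have h2 : Differentiable ℂ fun q : Q => g q (σ i) :=
      ((LinearMap.proj (σ i)) ∘ₗ g : Q →ₗ[ℂ] ℂ).toContinuousLinearMap.differentiable
    exact h2.comp_differentiableOn h1
  have han := hdiff.analyticOnNhd isOpen_ball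
  have hne : analyticOrderAt (fun t : ℂ => Matrix.det (Matrix.of fun a b => g (H b t) a)) 0 ≠ ⊤ := by
    intro htop
    rw [analyticOrderAt_eq_top] at htop
    have h1 := han.eqOn_zero_of_preconnected_of_eventuallyEq_zero
      (convex_ball (0 : ℂ) R).isPreconnected (mem_ball_self S.R_pos) htop
    have h2 := h1 ht₁
    simp only [Pi.zero_apply] at h2
    rw [hdet1] at h2
    exact one_ne_zero h2
  obtain ⟨m, hm⟩ := ENat.ne_top_iff_exists.1 hne
  obtain ⟨v, hv, hvL⟩ := exists_indep g hk' m k hk hlt R S.R_pos le_rfl H hH hm.symm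
  have h1 : LinearIndependent ℂ fun a => (⟨v a, hvL a⟩ : S.L k' 0 hk' (mem_ball_self S.R_pos)) := by
    refine LinearIndependent.of_comp (S.L k' 0 hk' (mem_ball_self S.R_pos)).subtype ?_
    exact hv
  simpa using h1.fintype_card_le_finrank

end NSys

end Vale.Agent.P298.H379
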