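import Vale.Agent.P298.Stmt
import Vale.Agent.P298.H379.RVAbs

/-!
P298, block IRV (helper379): common definitions of the route of helper680: the fixed space of
polynomials, the root-sum integrals over the surfaces of a polynomial family, the ideals of
integrability, and the interfaces to the blocks S1 and OT.
-/

namespace Vale.Agent.P298.H379

open Filter Topology Metric MeasureTheory Set Vale.Agent.P298
open scoped ENNReal NNReal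

/-! ### Points and polynomials -/

/-- the point `(x₁, x₂, z)` of `ℂ³` -/
def pt (p : ℂ × ℂ) (z : ℂ) : Fin 3 → ℂ := ![p.1, p.2, z]

/-- exponents of total degree `≤ e` with last exponent `< d` -/
abbrev Mon (d e : ℕ) : Type :=
  {α : Fin 3 → Fin (e + 1) // (α 0 : ℕ) + α 1 + α 2 ≤ e ∧ (α 2 : ℕ) < d}

/-- coefficient space of the polynomials of degree `≤ e` whose degree in `x₃` is `< d` -/
abbrev Q (d e : ℕ) : Type := Mon d e → ℂ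

/-- the polynomial with coefficients `h` -/
noncomputable def ev {d e : ℕ} (h : Q d e) (x : Fin 3 → ℂ) : ℂ :=
  ∑ α, h α * ∏ i, x i ^ (α.1 i : ℕ)

/-! ### Root-sum integrals -/

/-- the nondegenerate roots of `f (p, ·) = s` -/
def Rts (f : (Fin 3 → ℂ) → ℂ) (s : ℂ) (p : ℂ × ℂ) : Set ℂ :=
  {z | f (pt p z) = s ∧ pd 2 f (pt p z) ≠ 0}

/-- the sum of `φ / |∂₃ f|²` over the nondegenerate roots of `f (p, ·) = s` -/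
noncomputable def rootSum (f : (Fin 3 → ℂ) → ℂ) (s : ℂ) (φ : (Fin 3 → ℂ) → ℝ≥0∞) (p : ℂ × ℂ) :
    ℝ≥0∞ :=
  ∑' z : Rts f s p, φ (pt p z) / ‖pd 2 f (pt p z)‖ₑ ^ 2

/-- the integral of `φ ≥ 0` over the surface `f = s` with respect to `|dx₁ ∧ dx₂ / ∂₃ f|²` -/
noncomputable def nu (f : (Fin 3 → ℂ) → ℂ) (s : ℂ) (φ : (Fin 3 → ℂ) → ℝ≥0∞) : ℝ≥0∞ :=
  ∫⁻ p : ℂ × ℂ, rootSum f s φ p

/-- `∫_{f = s} |h|^(2/k) |ω|²` -/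
noncomputable def Nk (f : (Fin 3 → ℂ) → ℂ) (s : ℂ) (k : ℝ) (h : (Fin 3 → ℂ) → ℂ) : ℝ≥0∞ :=
  nu f s (fun x => ‖h x‖ₑ ^ (2 / k))

/-- `∫_{f = 0, |x| < r} |h|^(2/k) |ω|²` -/
noncomputable def Nloc (f : (Fin 3 → ℂ) → ℂ) (r k : ℝ) (h : (Fin 3 → ℂ) → ℂ) : ℝ≥0∞ :=
  nu f 0 ((ball (0 : Fin 3 → ℂ) r).indicator fun x => ‖h x‖ₑ ^ (2 / k))

/-- The germ `h` is `L^(2/k)`-integrable on the germ of surface `f = 0`. -/
def InI (f : (Fin 3 → ℂ) → ℂ) (k : ℝ) (h : (Fin 3 → ℂ) → ℂ) : Prop :=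
  Hol h ∧ ∃ r : ℝ, 0 < r ∧ Nloc f r k h < ∞

/-! ### Polynomial families -/

/-- A family `F_t(x) = c₁ x₁^d + c₂ x₂^d + c₃ x₃^d + (terms of degree < d)`, `|t| < R`, with
coefficients holomorphic in `t`, such that `0` is the only critical point with `|F_t| < δ`. -/
structure PFam (d : ℕ) (R δ : ℝ) where
  /-- the coefficients of the top form -/
  c : Fin 3 → ℂ
  /-- the lower terms -/
  a : ℂ → Q d (d - 1)
  hd : 5 ≤ d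
  hR : 0 < R
  hδ : 0 < δ
  hc : ∀ i, c i ≠ 0
  holo : DifferentiableOn ℂ a (ball 0 R)
  zero : ∀ t ∈ ball (0 : ℂ) R, ev (a t) 0 = 0
  crit : ∀ t ∈ ball (0 : ℂ) R, ∀ x : Fin 3 → ℂ, ‖∑ i, c i * x i ^ d + ev (a t) x‖ < δ →
    (∀ i, pd i (fun x : Fin 3 → ℂ => ∑ i, c i * x i ^ d + ev (a t) x) x = 0) → x = 0

/-- the polynomial `F_t` -/
noncomputable def PFam.f {d : ℕ} {R δ : ℝ} (F : PFam d R δ) (t : ℂ) (x : Fin 3 → ℂ) : ℂ :=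
  ∑ i, F.c i * x i ^ d + ev (F.a t) x

/-- `N_k(t, s; h)` -/
noncomputable def PFam.N {d : ℕ} {R δ : ℝ} (F : PFam d R δ) {e : ℕ} (k : ℝ) (t s : ℂ)
    (h : Q d e) : ℝ≥0∞ :=
  Nk (F.f t) s k (ev h)

/-- the exponents admissible for `Q d e`: rational numbers `k ≥ 1` with
`k (d - 4) ≤ e ≤ k (d - 7/2)` -/
def KK (d e : ℕ) : Set ℝ :=
  {k | 1 ≤ k ∧ (∃ q : ℚ, (q : ℝ) = k) ∧ k * (d - 4) ≤ e ∧ (e : ℝ) ≤ k * (d - 7 / 2)}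

/-! ### Interfaces -/

variable {d : ℕ} {R δ : ℝ}

/-- (S1), the three-circles estimate `(R)`: `sup_{|t| ≤ r} N ≤ 2 sup_{ρ r ≤ |t| ≤ r} N`. -/
def S1R (F : PFam d R δ) (ρ : ℝ) (e : ℕ) : Prop :=
  ∀ k ∈ KK d e, ∀ s : ℂ, s ≠ 0 → ‖s‖ < δ → ∀ r₂ ≤ R, ∀ r ∈ Ioo 0 r₂, ∀ h : ℂ → Q d e,
    DifferentiableOn ℂ h (ball 0 r₂) → ∀ Λ : ℝ≥0∞,
      (∀ t : ℂ, ρ * r ≤ ‖t‖ → ‖t‖ ≤ r → F.N k t s (h t) ≤ Λ) →
        ∀ t : ℂ, ‖t‖ ≤ r → F.N k t s (h t) ≤ 2 * Λ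

/-- (S1), the mean value estimate `(P2)` on every disc. -/
def S1P2 (F : PFam d R δ) (C : ℝ≥0) (e : ℕ) : Prop :=
  ∀ k ∈ KK d e, ∀ s : ℂ, s ≠ 0 → ‖s‖ < δ → ∀ t₀ : ℂ, ∀ r > 0, ball t₀ r ⊆ ball 0 R →
    ∀ h : ℂ → Q d e, DifferentiableOn ℂ h (ball t₀ r) →
      ENNReal.ofReal (r ^ 2) * F.N k t₀ s (h t₀) ≤ C * ∫⁻ t in ball t₀ r, F.N k t s (h t)

/-- (P1): extension in the parameter `t` on the smooth surfaces `F_t = s`, `s ≠ 0`. -/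
def OTP1 (F : PFam d R δ) (C : ℝ≥0) (e : ℕ) : Prop :=
  ∀ k ∈ KK d e, ∀ s : ℂ, s ≠ 0 → ‖s‖ < δ → ∀ t₀ : ℂ, ∀ r > 0, ball t₀ r ⊆ ball 0 R →
    ∀ v : Q d e, ∃ h : ℂ → Q d e, DifferentiableOn ℂ h (ball t₀ r) ∧ h t₀ = v ∧
      ∫⁻ t in ball t₀ r, F.N k t s (h t) ≤ C * ENNReal.ofReal (r ^ 2) * F.N k t₀ s v

/-- (OT4): extension in the parameter `s` from the singular surface `F_t = 0`. -/
def OTS (F : PFam d R δ) (C : ℝ≥0) (e : ℕ) : Prop :=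
  ∀ k ∈ KK d e, ∀ t ∈ ball (0 : ℂ) R, ∀ r ∈ Ioo 0 δ, ∀ v : Q d e, F.N k t 0 v < ∞ →
    ∃ h : ℂ → Q d e, DifferentiableOn ℂ h (ball 0 r) ∧ h 0 = v ∧
      ∫⁻ s in ball (0 : ℂ) r, F.N k t s (h s) ≤ C * ENNReal.ofReal (r ^ 2) * F.N k t 0 v

end Vale.Agent.P298.H379
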