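import Vale.Agent.P298.H379.Lin
import Vale.Agent.P298.H373.Inst
import Vale.Agent.P298.H967.Ideal
import Vale.Agent.P298.H766.Tay

/-!
P298, block IRV (helper379): finite norm in `Q d e` and the ideals of integrability of germs.
-/

namespace Vale.Agent.P298.H379

open Filter Topology Metric MeasureTheory Set Vale.Agent.P298
open Vale.Agent.P298.H967 (IK)
open scoped ENNReal NNReal

variable {d e : ℕ} {R δ : ℝ} (F : PFam d R δ)

theorem hol_ev (h : Q d e) : Hol (ev h) := ((contDiff_ev (n := ⊤) h).contDiffAt).analyticAt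

theorem PFam.hol_f (t : ℂ) : Hol (F.f t) := ((F.contDiff_f (n := ⊤) t).contDiffAt).analyticAt

/-- A polynomial of `Q d e` has finite norm on `F_t = 0` if and only if its germ at `0` is
integrable. -/
theorem PFam.N_lt_top_iff {k : ℝ} (hk : k ∈ KK d e) {t : ℂ} (ht : t ∈ ball (0 : ℂ) R)
    (h : Q d e) : F.N k t 0 h < ∞ ↔ InI (F.f t) k (ev h) := by
  have hk0 := KK.pos hk
  have hp : 0 < 2 / k := by positivity
  constructor
  · intro hN
    refine ⟨hol_ev h, 1, one_pos, lt_of_le_of_lt (nu_mono fun x _ => ?_) hN⟩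
    exact indicator_le_self _ _ x
  · rintro ⟨-, r, hr, hloc⟩
    have hγ : (e : ℝ) * (2 / k) < 2 * (d - 3) := by
      have h1 := KK_lt hk
      have h2 : (e : ℝ) * (2 / k) = 2 * (e / k) := by ring
      rw [h2]
      have h3 : (e : ℝ) / k < d - 3 := by
        rw [div_lt_iff₀ hk0]
        linarith
      linarith
    obtain ⟨A, hA, C₁, hC₁⟩ := F.tail ‖F.a t‖ hγ
    have hmid := F.mid ht hr A
    set D : ℝ≥0∞ := ((Fintype.card (Mon d e) : ℝ≥0) : ℝ≥0∞) * ‖h‖₊ with hD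
    have hDt : D ≠ ∞ := ENNReal.mul_ne_top ENNReal.coe_ne_top ENNReal.coe_ne_top
    set D₂ : ℝ≥0∞ := (D * ENNReal.ofReal ((1 + A) ^ e)) ^ (2 / k) with hD₂
    have hD₂t : D₂ ≠ ∞ := ENNReal.rpow_ne_top_of_nonneg hp.le
      (ENNReal.mul_ne_top hDt ENNReal.ofReal_ne_top)
    have hD₃t : D ^ (2 / k) ≠ ∞ := ENNReal.rpow_ne_top_of_nonneg hp.le hDt
    set φ₁ : (Fin 3 → ℂ) → ℝ≥0∞ :=
      (ball (0 : Fin 3 → ℂ) r).indicator fun x => ‖ev h x‖ₑ ^ (2 / k) with hφ₁
    set φ₂ : (Fin 3 → ℂ) → ℝ≥0∞ := {x : Fin 3 → ℂ | r ≤ ‖x‖ ∧ ‖x‖ ≤ A}.indicator fun _ => 1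
      with hφ₂
    set φ₃ : (Fin 3 → ℂ) → ℝ≥0∞ := {x : Fin 3 → ℂ | A ≤ ‖x‖}.indicator fun x =>
      ENNReal.ofReal ((1 + ‖x‖) ^ ((e : ℝ) * (2 / k))) with hφ₃
    have hm₁ : Measurable φ₁ := by
      refine Measurable.indicator ?_ measurableSet_ball
      exact (lsc_pow_ev k h).measurable
    have hm₂ : Measurable φ₂ := measurable_const.indicator
      ((measurableSet_le measurable_const measurable_norm).inter
        (measurableSet_le measurable_norm measurable_const))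
    have hpt : ∀ x : Fin 3 → ℂ, ‖ev h x‖ₑ ^ (2 / k) ≤
        φ₁ x + (D₂ * φ₂ x + D ^ (2 / k) * φ₃ x) := by
      intro x
      by_cases hx1 : x ∈ ball (0 : Fin 3 → ℂ) r
      · rw [hφ₁, indicator_of_mem hx1]
        exact le_self_add
      · have hx1' : r ≤ ‖x‖ := by
          rw [mem_ball_zero_iff, not_lt] at hx1
          exact hx1
        have hb := ENNReal.rpow_le_rpow (nnnorm_ev_le h x) hp.le
        by_cases hx2 : A ≤ ‖x‖
        · refine le_add_left (le_add_left ?_)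
          rw [hφ₃, indicator_of_mem (show x ∈ {x : Fin 3 → ℂ | A ≤ ‖x‖} from hx2)]
          refine hb.trans_eq ?_
          rw [ENNReal.mul_rpow_of_nonneg _ _ hp.le, ENNReal.ofReal_rpow_of_pos (by positivity),
            ← Real.rpow_natCast, ← Real.rpow_mul (by positivity)]
        · refine le_add_left (le_add_right ?_)
          have hx3 : ‖x‖ ≤ A := le_of_lt (not_le.1 hx2)
          rw [hφ₂, indicator_of_mem (show x ∈ {x : Fin 3 → ℂ | r ≤ ‖x‖ ∧ ‖x‖ ≤ A} from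
            ⟨hx1', hx3⟩), mul_one, hD₂]
          refine hb.trans (ENNReal.rpow_le_rpow ?_ hp.le)
          gcongr
    have hf : AnalyticOnNhd ℂ (F.f t) univ := F.analyticOnNhd_f t univ
    have h1 : F.N k t 0 h ≤ nu (F.f t) 0 (fun x => φ₁ x + (D₂ * φ₂ x + D ^ (2 / k) * φ₃ x)) :=
      nu_mono fun x _ => hpt x
    rw [H373.nu_add isOpen_univ hf 0 hm₁ (fun x hx => absurd (mem_univ x) hx),
      H373.nu_add isOpen_univ hf 0 (hm₂.const_mul D₂) (fun x hx => absurd (mem_univ x) hx),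
      nu_const_mul hD₂t, nu_const_mul hD₃t] at h1
    refine h1.trans_lt (ENNReal.add_lt_top.2 ⟨hloc, ENNReal.add_lt_top.2 ⟨?_, ?_⟩⟩)
    · exact ENNReal.mul_lt_top hD₂t.lt_top hmid
    · exact ENNReal.mul_lt_top hD₃t.lt_top ((hC₁ t le_rfl 0).trans_lt ENNReal.coe_lt_top)

/-- polynomials as elements of the algebra of germs -/
noncomputable def evA : Q d e →ₗ[ℂ] AnFun 3 where
  toFun h := ⟨ev h, hol_ev h⟩
  map_add' h g := by
    apply Subtype.ext
    funext x
    exact ev_add h g x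
  map_smul' c h := by
    apply Subtype.ext
    funext x
    exact ev_smul c h x

/-- the map from the fixed space to the quotient of the ring of germs -/
noncomputable def PFam.Phi (t : ℂ) (k : ℝ) (e : ℕ) : Q d e →ₗ[ℂ] (AnFun 3 ⧸ IK (F.f t) k) :=
  (Ideal.Quotient.mkₐ ℂ (IK (F.f t) k)).toLinearMap ∘ₗ evA

theorem PFam.Phi_apply (t : ℂ) (k : ℝ) (h : Q d e) :
    F.Phi t k e h = Ideal.Quotient.mk (IK (F.f t) k) (evA h) := rfl

theorem PFam.mem_ker_Phi {k : ℝ} (hk : 0 < k) (t : ℂ) (h : Q d e) :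
    F.Phi t k e h = 0 ↔ InI (F.f t) k (ev h) := by
  rw [F.Phi_apply, Ideal.Quotient.eq_zero_iff_mem, H967.mem_IK H373.areaI (F.hol_f t) hk]
  rfl

theorem PFam.ker_Phi {k : ℝ} (hk : k ∈ KK d e) {t : ℂ} (ht : t ∈ ball (0 : ℂ) R) :
    LinearMap.ker (F.Phi t k e) = F.Ifin (KK.pos hk) ht := by
  ext h
  rw [LinearMap.mem_ker, F.mem_ker_Phi (KK.pos hk)]
  exact (F.N_lt_top_iff hk ht h).symm

end Vale.Agent.P298.H379
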