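import Vale.Agent.P298.H379.Sel

/-!
P298, block IRV (helper379): the semicontinuity and the extension theorem in terms of the
subspaces of finite norm in the fixed space of polynomials.
-/

namespace Vale.Agent.P298.H379

open Filter Topology Metric MeasureTheory Set Vale.Agent.P298
open scoped ENNReal NNReal

variable {d e : ℕ} {R δ : ℝ} (F : PFam d R δ)

/-- Fatou: the limit space is contained in the space of finite norm. -/
theorem PFam.N_lt_top_of_mem_L {ρ : ℝ} (hρ : 0 < ρ) (hρ1 : ρ < 1) {C₁ C₂ : ℝ≥0}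
    (h0 : S1R F ρ e) (h1 : OTPc F C₁ e) (h2 : S1P2 F C₂ e) {U : Ultrafilter ℕ} {s : ℕ → ℂ}
    (hs : ∀ j, s j ≠ 0) (hsδ : ∀ j, ‖s j‖ < δ) (hs0 : Tendsto s U (𝓝 0)) {k : ℝ}
    (hk : k ∈ KK d e) {t : ℂ} (ht : t ∈ ball (0 : ℂ) (R / 8)) {h : Q d e}
    (hh : h ∈ (F.sys hρ hρ1 h0 h1 h2 U s hs hsδ).L k t hk ht) : F.N k t 0 h < ∞ := by
  have hR := F.hR
  obtain ⟨H, hH, Λ, hΛ⟩ := hh
  have hls := F.lsc_N k (ball_subset_ball (by linarith) ht) 0 h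
  have htend : Tendsto (fun j => (t, s j, H j)) U (𝓝 (t, 0, h)) :=
    tendsto_const_nhds.prodMk_nhds (hs0.prodMk_nhds hH)
  refine lt_of_le_of_lt ?_ (ENNReal.coe_lt_top (r := Λ))
  by_contra hcon
  have h3 := htend.eventually (hls Λ (not_le.1 hcon))
  obtain ⟨j, hj1, hj2⟩ := (h3.and hΛ).exists
  exact absurd hj1 (not_lt.2 hj2)

/-- The sequence `s_j` can be chosen such that the limit space contains the space of finite norm
(for one exponent and one parameter). -/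
theorem PFam.exists_sys {ρ : ℝ} (hρ : 0 < ρ) (hρ1 : ρ < 1) {C₀ C₁ C₂ : ℝ≥0}
    (h0 : S1R F ρ e) (h1 : OTPc F C₁ e) (h2 : S1P2 F C₂ e) (h3 : OTS F C₀ e) {k : ℝ}
    (hk : k ∈ KK d e) {t : ℂ} (ht : t ∈ ball (0 : ℂ) (R / 8)) :
    ∃ (U : Ultrafilter ℕ) (s : ℕ → ℂ) (hs : ∀ j, s j ≠ 0) (hsδ : ∀ j, ‖s j‖ < δ),
      Tendsto s U (𝓝 0) ∧ ∀ v : Q d e, F.N k t 0 v < ∞ →
        v ∈ (F.sys hρ hρ1 h0 h1 h2 U s hs hsδ).L k t hk ht := by
  have hR := F.hR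
  have ht' : t ∈ ball (0 : ℂ) R := ball_subset_ball (by linarith) ht
  set I : Submodule ℂ (Q d e) := F.Ifin (KK.pos hk) ht' with hI
  set b := Module.finBasis ℂ I with hb
  obtain ⟨s, hs, hsδ, hs0, hsel⟩ := F.exists_seq h3 hk ht' (fun i => (b i : Q d e))
    (fun i => (b i).2)
  set U : Ultrafilter ℕ := Filter.hyperfilter ℕ with hU
  have hUa : (U : Filter ℕ) ≤ atTop := Nat.hyperfilter_le_atTop
  refine ⟨U, s, hs, hsδ, hs0.mono_left hUa, fun v hv => ?_⟩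
  set L := (F.sys hρ hρ1 h0 h1 h2 U s hs hsδ).L k t hk ht with hL
  have hclosed : IsClosed (L : Set (Q d e)) := L.closed_of_finiteDimensional
  have hbL : ∀ i, (b i : Q d e) ∈ L := by
    intro i
    have hmem : (b i : Q d e) ∈ closure (L : Set (Q d e)) := by
      rw [Metric.mem_closure_iff]
      intro ε hε
      obtain ⟨Λ, hΛ⟩ := hsel i (ε / 2) (by positivity)
      have hex : ∀ j, ∃ H : Q d e, (∃ H : Q d e, ‖H - b i‖ ≤ ε / 2 ∧ F.N k t (s j) H ≤ Λ) →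
          (‖H - b i‖ ≤ ε / 2 ∧ F.N k t (s j) H ≤ Λ) := by
        intro j
        by_cases hj : ∃ H : Q d e, ‖H - b i‖ ≤ ε / 2 ∧ F.N k t (s j) H ≤ Λ
        · obtain ⟨H, hH⟩ := hj
          exact ⟨H, fun _ => hH⟩
        · exact ⟨0, fun h => absurd h hj⟩
      choose H hH using hex
      have hev : ∀ᶠ j in (U : Filter ℕ), ‖H j - b i‖ ≤ ε / 2 ∧ F.N k t (s j) (H j) ≤ Λ :=
        (hΛ.filter_mono hUa).mono fun j hj => hH j hj
      obtain ⟨y, hy1, hy2⟩ := exists_lim U (x := fun j => H j - b i) (hev.mono fun j hj => hj.1)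
      refine ⟨y + b i, ⟨H, ?_, Λ, hev.mono fun j hj => hj.2⟩, ?_⟩
      · have := hy2.add_const ((b i : I) : Q d e)
        simpa using this
      · rw [dist_eq_norm]
        have : (b i : Q d e) - (y + b i) = -y := by abel
        rw [this, norm_neg]
        linarith
    rwa [hclosed.closure_eq] at hmem
  have h4 := b.sum_repr (⟨v, hv⟩ : I)
  have h5 : v = ∑ i, (b.repr (⟨v, hv⟩ : I)) i • (b i : Q d e) := by
    have h6 := congrArg (fun x : I => (x : Q d e)) h4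
    simp only [Submodule.coe_sum, Submodule.coe_smul] at h6
    exact h6.symm
  rw [h5]
  exact L.sum_mem fun i _ => L.smul_mem _ (hbL i)

/-- **Semicontinuity**: `dim I_k(t) ≤ dim I_{k'}(0)` in the fixed space `Q d e`. -/
theorem PFam.finrank_Ifin_le {ρ : ℝ} (hρ : 0 < ρ) (hρ1 : ρ < 1) {C₀ C₁ C₂ : ℝ≥0}
    (h0 : S1R F ρ e) (h1 : OTPc F C₁ e) (h2 : S1P2 F C₂ e) (h3 : OTS F C₀ e) {k k' : ℝ}
    (hk : k ∈ KK d e) (hk' : k' ∈ KK d e) (hlt : k' < k) {t : ℂ}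
    (ht : t ∈ ball (0 : ℂ) (R / 8)) (ht' : t ∈ ball (0 : ℂ) R) :
    Module.finrank ℂ (F.Ifin (e := e) (KK.pos hk) ht') ≤
      Module.finrank ℂ (F.Ifin (e := e) (KK.pos hk') (mem_ball_self F.hR)) := by
  obtain ⟨U, s, hs, hsδ, hs0, hsel⟩ := F.exists_sys hρ hρ1 h0 h1 h2 h3 hk ht
  set S := F.sys hρ hρ1 h0 h1 h2 U s hs hsδ with hS
  have h4 : F.Ifin (e := e) (KK.pos hk) ht' ≤ S.L k t hk ht := fun v hv => hsel v hv
  have h5 : S.L k' 0 hk' (mem_ball_self S.R_pos) ≤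
      F.Ifin (e := e) (KK.pos hk') (mem_ball_self F.hR) := fun v hv =>
    F.N_lt_top_of_mem_L hρ hρ1 h0 h1 h2 hs hsδ hs0 hk' _ hv
  exact (Submodule.finrank_mono h4).trans ((S.finrank_L_le hk hk' hlt ht).trans
    (Submodule.finrank_mono h5))

/-- **Extension** from `t = 0`. -/
theorem PFam.exists_ext {ρ : ℝ} (hρ : 0 < ρ) (hρ1 : ρ < 1) {C₀ C₁ C₂ : ℝ≥0}
    (h0 : S1R F ρ e) (h1 : OTPc F C₁ e) (h2 : S1P2 F C₂ e) (h3 : OTS F C₀ e) {k : ℝ}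
    (hk : k ∈ KK d e) {t₀ : ℂ} (ht₀ : t₀ ∈ ball (0 : ℂ) (R / 8)) {v : Q d e}
    (hv : F.N k t₀ 0 v < ∞) :
    ∃ h : ℂ → Q d e, DifferentiableOn ℂ h (ball 0 (R / 8)) ∧ h t₀ = v ∧
      ∀ t ∈ ball (0 : ℂ) (R / 8), F.N k t 0 (h t) < ∞ := by
  obtain ⟨U, s, hs, hsδ, hs0, hsel⟩ := F.exists_sys hρ hρ1 h0 h1 h2 h3 hk ht₀
  set S := F.sys hρ hρ1 h0 h1 h2 U s hs hsδ with hS
  obtain ⟨H, hH, hHv⟩ := NSys.exists_fam hk ht₀ (hsel v hv)
  exact ⟨H, hH.differentiableOn hk le_rfl, hHv, fun t ht =>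
    F.N_lt_top_of_mem_L hρ hρ1 h0 h1 h2 hs hsδ hs0 hk ht (hH.mem_L hk le_rfl ht)⟩

end Vale.Agent.P298.H379
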