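import Vale.Agent.P298.H941.System
import Vale.Agent.P298.H766.Tay

/-!
P298, row E1-LOW (helper379): algebra on one line: a linear combination of the powers of a
separating function, which vanishes to high order at all the points of the fibres of a finite map,
has coefficients vanishing to high order.
-/

namespace Vale.Agent.P298.H379

open Filter Topology Metric Vale.Agent.P298 Vale.Agent.P298.H941 Polynomial

theorem zz_pow_dvd_iff {a : O ℂ} (ha : a ≠ 0) {p : ℕ} : zz ^ p ∣ a ↔ p ≤ ordG a := by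
  constructor
  · rintro ⟨b, rfl⟩
    have hb : b ≠ 0 := right_ne_zero_of_mul ha
    rw [ordG_mul (pow_ne_zero _ zz_ne_zero) hb, ordG_pow zz_ne_zero, ordG_zz, mul_one]
    exact Nat.le_add_right _ _
  · intro h
    obtain ⟨u, -, hu⟩ := exists_unit_mul ha
    rw [hu]
    exact (pow_dvd_pow _ h).mul_right _

/-- Cramer's rule for the Vandermonde matrix. -/
theorem dvd_det_mul {d : ℕ} {p : ℕ} (v R : Fin d → O ℂ)
    (h : ∀ i, zz ^ p ∣ ∑ k, R k * v i ^ (k : ℕ)) (k : Fin d) :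
    zz ^ p ∣ (Matrix.vandermonde v).det * R k := by
  classical
  set V := Matrix.vandermonde v with hV
  have h1 : V.adjugate.mulVec (V.mulVec R) = V.det • R := by
    rw [Matrix.mulVec_mulVec, Matrix.adjugate_mul, Matrix.smul_mulVec, Matrix.one_mulVec]
  have h2 : V.det * R k = V.adjugate.mulVec (V.mulVec R) k := by
    rw [h1]
    rfl
  rw [h2]
  change zz ^ p ∣ ∑ i, V.adjugate k i * V.mulVec R i
  refine Finset.dvd_sum fun i _ => Dvd.dvd.mul_left ?_ _
  have h3 : V.mulVec R i = ∑ k, R k * v i ^ (k : ℕ) := by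
    change ∑ k, V i k * R k = _
    refine Finset.sum_congr rfl fun k _ => ?_
    rw [hV, Matrix.vandermonde_apply, mul_comm]
  rw [h3]
  exact h i

theorem ana_eval_pow (P : ℂ[X]) (M : ℕ) : AnalyticAt ℂ (fun s : ℂ => P.eval (s ^ M)) 0 := by
  have h1 : (fun s : ℂ => P.eval (s ^ M)) = fun s => (expand ℂ M P).eval s := by
    funext s
    rw [expand_eval]
  rw [h1]
  exact AnalyticOnNhd.eval_polynomial (expand ℂ M P) 0 (Set.mem_univ _)

/-- A polynomial in `s ^ M` of degree less than `M n` which is divisible by `s ^ (M n)` is zero. -/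
theorem eq_zero_of_dvd {P : ℂ[X]} {M n : ℕ} (hM : 0 < M) (hn : P.degree < n)
    (h : zz ^ (M * n) ∣ mk (fun s : ℂ => P.eval (s ^ M)) (ana_eval_pow P M)) : P = 0 := by
  obtain ⟨b, hb⟩ := h
  obtain ⟨g, hg, rfl⟩ := exists_rep b
  have h1 : ∀ᶠ s in 𝓝 (0 : ℂ), P.eval (s ^ M) = s ^ (M * n) * g s := by
    have h2 : zz ^ (M * n) * mk g hg =
        mk (fun s : ℂ => s ^ (M * n) * g s) ((analyticAt_id.pow _).mul hg) := rfl
    rw [h2, mk_eq_iff] at hb
    exact hb
  have h2 : ∀ᶠ s in 𝓝 (0 : ℂ), ‖g s‖ ≤ ‖g 0‖ + 1 := by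
    have := hg.continuousAt.norm.eventually_lt (continuousAt_const (y := ‖g 0‖ + 1)) (by simp)
    filter_upwards [this] with s hs using hs.le
  have h3 : ∀ᶠ s in 𝓝 (0 : ℂ), ‖(expand ℂ M P).eval s‖ ≤ (‖g 0‖ + 1) * ‖s‖ ^ (M * n) := by
    filter_upwards [h1, h2] with s hs1 hs2
    rw [expand_eval, hs1, norm_mul, norm_pow, mul_comm]
    exact mul_le_mul_of_nonneg_right hs2 (by positivity)
  have h4 := H766.coeff_eq_zero_of_bound h3
  ext r
  rw [coeff_zero]
  by_cases hr : r < n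
  · have h5 := h4 (M * r) (Nat.mul_lt_mul_of_pos_left hr hM)
    rwa [mul_comm, coeff_expand_mul hM] at h5
  · exact coeff_eq_zero_of_degree_lt (hn.trans_le (by exact_mod_cast not_lt.1 hr))

/-- The conclusion on one line. -/
theorem line_step {d M n p : ℕ} (hM : 0 < M) {v : Fin d → O ℂ} (hv : Function.Injective v)
    (hA : ordG (Matrix.vandermonde v).det + M * n ≤ p) (P : Fin d → ℂ[X])
    (hP : ∀ k, (P k).degree < n)
    (h : ∀ i, zz ^ p ∣ ∑ k, mk (fun s : ℂ => (P k).eval (s ^ M)) (ana_eval_pow (P k) M) *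
      v i ^ (k : ℕ)) (k : Fin d) : P k = 0 := by
  have hdet : (Matrix.vandermonde v).det ≠ 0 := Matrix.det_vandermonde_ne_zero_iff.2 hv
  refine eq_zero_of_dvd hM (hP k) ?_
  by_cases h0 : mk (fun s : ℂ => (P k).eval (s ^ M)) (ana_eval_pow (P k) M) = 0
  · rw [h0]
    exact dvd_zero _
  rw [zz_pow_dvd_iff h0]
  have h1 := dvd_det_mul v _ h k
  rw [zz_pow_dvd_iff (mul_ne_zero hdet h0), ordG_mul hdet h0] at h1
  omega

/-- the linear forms `x₀ + r x₁ + r² x₂` -/
def lam (r : ℕ) (x : Fin 3 → ℂ) : ℂ := x 0 + r * x 1 + (r : ℂ) ^ 2 * x 2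

theorem ana_lam (r : ℕ) (x : Fin 3 → ℂ) : AnalyticAt ℂ (lam r) x := by
  unfold lam
  have h : ∀ k : Fin 3, AnalyticAt ℂ (fun x : Fin 3 → ℂ => x k) x := fun k =>
    (ContinuousLinearMap.proj (R := ℂ) (φ := fun _ : Fin 3 => ℂ) k).analyticAt x
  exact ((h 0).add (analyticAt_const.mul (h 1))).add (analyticAt_const.mul (h 2))

/-- Finitely many nonzero vectors over the ring of germs are separated by a form `lam r`. -/
theorem exists_lam {ι : Type*} [Finite ι] (δ : ι → Fin 3 → O ℂ) (hδ : ∀ i, δ i ≠ 0) :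
    ∃ r : ℕ, ∀ i, δ i 0 + (r : O ℂ) * δ i 1 + (r : O ℂ) ^ 2 * δ i 2 ≠ 0 := by
  classical
  have hchar : CharZero (O ℂ) := charZero_of_injective_algebraMap (R := ℂ)
    (algebraMap ℂ (O ℂ)).injective
  set P : ι → (O ℂ)[X] := fun i => C (δ i 0) + C (δ i 1) * X ^ 1 + C (δ i 2) * X ^ 2 with hP
  have hP0 : ∀ i, P i ≠ 0 := by
    intro i h0
    apply hδ i
    have hc : ∀ j, (P i).coeff j = 0 := fun j => by rw [h0, coeff_zero]
    have e0 : (P i).coeff 0 = δ i 0 := by
      simp only [hP, coeff_add, coeff_C_mul_X_pow, coeff_C]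
      norm_num
    have e1 : (P i).coeff 1 = δ i 1 := by
      simp only [hP, coeff_add, coeff_C_mul_X_pow, coeff_C]
      norm_num
    have e2 : (P i).coeff 2 = δ i 2 := by
      simp only [hP, coeff_add, coeff_C_mul_X_pow, coeff_C]
      norm_num
    funext k
    fin_cases k
    · exact e0.symm.trans (hc 0)
    · exact e1.symm.trans (hc 1)
    · exact e2.symm.trans (hc 2)
  have hfin : {r : ℕ | ∃ i, (P i).eval (r : O ℂ) = 0}.Finite := by
    have h1 : {r : ℕ | ∃ i, (P i).eval (r : O ℂ) = 0} =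
        ⋃ i, (fun r : ℕ => (r : O ℂ)) ⁻¹' {x | (P i).IsRoot x} := by
      ext r
      simp
    rw [h1]
    refine Set.finite_iUnion fun i => ?_
    refine Set.Finite.preimage (Nat.cast_injective.injOn) ?_
    exact finite_setOfPred_isRoot (hP0 i)
  obtain ⟨r, hr⟩ := hfin.infinite_compl.nonempty
  refine ⟨r, fun i hi => hr ⟨i, ?_⟩⟩
  rw [← hi]
  simp only [hP, eval_add, eval_mul, eval_C, eval_X, eval_pow]
  ring

end Vale.Agent.P298.H379
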