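import Vale.Agent.P298.H740.LB2

/-!
P298, row E1-LOW (helper379): the order of vanishing along an arc from a finite integral.
-/

namespace Vale.Agent.P298.H379

open Filter Topology Metric MeasureTheory Set
open scoped ENNReal NNReal

/-- The order of `g` along an arc `t = s ^ M`, when `|g| ^ (2 / N) / |j| ^ 2` is integrable. -/
theorem ord_lt {g j : ℂ → ℂ} (hg : AnalyticAt ℂ g 0) {M o : ℕ} (hM : 0 < M)
    (ho : analyticOrderAt g 0 = o) {N β C : ℝ} (hN : 0 < N) (hC : 0 < C)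
    (hJ : ∀ᶠ s in 𝓝 (0 : ℂ), ‖j s‖ ≤ C * ‖s ^ M‖ ^ β) {Γ : ℂ → ℝ≥0∞}
    (hΓ : ∀ᶠ s in 𝓝[≠] (0 : ℂ), ‖g s‖ₑ ^ (2 / N) / ‖j s‖ₑ ^ 2 ≤ Γ (s ^ M))
    (hint : ∫⁻ t, ‖t‖ₑ ^ 2 * Γ t < ∞) : M * N * (β - 2) < o := by
  have hM0 : (0 : ℝ) < M := by exact_mod_cast hM
  have hp : 0 < 2 / N := by positivity
  obtain ⟨c, C', hc, -, hb⟩ := H740.order_bounds hg ho
  -- open mapping
  have hopen : 𝓝 (0 : ℂ) ≤ map (fun s : ℂ => s ^ M) (𝓝 0) := by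
    have hh : AnalyticAt ℂ (fun s : ℂ => s ^ M) 0 := analyticAt_id.pow _
    rcases hh.eventually_constant_or_nhds_le_map_nhds with h1 | h1
    · exfalso
      have h2 : ∀ᶠ s in 𝓝[≠] (0 : ℂ), False := by
        filter_upwards [h1.filter_mono nhdsWithin_le_nhds, self_mem_nhdsWithin] with s hs hs0
        rw [zero_pow hM.ne'] at hs
        exact hs0 (eq_zero_of_pow_eq_zero hs)
      exact h2.exists.elim fun _ h => h
    · rwa [zero_pow hM.ne'] at h1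
  rw [eventually_nhdsWithin_iff] at hΓ
  have h3 := hopen (image_mem_map ((hb.and hJ).and hΓ))
  obtain ⟨ρ, hρ, hball⟩ := Metric.mem_nhds_iff.1 h3
  set A : ℝ≥0∞ := ENNReal.ofReal ((1 / c) ^ (2 / N)) with hA
  set B : ℝ≥0∞ := ENNReal.ofReal C ^ 2 with hB
  have hAt : A ≠ ∞ := ENNReal.ofReal_ne_top
  have hB0 : B ≠ 0 := pow_ne_zero 2 (by simpa using hC)
  have hBt : B ≠ ∞ := ENNReal.pow_ne_top ENNReal.ofReal_ne_top
  set a : ℝ := 2 * (o / (M * N)) with ha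
  have h4 : ∀ t ∈ ball (0 : ℂ) ρ, t ≠ 0 →
      ‖t‖ₑ ^ (2 + a - 2 * β) ≤ A * B * (‖t‖ₑ ^ 2 * Γ t) := by
    intro t ht ht0
    obtain ⟨s, ⟨⟨hs1, hsJ⟩, hs2⟩, rfl⟩ := hball ht
    change s ^ M ≠ 0 at ht0
    change ‖s ^ M‖ₑ ^ (2 + a - 2 * β) ≤ A * B * (‖s ^ M‖ₑ ^ 2 * Γ (s ^ M))
    have hs0 : s ≠ 0 := by
      rintro rfl
      exact ht0 (zero_pow hM.ne')
    have hs3 := hs2 hs0
    have htp : 0 < ‖s ^ M‖ := norm_pos_iff.2 ht0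
    have e0 : ‖s ^ M‖ₑ ≠ 0 := by simpa using ht0
    have et : ‖s ^ M‖ₑ ≠ ∞ := enorm_ne_top
    have h5 : ‖s ^ M‖ₑ ^ a ≤ A * ‖g s‖ₑ ^ (2 / N) := by
      rw [← ofReal_norm, ← ofReal_norm, ENNReal.ofReal_rpow_of_pos htp,
        ENNReal.ofReal_rpow_of_nonneg (norm_nonneg _) hp.le, hA,
        ← ENNReal.ofReal_mul (by positivity)]
      refine ENNReal.ofReal_le_ofReal ?_
      have e1 : ‖s ^ M‖ ^ a = (‖s‖ ^ o) ^ (2 / N) := by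
        rw [norm_pow, ← Real.rpow_natCast, ← Real.rpow_natCast, ← Real.rpow_mul (norm_nonneg _),
          ← Real.rpow_mul (norm_nonneg _)]
        congr 1
        rw [ha]
        field_simp
      rw [e1, ← Real.mul_rpow (by positivity) (norm_nonneg _)]
      refine Real.rpow_le_rpow (by positivity) ?_ hp.le
      rw [one_div, ← div_eq_inv_mul, le_div_iff₀ hc, mul_comm]
      exact hs1.1
    have h6 : ‖s ^ M‖ₑ ^ (-(2 * β)) ≤ B * (‖j s‖ₑ ^ 2)⁻¹ := by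
      have h7 : ‖j s‖ₑ ^ 2 ≤ B * ‖s ^ M‖ₑ ^ (2 * β) := by
        have h8 : ‖j s‖ₑ ≤ ENNReal.ofReal C * ‖s ^ M‖ₑ ^ β := by
          rw [← ofReal_norm, ← ofReal_norm, ENNReal.ofReal_rpow_of_pos htp,
            ← ENNReal.ofReal_mul hC.le]
          exact ENNReal.ofReal_le_ofReal hsJ
        calc ‖j s‖ₑ ^ 2 ≤ (ENNReal.ofReal C * ‖s ^ M‖ₑ ^ β) ^ 2 := by gcongr
          _ = B * ‖s ^ M‖ₑ ^ (2 * β) := by
              rw [mul_pow, hB, ← ENNReal.rpow_natCast (‖s ^ M‖ₑ ^ β), ← ENNReal.rpow_mul]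
              congr 2
              push_cast
              ring
      rw [ENNReal.rpow_neg]
      calc (‖s ^ M‖ₑ ^ (2 * β))⁻¹ = B * (B⁻¹ * (‖s ^ M‖ₑ ^ (2 * β))⁻¹) := by
            rw [← mul_assoc, ENNReal.mul_inv_cancel hB0 hBt, one_mul]
        _ = B * (B * ‖s ^ M‖ₑ ^ (2 * β))⁻¹ := by
            rw [ENNReal.mul_inv (Or.inl hB0) (Or.inl hBt)]
        _ ≤ B * (‖j s‖ₑ ^ 2)⁻¹ := by gcongr
    have h7 : ‖s ^ M‖ₑ ^ (2 + a - 2 * β) =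
        ‖s ^ M‖ₑ ^ 2 * (‖s ^ M‖ₑ ^ a * ‖s ^ M‖ₑ ^ (-(2 * β))) := by
      rw [sub_eq_add_neg, ENNReal.rpow_add _ _ e0 et, ENNReal.rpow_add _ _ e0 et, mul_assoc]
      congr 1
      exact_mod_cast ENNReal.rpow_natCast ‖s ^ M‖ₑ 2
    rw [h7]
    calc ‖s ^ M‖ₑ ^ 2 * (‖s ^ M‖ₑ ^ a * ‖s ^ M‖ₑ ^ (-(2 * β))) ≤
        ‖s ^ M‖ₑ ^ 2 * ((A * ‖g s‖ₑ ^ (2 / N)) * (B * (‖j s‖ₑ ^ 2)⁻¹)) := by gcongr
      _ = A * B * (‖s ^ M‖ₑ ^ 2 * (‖g s‖ₑ ^ (2 / N) / ‖j s‖ₑ ^ 2)) := by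
          rw [ENNReal.div_eq_inv_mul]
          ring
      _ ≤ A * B * (‖s ^ M‖ₑ ^ 2 * Γ (s ^ M)) := by gcongr
  have hABt : A * B ≠ ∞ := ENNReal.mul_ne_top hAt hBt
  have h5 : ∫⁻ t : ℂ in ball 0 ρ, ‖t‖ₑ ^ (2 + a - 2 * β) < ∞ := by
    calc ∫⁻ t : ℂ in ball 0 ρ, ‖t‖ₑ ^ (2 + a - 2 * β) ≤
        ∫⁻ t : ℂ in ball 0 ρ, A * B * (‖t‖ₑ ^ 2 * Γ t) := by
          refine lintegral_mono_ae ?_
          have h6 : ∀ᵐ t : ℂ ∂(volume.restrict (ball 0 ρ)), t ≠ 0 :=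
            ae_restrict_of_ae (Measure.ae_ne volume 0)
          filter_upwards [h6, ae_restrict_mem measurableSet_ball] with t h7 h8
          exact h4 t h8 h7
      _ = A * B * ∫⁻ t : ℂ in ball 0 ρ, ‖t‖ₑ ^ 2 * Γ t := lintegral_const_mul' _ _ hABt
      _ ≤ A * B * ∫⁻ t, ‖t‖ₑ ^ 2 * Γ t := by gcongr; exact Measure.restrict_le_self
      _ < ∞ := ENNReal.mul_lt_top hABt.lt_top hint
  have h6 := H740.rpow_gt hρ h5
  have h7 : β - 2 < o / (M * N) := by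
    rw [ha] at h6
    linarith
  rwa [lt_div_iff₀ (by positivity), mul_comm] at h7

end Vale.Agent.P298.H379
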