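import Vale.Agent.P298.H379.Lo1
import Vale.Agent.P298.H379.Lo2
import Vale.Agent.P298.H740.LB3

/-!
P298, row E1-LOW (helper379): a combination of products `e ^ i e' ^ (l - i) lam ^ k` in the ideal of
integrability vanishes, if its degree is small.
-/

namespace Vale.Agent.P298.H379

open Filter Topology Metric MeasureTheory Set Vale.Agent.P298 Vale.Agent.P298.H941 Polynomial
open Vale.Agent.P298.H967 (IK)
open scoped ENNReal NNReal

variable {f e e' : (Fin 3 → ℂ) → ℂ}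

/-- Integrability on the surface implies integrability on almost every curve `e = c e'`. -/
theorem ae_lines_h (hf : Hol f) (he : Hol e) (he' : Hol e') {h : (Fin 3 → ℂ) → ℂ} {k : ℝ}
    (hI : InI f k h) : ∀ᵐ c : ℂ, ∃ Γ : ℂ → ℝ≥0∞, ∫⁻ t, ‖t‖ₑ ^ 2 * Γ t < ∞ ∧
      ∀ᶠ x in 𝓝 (0 : Fin 3 → ℂ), f x = 0 → pd 2 f x ≠ 0 → jac3 f e e' x ≠ 0 → e x = e' x * c →
        ‖h x‖ₑ ^ (2 / k) / ‖jac3 f e e' x‖ₑ ^ 2 ≤ Γ (e' x) := by
  obtain ⟨hh, r₀, hr₀, hN⟩ := hI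
  obtain ⟨r₁, hr₁, h1⟩ := H967.exists_ball hf
  obtain ⟨r₂, hr₂, h2⟩ := H967.exists_ball he
  obtain ⟨r₃, hr₃, h3⟩ := H967.exists_ball he'
  obtain ⟨r₄, hr₄, h4⟩ := H967.exists_ball hh
  set r : ℝ := min (min (min r₀ r₁) (min r₂ r₃)) r₄ with hr
  have hrpos : 0 < r := lt_min (lt_min (lt_min hr₀ hr₁) (lt_min hr₂ hr₃)) hr₄
  have k0 : r ≤ r₀ := (min_le_left _ _).trans ((min_le_left _ _).trans (min_le_left _ _))
  have k1 : r ≤ r₁ := (min_le_left _ _).trans ((min_le_left _ _).trans (min_le_right _ _))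
  have k2 : r ≤ r₂ := (min_le_left _ _).trans ((min_le_right _ _).trans (min_le_left _ _))
  have k3 : r ≤ r₃ := (min_le_left _ _).trans ((min_le_right _ _).trans (min_le_right _ _))
  have k4 : r ≤ r₄ := min_le_right _ _
  set Ω : Set (Fin 3 → ℂ) := ball 0 r with hΩd
  have hΩ : IsOpen Ω := isOpen_ball
  have af : AnalyticOnNhd ℂ f Ω := fun x hx => h1 x (ball_subset_ball k1 hx)
  have ae : AnalyticOnNhd ℂ e Ω := fun x hx => h2 x (ball_subset_ball k2 hx)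
  have ae' : AnalyticOnNhd ℂ e' Ω := fun x hx => h3 x (ball_subset_ball k3 hx)
  have ah : AnalyticOnNhd ℂ h Ω := fun x hx => h4 x (ball_subset_ball k4 hx)
  set φ : (Fin 3 → ℂ) → ℝ≥0∞ := fun x =>
    Ω.indicator (fun x => ‖h x‖ₑ ^ (2 / k)) x / ‖jac3 f e e' x‖ₑ ^ 2 with hφd
  have hφm : Measurable φ := by
    refine Measurable.div ?_ ((H373.measurable_jac3 f e e').enorm.pow_const 2)
    exact H967.measurable_ind (F := fun z : ℂ => ‖z‖ₑ ^ (2 / k)) ah.continuousOn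
      (measurable_enorm.pow_const _)
  have hφ0 : ∀ x, x ∉ Ω → φ x = 0 := by
    intro x hx
    rw [hφd]
    simp only [indicator_of_notMem hx, ENNReal.zero_div]
  set F : ℂ × ℂ → ℝ≥0∞ := fun q => ∑' x : H373.Fib f e e' Ω 0 q, φ x with hF
  have hFm : Measurable F := by
    have h4 := (H373.area_fsum hΩ af ae ae' (i := 0) (j := 1) (k := 2) (by decide) (by decide)
      (by decide) 0 hφm).1
    have h5 : F = H98.fsum (fun x => (e x, e' x))
        (H373.Reg f Ω 0 2 ∩ {x | jac3 f e e' x ≠ 0}) φ := by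
      funext q
      exact (H373.fsum_eq_tsum_Fib φ q).symm
    rw [h5]
    exact h4
  have hFi : ∫⁻ q, F q < ∞ := by
    rw [hF, ← H373.nu_area hΩ af ae ae' 0 hφm hφ0]
    have h4 : nu f 0 (fun x => ‖jac3 f e e' x‖ₑ ^ 2 * φ x) ≤ Nloc f r k h := by
      refine H967.nu_mono fun x _ _ => ?_
      rw [hφd]
      exact ENNReal.mul_div_le
    exact (h4.trans (H967.Nloc_anti k0)).trans_lt hN
  filter_upwards [H740.ae_line hFm hFi] with c hc
  refine ⟨fun t => F (t * c, t), hc, ?_⟩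
  filter_upwards [ball_mem_nhds (0 : Fin 3 → ℂ) hrpos] with x hx hx1 hx2 hx3 hx4
  have hmem : x ∈ H373.Fib f e e' Ω 0 (e' x * c, e' x) := ⟨hx, hx1, hx4, rfl, hx2, hx3⟩
  have h4 : φ x ≤ F (e' x * c, e' x) :=
    ENNReal.le_tsum (f := fun y : H373.Fib f e e' Ω 0 (e' x * c, e' x) => φ y) ⟨x, hmem⟩
  refine le_trans (le_of_eq ?_) h4
  have hxΩ : x ∈ Ω := hx
  rw [hφd]
  simp only [indicator_of_mem hxΩ]

/-- The `D` arcs of the curve `f = 0, e = c e'` over the points `e' = s ^ M`. -/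
structure ArcsAt (f e e' : (Fin 3 → ℂ) → ℂ) (D : ℕ) (c : ℂ) (M : ℕ)
    (ψ : Fin D → ℂ → Fin 3 → ℂ) : Prop where
  pos : 0 < M
  an : ∀ j, AnalyticAt ℂ (ψ j) 0
  zero : ∀ j, ψ j 0 = 0
  mem : ∀ j, ∀ᶠ s in 𝓝 (0 : ℂ),
    f (ψ j s) = 0 ∧ e (ψ j s) = e' (ψ j s) * c ∧ e' (ψ j s) = s ^ M
  ne : ∀ i j, i ≠ j → ∀ᶠ s in 𝓝[≠] (0 : ℂ), ψ i s ≠ ψ j s
  reg : ∀ j, ∀ᶠ s in 𝓝[≠] (0 : ℂ), pd 2 f (ψ j s) ≠ 0 ∧ jac3 f e e' (ψ j s) ≠ 0

variable {D : ℕ} {c : ℂ} {M : ℕ} {ψ : Fin D → ℂ → Fin 3 → ℂ}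

theorem ArcsAt.ana_comp (A : ArcsAt f e e' D c M ψ) {h : (Fin 3 → ℂ) → ℂ} (hh : Hol h)
    (j : Fin D) : AnalyticAt ℂ (fun s => h (ψ j s)) 0 :=
  AnalyticAt.comp_of_eq hh (A.an j) (A.zero j)

/-- the values of the form `lam r` on the arcs -/
noncomputable def ArcsAt.vv (A : ArcsAt f e e' D c M ψ) (r : ℕ) (j : Fin D) : O ℂ :=
  H941.mk (fun s => lam r (ψ j s)) (A.ana_comp (ana_lam r 0) j)

/-- `c` is good for the form `lam r`, with discriminant of relative order at most `2 a`. -/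
def GoodC (f e e' : (Fin 3 → ℂ) → ℂ) (D r a : ℕ) (c : ℂ) : Prop :=
  ∃ (M : ℕ) (ψ : Fin D → ℂ → Fin 3 → ℂ) (A : ArcsAt f e e' D c M ψ),
    Function.Injective (A.vv r) ∧ ordG (Matrix.vandermonde (A.vv r)).det ≤ M * a

theorem ArcsAt.exists_goodC (A : ArcsAt f e e' D c M ψ) : ∃ r a, GoodC f e e' D r a c := by
  classical
  have hk : ∀ (j : Fin D) (k : Fin 3), AnalyticAt ℂ (fun s => ψ j s k) 0 := fun j k =>
    A.ana_comp (h := fun x => x k)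
      ((ContinuousLinearMap.proj (R := ℂ) (φ := fun _ : Fin 3 => ℂ) k).analyticAt 0) j
  set δ : {p : Fin D × Fin D // p.1 ≠ p.2} → Fin 3 → O ℂ := fun p k =>
    H941.mk (fun s => ψ p.1.1 s k) (hk _ k) - H941.mk (fun s => ψ p.1.2 s k) (hk _ k) with hδ
  obtain ⟨r, hr⟩ := exists_lam δ (by
    rintro ⟨⟨i, j⟩, hij⟩ h0
    have h2 : ∀ k, ∀ᶠ s in 𝓝 (0 : ℂ), ψ i s k = ψ j s k := by
      intro k
      have h3 := congrFun h0 k
      rw [hδ] at h3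
      exact (mk_eq_iff _ _).1 (sub_eq_zero.1 h3)
    have h4 : ∀ᶠ s in 𝓝[≠] (0 : ℂ), False := by
      filter_upwards [(eventually_all.2 h2).filter_mono nhdsWithin_le_nhds, A.ne i j hij]
        with s hs hs2
      exact hs2 (funext hs)
    exact h4.exists.elim fun _ h => h)
  refine ⟨r, ordG (Matrix.vandermonde (A.vv r)).det, M, ψ, A, ?_,
    Nat.le_mul_of_pos_left _ A.pos⟩
  intro i j hij
  by_contra hne
  refine hr ⟨(i, j), hne⟩ ?_
  have h1 : δ ⟨(i, j), hne⟩ 0 + (r : O ℂ) * δ ⟨(i, j), hne⟩ 1 + (r : O ℂ) ^ 2 * δ ⟨(i, j), hne⟩ 2 =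
      A.vv r i - A.vv r j := by
    have h2 : (r : O ℂ) = H941.mk (fun _ => (r : ℂ)) analyticAt_const := by
      rw [← H941.algebraMap_eq, map_natCast]
    rw [h2]
    have e1 : ∀ l : Fin D, A.vv r l = H941.mk (fun s => ψ l s 0) (hk l 0) +
        H941.mk (fun _ => (r : ℂ)) analyticAt_const * H941.mk (fun s => ψ l s 1) (hk l 1) +
        H941.mk (fun _ => (r : ℂ)) analyticAt_const ^ 2 * H941.mk (fun s => ψ l s 2) (hk l 2) :=
      fun l => rfl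
    rw [e1, e1, hδ]
    ring
  rw [h1, hij, sub_self]

/-! ### The combinations -/

/-- the index type of the monomials of degree `< n` in two variables -/
abbrev TT (n : ℕ) : Type := Σ l : Fin n, Fin ((l : ℕ) + 1)

/-- the combinations `∑ q_{k,l,i} e^i e'^(l - i) lam^k` -/
noncomputable def comb (he : Hol e) (he' : Hol e') (D r n : ℕ) :
    (Fin D → TT n → ℂ) →ₗ[ℂ] AnFun 3 where
  toFun q := ∑ k, (∑ p : TT n, q k p • ((⟨e, he⟩ : AnFun 3) ^ (p.2 : ℕ) *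
    (⟨e', he'⟩ : AnFun 3) ^ ((p.1 : ℕ) - (p.2 : ℕ)))) * (⟨lam r, ana_lam r 0⟩ : AnFun 3) ^ (k : ℕ)
  map_add' q q' := by
    simp only [Pi.add_apply, add_smul, Finset.sum_add_distrib, add_mul]
  map_smul' a q := by
    simp only [Pi.smul_apply, smul_eq_mul, mul_smul, ← Finset.smul_sum, smul_mul_assoc,
      RingHom.id_apply]

theorem comb_apply (he : Hol e) (he' : Hol e') (D r n : ℕ) (q : Fin D → TT n → ℂ)
    (x : Fin 3 → ℂ) : (comb he he' D r n q : (Fin 3 → ℂ) → ℂ) x =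
      ∑ k, (∑ p : TT n, q k p * (e x ^ (p.2 : ℕ) * e' x ^ ((p.1 : ℕ) - (p.2 : ℕ)))) *
        lam r x ^ (k : ℕ) := by
  have h1 : ∀ (s : Finset (Fin D)) (g : Fin D → AnFun 3),
      ((∑ k ∈ s, g k : AnFun 3) : (Fin 3 → ℂ) → ℂ) x = ∑ k ∈ s, (g k : (Fin 3 → ℂ) → ℂ) x := by
    intro s g
    classical
    induction s using Finset.induction_on with
    | empty => rfl
    | insert a s ha ih =>
      rw [Finset.sum_insert ha, Finset.sum_insert ha, ← ih]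
      rfl
  have h2 : ∀ (s : Finset (TT n)) (g : TT n → AnFun 3),
      ((∑ k ∈ s, g k : AnFun 3) : (Fin 3 → ℂ) → ℂ) x = ∑ k ∈ s, (g k : (Fin 3 → ℂ) → ℂ) x := by
    intro s g
    classical
    induction s using Finset.induction_on with
    | empty => rfl
    | insert a s ha ih =>
      rw [Finset.sum_insert ha, Finset.sum_insert ha, ← ih]
      rfl
  change ((∑ k, (∑ p : TT n, q k p • ((⟨e, he⟩ : AnFun 3) ^ (p.2 : ℕ) *
    (⟨e', he'⟩ : AnFun 3) ^ ((p.1 : ℕ) - (p.2 : ℕ)))) *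
      (⟨lam r, ana_lam r 0⟩ : AnFun 3) ^ (k : ℕ) : AnFun 3) : (Fin 3 → ℂ) → ℂ) x = _
  rw [h1]
  refine Finset.sum_congr rfl fun k _ => ?_
  change ((∑ p : TT n, q k p • ((⟨e, he⟩ : AnFun 3) ^ (p.2 : ℕ) *
    (⟨e', he'⟩ : AnFun 3) ^ ((p.1 : ℕ) - (p.2 : ℕ))) : AnFun 3) : (Fin 3 → ℂ) → ℂ) x *
      lam r x ^ (k : ℕ) = _
  rw [h2]
  rfl

/-- the restriction of the coefficients to the line `(t c, t)` -/
noncomputable def PP {n : ℕ} (q : TT n → ℂ) (c : ℂ) : ℂ[X] :=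
  ∑ l : Fin n, C (∑ i : Fin ((l : ℕ) + 1), q ⟨l, i⟩ * c ^ (i : ℕ)) * X ^ (l : ℕ)

theorem PP_degree {n : ℕ} (q : TT n → ℂ) (c : ℂ) : (PP q c).degree < n := by
  unfold PP
  refine (degree_sum_le _ _).trans_lt ?_
  refine (Finset.sup_lt_iff (WithBot.bot_lt_coe n)).2 fun l _ => ?_
  refine (degree_C_mul_X_pow_le _ _).trans_lt ?_
  exact WithBot.coe_lt_coe.2 l.2

theorem PP_coeff {n : ℕ} (q : TT n → ℂ) (c : ℂ) (l : Fin n) :
    (PP q c).coeff l = ∑ i : Fin ((l : ℕ) + 1), q ⟨l, i⟩ * c ^ (i : ℕ) := by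
  unfold PP
  rw [finsetSum_coeff, Finset.sum_eq_single l]
  · rw [coeff_C_mul_X_pow, if_pos rfl]
  · intro l' _ hl'
    rw [coeff_C_mul_X_pow, if_neg fun h => hl' (Fin.ext h).symm]
  · intro h
    exact absurd (Finset.mem_univ l) h

theorem PP_eval {n : ℕ} (q : TT n → ℂ) (c t : ℂ) :
    (PP q c).eval t = ∑ p : TT n, q p * ((t * c) ^ (p.2 : ℕ) * t ^ ((p.1 : ℕ) - (p.2 : ℕ))) := by
  unfold PP
  rw [eval_finsetSum, Fintype.sum_sigma]
  refine Finset.sum_congr rfl fun l _ => ?_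
  rw [eval_mul, eval_C, eval_pow, eval_X, Finset.sum_mul]
  refine Finset.sum_congr rfl fun i _ => ?_
  have hi : (i : ℕ) ≤ l := Nat.lt_succ_iff.1 i.2
  have h1 : t ^ (l : ℕ) = t ^ (i : ℕ) * t ^ ((l : ℕ) - (i : ℕ)) := by
    rw [← pow_add]
    congr 1
    omega
  rw [h1, mul_pow]
  ring

/-- Vanishing of the restriction to one good line. -/
theorem PP_eq_zero (he : Hol e) (he' : Hol e') {m N : ℝ} (hm : 0 < m) (hN : 0 < N) {r a n : ℕ}
    (hn : (n + a : ℝ) ≤ N / m)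
    (hJ : ∃ C : ℝ, ∀ᶠ x in 𝓝 (0 : Fin 3 → ℂ), f x = 0 →
      ‖jac3 f e e' x‖ ≤ C * (max ‖e x‖ ‖e' x‖) ^ (2 + 1 / m))
    (hc : GoodC f e e' D r a c) (q : Fin D → TT n → ℂ)
    (hΓ : ∃ Γ : ℂ → ℝ≥0∞, ∫⁻ t, ‖t‖ₑ ^ 2 * Γ t < ∞ ∧
      ∀ᶠ x in 𝓝 (0 : Fin 3 → ℂ), f x = 0 → pd 2 f x ≠ 0 → jac3 f e e' x ≠ 0 → e x = e' x * c →
        ‖(comb he he' D r n q : (Fin 3 → ℂ) → ℂ) x‖ₑ ^ (2 / N) / ‖jac3 f e e' x‖ₑ ^ 2 ≤
          Γ (e' x)) (k : Fin D) : PP (q k) c = 0 := by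
  obtain ⟨M, ψ, A, hinj, hord⟩ := hc
  obtain ⟨Γ, hint, hΓ⟩ := hΓ
  obtain ⟨C, hC⟩ := hJ
  set h : (Fin 3 → ℂ) → ℂ := (comb he he' D r n q : (Fin 3 → ℂ) → ℂ) with hh
  have hhol : Hol h := (comb he he' D r n q).2
  have hM0 : (0 : ℝ) < M := by exact_mod_cast A.pos
  have ht : ∀ j, Tendsto (ψ j) (𝓝 0) (𝓝 0) := by
    intro j
    have := (A.an j).continuousAt.tendsto
    rwa [A.zero j] at this
  -- the orders along the arcs
  have hdvd : ∀ j, zz ^ (M * (n + a)) ∣ H941.mk (fun s => h (ψ j s)) (A.ana_comp hhol j) := by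
    intro j
    by_cases h0 : H941.mk (fun s => h (ψ j s)) (A.ana_comp hhol j) = 0
    · rw [h0]
      exact dvd_zero _
    rw [zz_pow_dvd_iff h0]
    have ho := order_mk _ h0
    set C' : ℝ := |C| * (1 + ‖c‖) ^ (2 + 1 / m) + 1 with hC'
    have hC'0 : 0 < C' := by positivity
    have hJb : ∀ᶠ s in 𝓝 (0 : ℂ), ‖jac3 f e e' (ψ j s)‖ ≤ C' * ‖s ^ M‖ ^ (2 + 1 / m) := by
      filter_upwards [(ht j).eventually hC, A.mem j] with s hs1 hs2
      refine (hs1 hs2.1).trans ?_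
      have h1 : max ‖e (ψ j s)‖ ‖e' (ψ j s)‖ ≤ (1 + ‖c‖) * ‖s ^ M‖ := by
        refine max_le ?_ ?_
        · rw [hs2.2.1, hs2.2.2, norm_mul, mul_comm]
          exact mul_le_mul_of_nonneg_right (by linarith) (norm_nonneg _)
        · rw [hs2.2.2]
          exact le_mul_of_one_le_left (norm_nonneg _) (by linarith [norm_nonneg c])
      have h2 : (max ‖e (ψ j s)‖ ‖e' (ψ j s)‖) ^ (2 + 1 / m) ≤
          ((1 + ‖c‖) * ‖s ^ M‖) ^ (2 + 1 / m) :=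
        Real.rpow_le_rpow ((norm_nonneg _).trans (le_max_left _ _)) h1 (by positivity)
      rw [Real.mul_rpow (by positivity) (norm_nonneg _)] at h2
      calc C * (max ‖e (ψ j s)‖ ‖e' (ψ j s)‖) ^ (2 + 1 / m)
          ≤ |C| * ((1 + ‖c‖) ^ (2 + 1 / m) * ‖s ^ M‖ ^ (2 + 1 / m)) :=
            mul_le_mul (le_abs_self C) h2 (by positivity) (abs_nonneg C)
        _ ≤ C' * ‖s ^ M‖ ^ (2 + 1 / m) := by
            rw [← mul_assoc]
            exact mul_le_mul_of_nonneg_right (by rw [hC']; linarith) (by positivity)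
    have hΓb : ∀ᶠ s in 𝓝[≠] (0 : ℂ),
        ‖h (ψ j s)‖ₑ ^ (2 / N) / ‖jac3 f e e' (ψ j s)‖ₑ ^ 2 ≤ Γ (s ^ M) := by
      filter_upwards [((ht j).eventually hΓ).filter_mono nhdsWithin_le_nhds,
        (A.mem j).filter_mono nhdsWithin_le_nhds, A.reg j] with s hs1 hs2 hs3
      have h1 := hs1 hs2.1 hs3.1 hs3.2 hs2.2.1
      rwa [hs2.2.2] at h1
    have h1 := ord_lt (A.ana_comp hhol j) A.pos ho hN hC'0 hJb hΓb hint
    have h2 : (2 + 1 / m - 2 : ℝ) = 1 / m := by ring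
    rw [h2] at h1
    have h3 : (M : ℝ) * (n + a) ≤ M * N * (1 / m) := by
      calc (M : ℝ) * (n + a) ≤ M * (N / m) := mul_le_mul_of_nonneg_left hn hM0.le
        _ = M * N * (1 / m) := by ring
    have h4 : ((M * (n + a) : ℕ) : ℝ) < (ordG (H941.mk (fun s => h (ψ j s)) (A.ana_comp hhol j)) : ℕ) := by
      push_cast
      exact h3.trans_lt h1
    exact (Nat.cast_lt.1 h4).le
  refine line_step (p := M * (n + a)) A.pos hinj ?_ (fun k => PP (q k) c)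
    (fun k => PP_degree _ _) (fun j => ?_) k
  · have h1 : M * (n + a) = M * a + M * n := by ring
    rw [h1]
    exact Nat.add_le_add_right hord _
  · have h1 : ∑ k, H941.mk (fun s : ℂ => (PP (q k) c).eval (s ^ M)) (ana_eval_pow (PP (q k) c) M) *
        A.vv r j ^ (k : ℕ) = H941.mk (fun s => h (ψ j s)) (A.ana_comp hhol j) := by
      have h2 : ∀ k : Fin D, AnalyticAt ℂ (fun s : ℂ => (PP (q k) c).eval (s ^ M) *
          lam r (ψ j s) ^ (k : ℕ)) 0 := fun k =>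
        (ana_eval_pow _ M).mul ((A.ana_comp (ana_lam r 0) j).pow _)
      have h3 : ∀ k : Fin D, H941.mk (fun s : ℂ => (PP (q k) c).eval (s ^ M))
          (ana_eval_pow (PP (q k) c) M) * A.vv r j ^ (k : ℕ) = H941.mk _ (h2 k) := fun k => rfl
      simp only [h3]
      rw [mk_sum, mk_eq_iff]
      filter_upwards [A.mem j] with s hs
      rw [hh, comb_apply]
      refine Finset.sum_congr rfl fun k _ => ?_
      rw [PP_eval, hs.2.1, hs.2.2]
    rw [h1]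
    exact hdvd j

end Vale.Agent.P298.H379
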