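import Vale.Agent.P298.H379.Lo3

/-!
P298, row E1-LOW (helper379): the lower bound of the colength of the ideal of integrability.
-/

namespace Vale.Agent.P298.H379

open Filter Topology Metric MeasureTheory Set Vale.Agent.P298 Vale.Agent.P298.H941 Polynomial
open Vale.Agent.P298.H967 (IK)
open scoped ENNReal NNReal

variable {f e e' : (Fin 3 → ℂ) → ℂ} {D : ℕ}

/-- There is a form and a bound of the discriminant which are good for a large set of lines. -/
theorem exists_good_set (h : ∀ᵐ c : ℂ, ∃ r a, GoodC f e e' D r a c) :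
    ∃ r a, volume {c : ℂ | GoodC f e e' D r a c} ≠ 0 := by
  by_contra hcon
  push Not at hcon
  have h1 : ∀ᵐ c : ℂ, ∀ p : ℕ × ℕ, ¬ GoodC f e e' D p.1 p.2 c := by
    rw [ae_all_iff]
    intro p
    have h2 := hcon p.1 p.2
    have h3 : volume {c : ℂ | ¬ ¬ GoodC f e e' D p.1 p.2 c} = 0 := by
      simpa only [not_not] using h2
    exact h3
  have h4 : ∀ᵐ c : ℂ, False := by
    filter_upwards [h, h1] with c hc1 hc2
    obtain ⟨r, a, hc⟩ := hc1
    exact hc2 (r, a) hc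
  exact h4.exists.elim fun _ h => h

/-- The combinations of small degree are not in the ideal of integrability. -/
theorem comb_injective (hf : Hol f) (he : Hol e) (he' : Hol e') {m N : ℝ} (hm : 0 < m)
    (hN : 0 < N) {r a n : ℕ} (hn : (n + a : ℝ) ≤ N / m)
    (hJ : ∃ C : ℝ, ∀ᶠ x in 𝓝 (0 : Fin 3 → ℂ), f x = 0 →
      ‖jac3 f e e' x‖ ≤ C * (max ‖e x‖ ‖e' x‖) ^ (2 + 1 / m))
    (hG : volume {c : ℂ | GoodC f e e' D r a c} ≠ 0) (q : Fin D → TT n → ℂ)
    (hq : InI f N (comb he he' D r n q : (Fin 3 → ℂ) → ℂ)) : q = 0 := by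
  have h1 := ae_lines_h hf he he' hq
  -- infinitely many good lines
  have hinf : {c : ℂ | ∀ k, PP (q k) c = 0}.Infinite := by
    intro hfin
    apply hG
    have h2 : ∀ᵐ c : ℂ, ¬ ∀ k, PP (q k) c = 0 := by
      have h3 : volume {c : ℂ | ¬ ¬ ∀ k, PP (q k) c = 0} = 0 := by
        simp only [not_not]
        exact hfin.measure_zero _
      exact h3
    have h4 : ∀ᵐ c : ℂ, ¬ GoodC f e e' D r a c := by
      filter_upwards [h1, h2] with c hc1 hc2 hc3
      exact hc2 fun k => PP_eq_zero he he' hm hN hn hJ hc3 q hc1 k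
    have h5 : volume {c : ℂ | ¬ ¬ GoodC f e e' D r a c} = 0 := h4
    simpa only [not_not] using h5
  funext k p
  obtain ⟨l, i⟩ := p
  set P : ℂ[X] := ∑ i : Fin ((l : ℕ) + 1), C (q k ⟨l, i⟩) * X ^ (i : ℕ) with hP
  have hP0 : P = 0 := by
    refine eq_zero_of_infinite_isRoot P (hinf.mono fun c hc => ?_)
    change P.eval c = 0
    have h2 := congrArg (fun R : ℂ[X] => R.coeff l) (hc k)
    simp only [PP_coeff, coeff_zero] at h2
    rw [hP, eval_finsetSum]
    simp only [eval_mul, eval_C, eval_pow, eval_X]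
    exact h2
  have h3 : P.coeff (i : ℕ) = q k ⟨l, i⟩ := by
    rw [hP, finsetSum_coeff, Finset.sum_eq_single i]
    · rw [coeff_C_mul_X_pow, if_pos rfl]
    · intro j _ hj
      rw [coeff_C_mul_X_pow, if_neg fun h => hj (Fin.ext h).symm]
    · intro h
      exact absurd (Finset.mem_univ i) h
  rw [← h3, hP0, coeff_zero]
  rfl

theorem two_mul_card_TT (n : ℕ) : 2 * Fintype.card (TT n) = n * (n + 1) := by
  rw [Fintype.card_sigma]
  simp only [Fintype.card_fin]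
  rw [Fin.sum_univ_eq_sum_range (fun l => l + 1) n]
  induction n with
  | zero => rfl
  | succ n ih =>
    rw [Finset.sum_range_succ, mul_add, ih]
    ring

theorem finrank_source (D n : ℕ) :
    2 * Module.finrank ℂ (Fin D → TT n → ℂ) = D * (n * (n + 1)) := by
  rw [Module.finrank_pi_fintype]
  simp only [Module.finrank_fintype_fun_eq_card, Finset.sum_const, Finset.card_univ,
    Fintype.card_fin, smul_eq_mul]
  rw [← two_mul_card_TT n]
  ring

theorem card_le_finrank (hf : Hol f) (he : Hol e) (he' : Hol e') {m N : ℝ} (hm : 0 < m)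
    (hN : 0 < N) {r a n : ℕ} (hn : (n + a : ℝ) ≤ N / m)
    (hJ : ∃ C : ℝ, ∀ᶠ x in 𝓝 (0 : Fin 3 → ℂ), f x = 0 →
      ‖jac3 f e e' x‖ ≤ C * (max ‖e x‖ ‖e' x‖) ^ (2 + 1 / m))
    (hG : volume {c : ℂ | GoodC f e e' D r a c} ≠ 0)
    (hfin : Module.Finite ℂ (AnFun 3 ⧸ IK f N)) :
    D * (n * (n + 1)) ≤ 2 * Module.finrank ℂ (AnFun 3 ⧸ IK f N) := by
  rw [← finrank_source]
  refine Nat.mul_le_mul_left 2 ?_
  set T : (Fin D → TT n → ℂ) →ₗ[ℂ] (AnFun 3 ⧸ IK f N) :=
    (Ideal.Quotient.mkₐ ℂ (IK f N)).toLinearMap ∘ₗ comb he he' D r n with hT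
  refine LinearMap.finrank_le_finrank_of_injective (f := T) ?_
  rw [← LinearMap.ker_eq_bot, LinearMap.ker_eq_bot']
  intro q hq
  refine comb_injective hf he he' hm hN hn hJ hG q ?_
  have h1 : Ideal.Quotient.mk (IK f N) (comb he he' D r n q) = 0 := hq
  rw [Ideal.Quotient.eq_zero_iff_mem, H967.mem_IK H373.areaI hf hN] at h1
  exact h1

theorem lower_arith {D a : ℕ} {m N : ℝ} (hm : 0 < m) (hN : 1 ≤ N) {F : ℕ}
    (h : ∀ n : ℕ, (n + a : ℝ) ≤ N / m → D * (n * (n + 1)) ≤ 2 * F) :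
    D * N ^ 2 / (2 * m ^ 2) - D * (2 * a + 1) / (2 * m) * N ≤ (F : ℝ) := by
  set x : ℝ := N / m with hx
  have hx0 : 0 ≤ x := by positivity
  have e1 : D * N ^ 2 / (2 * m ^ 2) - D * (2 * a + 1) / (2 * m) * N =
      D / 2 * (x ^ 2 - (2 * a + 1) * x) := by
    rw [hx]
    field_simp
  rw [e1]
  have hD0 : (0 : ℝ) ≤ D / 2 := by positivity
  by_cases hxa : x < a
  · have h1 : x ^ 2 - (2 * a + 1) * x ≤ 0 := by nlinarith
    exact (mul_nonpos_of_nonneg_of_nonpos hD0 h1).trans (Nat.cast_nonneg F)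
  · rw [not_lt] at hxa
    set n : ℕ := ⌊x - a⌋₊ with hn
    have h1 : (n : ℝ) ≤ x - a := Nat.floor_le (by linarith)
    have h2 : x - a < n + 1 := Nat.lt_floor_add_one _
    have h3 := h n (by linarith)
    have h4 : (D : ℝ) * (n * (n + 1)) ≤ 2 * F := by exact_mod_cast h3
    have hn0 : (0 : ℝ) ≤ n := Nat.cast_nonneg n
    have h5 : x ^ 2 - (2 * a + 1) * x ≤ n * (n + 1) := by
      have h6 : x - a - 1 ≤ n := by linarith
      have ha0 : (0 : ℝ) ≤ a := Nat.cast_nonneg a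
      by_cases h7 : 0 ≤ x - a - 1
      · have h8 : (x - a - 1) * (x - a) ≤ n * (n + 1) :=
          mul_le_mul h6 h2.le (by linarith) hn0
        nlinarith
      · rw [not_le] at h7
        nlinarith
    calc D / 2 * (x ^ 2 - (2 * a + 1) * x) ≤ D / 2 * (n * (n + 1)) :=
          mul_le_mul_of_nonneg_left h5 hD0
      _ ≤ F := by linarith

/-- **Lower bound of the colength** from the arcs on almost every line. -/
theorem low_of_arcs (hf : Hol f) (he : Hol e) (he' : Hol e') {m : ℝ} (hm : 0 < m)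
    (harcs : ∀ᵐ c : ℂ, ∃ (M : ℕ) (ψ : Fin D → ℂ → Fin 3 → ℂ), ArcsAt f e e' D c M ψ)
    (hJ : ∃ C : ℝ, ∀ᶠ x in 𝓝 (0 : Fin 3 → ℂ), f x = 0 →
      ‖jac3 f e e' x‖ ≤ C * (max ‖e x‖ ‖e' x‖) ^ (2 + 1 / m))
    (hfin : ∀ N : ℝ, 0 < N → Module.Finite ℂ (AnFun 3 ⧸ IK f N)) :
    ∃ C : ℝ, ∀ N : ℝ, 1 ≤ N →
      D * N ^ 2 / (2 * m ^ 2) - C * N ≤ Module.finrank ℂ (AnFun 3 ⧸ IK f N) := by
  obtain ⟨r, a, hG⟩ := exists_good_set (f := f) (e := e) (e' := e') (D := D) (by
    filter_upwards [harcs] with c hc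
    obtain ⟨M, ψ, A⟩ := hc
    exact A.exists_goodC)
  refine ⟨D * (2 * a + 1) / (2 * m), fun N hN => ?_⟩
  have hN0 : 0 < N := by linarith
  exact lower_arith hm hN fun n hn => card_le_finrank hf he he' hm hN0 hn hJ hG (hfin N hN0)

end Vale.Agent.P298.H379
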