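import Vale.Agent.P298.H379.Lo4
import Vale.Agent.P298.H740.LA

/-!
P298, row E1-LOW (helper379): the output `LowOut`.
-/

namespace Vale.Agent.P298.H379

open Filter Topology Metric MeasureTheory Set Vale.Agent.P298
open Vale.Agent.P298.H967 (IK)

theorem finite_of_qM_le {J : Ideal (AnFun 3)} {M : ℕ} (h : qM 3 M ≤ J) :
    Module.Finite ℂ (AnFun 3 ⧸ J) := by
  obtain ⟨ι, hι, b, hb⟩ := exists_taylorBasis 3 M ℂ
  refine Module.Finite.of_surjective (toQuot b J) fun y => ?_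
  obtain ⟨g, rfl⟩ := Ideal.Quotient.mk_surjective y
  obtain ⟨c, hc⟩ := taylor_surj (0 : ℂ) hb g
  refine ⟨c, ?_⟩
  change Ideal.Quotient.mk J (combo b c) = Ideal.Quotient.mk J g
  rw [eq_comm, Ideal.Quotient.eq]
  exact h hc

theorem IK_pow_le {f : (Fin 3 → ℂ) → ℂ} (hf : Hol f) {k : ℝ} (hk : 0 < k) (n : ℕ) :
    IK f k ^ (n + 1) ≤ IK f ((n + 1 : ℕ) * k) := by
  induction n with
  | zero => simp
  | succ n ih =>
    rw [pow_succ]
    refine (Ideal.mul_mono_left ih).trans ?_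
    refine (H967.IK_mul_le H373.areaI hf (by positivity) hk).trans_eq ?_
    congr 1
    push_cast
    ring

/-- The colength of every ideal of integrability is finite. -/
theorem finite_IK {f e e' : (Fin 3 → ℂ) → ℂ} (hf : Hol f) {d : ℕ} (hcol : Colength ![f, e, e'] d)
    {k : ℝ} (hk : 0 < k) (h1 : InI f k e) (h2 : InI f k e') {N : ℝ} (hN : 0 < N) :
    Module.Finite ℂ (AnFun 3 ⧸ IK f N) := by
  have hs : ∀ j, Hol (![f, e, e'] j) := by
    intro j
    fin_cases j
    · exact hf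
    · exact h1.1
    · exact h2.1
  have hc := hasColength_of_colength hs hcol
  obtain ⟨M₀, hM₀⟩ := qM_le 3 d
  have hq : qM 3 M₀ ≤ locIdeal (Set.range ![f, e, e']) := hM₀ M₀ le_rfl _ hc
  have hJ : locIdeal (Set.range ![f, e, e']) ≤ IK f k := by
    unfold locIdeal
    rw [Ideal.span_le]
    rintro h (hh | hh)
    · exact H967.nul_le_IK hk (mem_nul.2 hh)
    · obtain ⟨j, hj⟩ := hh
      fin_cases j
      · have h3 : h = ⟨f, hf⟩ := Subtype.ext hj.symm
        rw [h3]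
        exact H967.self_mem_IK hf hk
      · have h3 : h = ⟨e, h1.1⟩ := Subtype.ext hj.symm
        rw [h3]
        exact H967.inI_mem_IK h1
      · have h3 : h = ⟨e', h2.1⟩ := Subtype.ext hj.symm
        rw [h3]
        exact H967.inI_mem_IK h2
  obtain ⟨n, hn⟩ := exists_nat_ge (N / k)
  have hn1 : N ≤ ((n + 1 : ℕ) : ℝ) * k := by
    rw [div_le_iff₀ hk] at hn
    refine hn.trans (mul_le_mul_of_nonneg_right ?_ hk.le)
    push_cast
    linarith
  have h4 : mX 3 ^ (M₀ * (n + 1)) ≤ IK f N := by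
    rw [pow_mul]
    calc (mX 3 ^ M₀) ^ (n + 1) ≤ IK f k ^ (n + 1) :=
          Ideal.pow_right_mono ((H766.mX_pow_le_qM M₀).trans (hq.trans hJ)) _
      _ ≤ IK f ((n + 1 : ℕ) * k) := IK_pow_le hf hk n
      _ ≤ IK f N := H967.IK_anti hN hn1
  exact finite_of_qM_le (M := M₀ * (n + 1)) (sup_le (H967.nul_le_IK hN) h4)

/-- **Output of row E1-LOW**: the lower bound of the colength of `I_N`. -/
theorem lowOut : H740.LowOut := by
  intro f e e' μ d m hf he he' f0 e0 e0' d0 hμ hz hD hm hI hJ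
  refine low_of_arcs hf he he' hm ?_ hJ fun N hN => ?_
  · filter_upwards [H740.ae_arcs hf he he' f0 e0 e0' d0 hμ hz hD] with c hc
    obtain ⟨M, ψ, h1, h2, h3, h4, h5, h6⟩ := hc
    exact ⟨M, ψ, ⟨h1, h2, h3, h4, h5, h6⟩⟩
  · obtain ⟨h1, h2⟩ := hI (m / 2) (by linarith) (by linarith)
    exact finite_IK hf hD (k := m / 2) (by linarith) h1 h2 hN

end Vale.Agent.P298.H379
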