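import Mathlib

/-!
P298, block IRV (helper379): the submean value property of `|f|^p` on discs, and the sup bound
from an `L^p` bound for holomorphic functions.
-/

namespace Vale.Agent.P298.H379

open Filter Topology Metric MeasureTheory Set Real
open scoped ENNReal NNReal

theorem rpow_norm_le_circleAverage {f : ℂ → ℂ} {ρ : ℝ} (hρ : 0 < ρ)
    (hf : AnalyticOnNhd ℂ f (closedBall 0 ρ)) {p : ℝ} (hp : 0 < p) :
    ‖f 0‖ ^ p ≤ circleAverage (fun z => ‖f z‖ ^ p) 0 ρ := by
  have habs : |ρ| = ρ := abs_of_pos hρ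
  by_cases h0 : f 0 = 0
  · rw [h0, norm_zero, Real.zero_rpow hp.ne']
    exact circleAverage_nonneg_of_nonneg fun z _ => Real.rpow_nonneg (norm_nonneg _) _
  have hf' : AnalyticOnNhd ℂ f (closedBall 0 |ρ|) := by rwa [habs]
  have h1 := AnalyticOnNhd.circleAverage_log_norm hρ.ne' hf' h0
  have h2 : Real.log ‖f 0‖ ≤ circleAverage (Real.log ‖f ·‖) 0 ρ := by
    rw [h1]
    refine le_add_of_nonneg_left (finsum_nonneg fun u => ?_)
    by_cases hu : u ∈ closedBall (0 : ℂ) |ρ|
    · refine mul_nonneg ?_ ?_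
      · exact_mod_cast (MeromorphicOn.AnalyticOnNhd.divisor_nonneg hf' u)
      · by_cases hu0 : u = 0
        · simp [hu0]
        · refine Real.log_nonneg ?_
          rw [zero_sub, norm_neg]
          rw [mem_closedBall_zero_iff, habs] at hu
          rw [← div_eq_mul_inv]
          exact (one_le_div (norm_pos_iff.2 hu0)).2 hu
    · have : MeromorphicOn.divisor f (closedBall 0 |ρ|) u = 0 := by
        exact Function.locallyFinsuppWithin.apply_eq_zero_of_notMem _ hu
      rw [this]
      simp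
  -- exponentiate
  have hcod : f ⁻¹' {0}ᶜ ∈ codiscreteWithin (closedBall (0 : ℂ) |ρ|) :=
    hf'.preimage_zero_mem_codiscreteWithin h0 (mem_closedBall_self (abs_nonneg _))
      ((convex_closedBall _ _).isConnected ⟨0, mem_closedBall_self (abs_nonneg _)⟩)
  have hcod' : (fun z => Real.exp (p * Real.log ‖f z‖)) =ᶠ[codiscreteWithin (sphere (0 : ℂ) |ρ|)]
      fun z => ‖f z‖ ^ p := by
    have h3 := codiscreteWithin_mono sphere_subset_closedBall hcod
    filter_upwards [h3] with z hz
    have hz' : f z ≠ 0 := hz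
    rw [Real.rpow_def_of_pos (norm_pos_iff.2 hz'), mul_comm]
  have hcint : CircleIntegrable (fun z => ‖f z‖ ^ p) 0 ρ := by
    refine ContinuousOn.circleIntegrable hρ.le ?_
    refine ContinuousOn.rpow_const ?_ fun z _ => Or.inr hp.le
    exact (hf.continuousOn.mono sphere_subset_closedBall).norm
  have hcint' : CircleIntegrable (fun z => Real.exp (p * Real.log ‖f z‖)) 0 ρ :=
    (circleIntegrable_congr_codiscreteWithin hcod').2 hcint
  have hlint : CircleIntegrable (fun z => Real.log ‖f z‖) 0 ρ := by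
    have : MeromorphicOn f (sphere 0 |ρ|) := fun z hz =>
      (hf' z (sphere_subset_closedBall hz)).meromorphicAt
    exact this.circleIntegrable_log_norm
  have h4 : Real.exp (p * circleAverage (fun z => Real.log ‖f z‖) 0 ρ) ≤
      circleAverage (fun z => Real.exp (p * Real.log ‖f z‖)) 0 ρ := by
    rw [circleAverage_eq_intervalAverage, circleAverage_eq_intervalAverage]
    have h5 : ConvexOn ℝ univ fun x : ℝ => Real.exp (p * x) := by
      refine ⟨convex_univ, fun x _ y _ a b ha hb hab => ?_⟩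
      have h6 := convexOn_exp.2 (mem_univ (p * x)) (mem_univ (p * y)) ha hb hab
      have h7 : a • (p * x) + b • (p * y) = p * (a • x + b • y) := by
        simp only [smul_eq_mul]
        ring
      rw [h7] at h6
      exact h6
    have h6 := h5.map_set_average_le (μ := volume) (t := uIoc 0 (2 * π))
      (f := fun θ => Real.log ‖f (circleMap 0 ρ θ)‖) (by fun_prop) isClosed_univ ?_ ?_ ?_ ?_ ?_
    · exact h6
    · rw [uIoc_of_le (by positivity), Real.volume_Ioc]
      simp [Real.pi_pos]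
    · rw [uIoc_of_le (by positivity), Real.volume_Ioc]
      exact ENNReal.ofReal_ne_top
    · exact Eventually.of_forall fun _ => mem_univ _
    · exact (intervalIntegrable_iff.1 hlint)
    · exact (intervalIntegrable_iff.1 hcint')
  rw [← circleAverage_congr_codiscreteWithin hcod' hρ.ne']
  refine le_trans ?_ h4
  rw [Real.rpow_def_of_pos (norm_pos_iff.2 h0), mul_comm]
  exact Real.exp_le_exp.2 (mul_le_mul_of_nonneg_left h2 hp.le)

theorem polar_symm (t θ : ℝ) :
    Complex.polarCoord.symm (t, θ) = (t : ℂ) * Complex.exp (θ * Complex.I) := by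
  rw [Complex.polarCoord_symm_apply, Complex.exp_mul_I]
  simp [Complex.ofReal_cos, Complex.ofReal_sin]

/-- polar coordinates in a disc -/
theorem lintegral_disc {f : ℂ → ℝ≥0∞} (hf : Measurable f) (ρ : ℝ) :
    ∫⁻ z in ball (0 : ℂ) ρ, f z =
      ∫⁻ t in Ioo 0 ρ, ENNReal.ofReal t *
        ∫⁻ θ in Ioo (-π) π, f ((t : ℂ) * Complex.exp (θ * Complex.I)) := by
  rw [← lintegral_indicator measurableSet_ball, ← Complex.lintegral_comp_polarCoord_symm]
  have hm : Measurable fun p : ℝ × ℝ => ENNReal.ofReal p.1 •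
      (ball (0 : ℂ) ρ).indicator f (Complex.polarCoord.symm p) := by
    have h1 : Measurable fun p : ℝ × ℝ => Complex.polarCoord.symm p := by
      simp only [Complex.polarCoord_symm_apply]
      fun_prop
    simp only [smul_eq_mul]
    exact (ENNReal.measurable_ofReal.comp measurable_fst).mul
      ((hf.indicator measurableSet_ball).comp h1)
  have h2 : (polarCoord.target : Set (ℝ × ℝ)) = Ioi (0 : ℝ) ×ˢ Ioo (-π) π := rfl
  rw [h2, Measure.volume_eq_prod, setLIntegral_prod _ hm.aemeasurable]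
  have h3 : ∀ t ∈ Ioi (0 : ℝ), (∫⁻ θ in Ioo (-π) π, ENNReal.ofReal (t, θ).1 •
      (ball (0 : ℂ) ρ).indicator f (Complex.polarCoord.symm (t, θ))) =
      (Iio ρ).indicator (fun t => ENNReal.ofReal t *
        ∫⁻ θ in Ioo (-π) π, f ((t : ℂ) * Complex.exp (θ * Complex.I))) t := by
    intro t ht
    have hn : ∀ θ : ℝ, ‖(t : ℂ) * Complex.exp (θ * Complex.I)‖ = t := by
      intro θ
      rw [norm_mul, Complex.norm_exp_ofReal_mul_I, mul_one, Complex.norm_real, Real.norm_eq_abs,
        abs_of_pos ht]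
    simp only [polar_symm, smul_eq_mul]
    by_cases hρ : t < ρ
    · rw [indicator_of_mem (show t ∈ Iio ρ from hρ)]
      have : ∀ θ : ℝ, (ball (0 : ℂ) ρ).indicator f ((t : ℂ) * Complex.exp (θ * Complex.I)) =
          f ((t : ℂ) * Complex.exp (θ * Complex.I)) := by
        intro θ
        rw [indicator_of_mem]
        rw [mem_ball_zero_iff, hn]
        exact hρ
      simp only [this]
      rw [lintegral_const_mul' _ _ ENNReal.ofReal_ne_top]
    · rw [indicator_of_notMem (show t ∉ Iio ρ from hρ)]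
      have : ∀ θ : ℝ, (ball (0 : ℂ) ρ).indicator f ((t : ℂ) * Complex.exp (θ * Complex.I)) = 0 := by
        intro θ
        rw [indicator_of_notMem]
        rw [mem_ball_zero_iff, hn]
        exact hρ
      simp only [this, mul_zero, lintegral_zero]
  rw [setLIntegral_congr_fun measurableSet_Ioi h3, lintegral_indicator measurableSet_Iio,
    Measure.restrict_restrict measurableSet_Iio]
  congr 2
  ext t
  simp [and_comm]

/-- submean value property on discs -/
theorem ofReal_sq_mul_le {f : ℂ → ℂ} {r : ℝ} (hr : 0 < r) (hf : DifferentiableOn ℂ f (ball 0 r))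
    {p : ℝ} (hp : 0 < p) :
    ENNReal.ofReal (r ^ 2) * ‖f 0‖ₑ ^ p ≤ ∫⁻ z in ball (0 : ℂ) r, ‖f z‖ₑ ^ p := by
  classical
  have han : AnalyticOnNhd ℂ f (ball 0 r) := hf.analyticOnNhd isOpen_ball
  set g : ℂ → ℝ≥0∞ := (ball (0 : ℂ) r).indicator fun z => ‖f z‖ₑ ^ p with hg
  have hgm : Measurable g := by
    have h1 : ContinuousOn (fun z => ‖f z‖ₑ ^ p) (ball 0 r) :=
      ENNReal.continuous_rpow_const.comp_continuousOn hf.continuousOn.enorm
    have h2 := h1.measurable_piecewise (continuousOn_const (c := (0 : ℝ≥0∞)) (s := (ball (0 : ℂ) r)ᶜ))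
      measurableSet_ball
    have h3 : (ball (0 : ℂ) r).piecewise (fun z => ‖f z‖ₑ ^ p) (fun _ => 0) = g := by
      ext z
      by_cases hz : z ∈ ball (0 : ℂ) r <;> simp [hg, hz]
    rwa [h3] at h2
  have h1 : ∫⁻ z in ball (0 : ℂ) r, ‖f z‖ₑ ^ p = ∫⁻ z in ball (0 : ℂ) r, g z :=
    setLIntegral_congr_fun measurableSet_ball fun z hz =>
      (indicator_of_mem hz fun z => ‖f z‖ₑ ^ p).symm
  rw [h1, lintegral_disc hgm]
  have hn : ∀ t : ℝ, 0 < t → ∀ θ : ℝ, ‖(t : ℂ) * Complex.exp (θ * Complex.I)‖ = t := by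
    intro t ht θ
    rw [norm_mul, Complex.norm_exp_ofReal_mul_I, mul_one, Complex.norm_real, Real.norm_eq_abs,
      abs_of_pos ht]
  have h2 : ∀ t ∈ Ioo 0 r, ENNReal.ofReal (2 * π) * ‖f 0‖ₑ ^ p ≤
      ∫⁻ θ in Ioo (-π) π, g ((t : ℂ) * Complex.exp (θ * Complex.I)) := by
    intro t ht
    have hft : AnalyticOnNhd ℂ f (closedBall 0 t) := han.mono (closedBall_subset_ball ht.2)
    have h3 := rpow_norm_le_circleAverage ht.1 hft hp
    have h4 : circleAverage (fun z => ‖f z‖ ^ p) 0 t =
        (2 * π)⁻¹ * ∫ θ in (-π)..π, ‖f (circleMap 0 t θ)‖ ^ p := by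
      rw [circleAverage_eq_integral_add (-π), smul_eq_mul]
      congr 1
      rw [intervalIntegral.integral_comp_add_right (fun θ => ‖f (circleMap 0 t θ)‖ ^ p)]
      congr 1 <;> ring
    have hcont : Continuous fun θ : ℝ => ‖f (circleMap 0 t θ)‖ ^ p := by
      refine Continuous.rpow_const ?_ fun _ => Or.inr hp.le
      have h5 : Continuous fun θ : ℝ => f (circleMap 0 t θ) :=
        hft.continuousOn.comp_continuous (continuous_circleMap 0 t) fun θ =>
          circleMap_mem_closedBall 0 ht.1.le θ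
      exact h5.norm
    have h5 : 2 * π * ‖f 0‖ ^ p ≤ ∫ θ in (-π)..π, ‖f (circleMap 0 t θ)‖ ^ p := by
      rw [h4] at h3
      have h6 : 0 < 2 * π := by positivity
      calc 2 * π * ‖f 0‖ ^ p ≤ 2 * π * ((2 * π)⁻¹ * ∫ θ in (-π)..π, ‖f (circleMap 0 t θ)‖ ^ p) :=
            mul_le_mul_of_nonneg_left h3 h6.le
        _ = _ := by rw [← mul_assoc, mul_inv_cancel₀ h6.ne', one_mul]
    have h6 : ENNReal.ofReal (∫ θ in (-π)..π, ‖f (circleMap 0 t θ)‖ ^ p) =
        ∫⁻ θ in Ioo (-π) π, g ((t : ℂ) * Complex.exp (θ * Complex.I)) := by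
      rw [intervalIntegral.integral_of_le (by linarith [Real.pi_pos]), integral_Ioc_eq_integral_Ioo,
        ofReal_integral_eq_lintegral_ofReal]
      · refine setLIntegral_congr_fun measurableSet_Ioo fun θ _ => ?_
        have h7 : circleMap 0 t θ = (t : ℂ) * Complex.exp (θ * Complex.I) := by
          rw [circleMap_zero]
        have h8 : (t : ℂ) * Complex.exp (θ * Complex.I) ∈ ball (0 : ℂ) r := by
          rw [mem_ball_zero_iff, hn t ht.1]
          exact ht.2
        rw [h7, hg, indicator_of_mem h8, ← ofReal_norm,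
          ENNReal.ofReal_rpow_of_nonneg (norm_nonneg _) hp.le]
      · exact (hcont.integrableOn_Icc (a := -π) (b := π)).mono_set Ioo_subset_Icc_self
      · exact Eventually.of_forall fun θ => Real.rpow_nonneg (norm_nonneg _) _
    rw [← h6, ← ofReal_norm, ENNReal.ofReal_rpow_of_nonneg (norm_nonneg _) hp.le,
      ← ENNReal.ofReal_mul (by positivity)]
    exact ENNReal.ofReal_le_ofReal h5
  have h3 : ∫⁻ t in Ioo 0 r, ENNReal.ofReal t * (ENNReal.ofReal (2 * π) * ‖f 0‖ₑ ^ p) ≤
      ∫⁻ t in Ioo 0 r, ENNReal.ofReal t *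
        ∫⁻ θ in Ioo (-π) π, g ((t : ℂ) * Complex.exp (θ * Complex.I)) := by
    refine setLIntegral_mono' measurableSet_Ioo fun t ht => ?_
    gcongr
    exact h2 t ht
  refine le_trans ?_ h3
  have hc : ENNReal.ofReal (2 * π) * ‖f 0‖ₑ ^ p ≠ ∞ :=
    ENNReal.mul_ne_top ENNReal.ofReal_ne_top (ENNReal.rpow_ne_top_of_nonneg hp.le enorm_ne_top)
  rw [lintegral_mul_const' _ _ hc]
  have h4 : ∫⁻ t in Ioo 0 r, ENNReal.ofReal t = ENNReal.ofReal (r ^ 2 / 2) := by
    rw [← ofReal_integral_eq_lintegral_ofReal]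
    · rw [← integral_Ioc_eq_integral_Ioo, ← intervalIntegral.integral_of_le hr.le, integral_id]
      norm_num
    · exact (continuous_id.integrableOn_Icc (a := 0) (b := r)).mono_set Ioo_subset_Icc_self
    · exact (ae_restrict_iff' measurableSet_Ioo).2 (Eventually.of_forall fun t ht => ht.1.le)
  rw [h4, ← mul_assoc, ← ENNReal.ofReal_mul (by positivity)]
  gcongr
  nlinarith [Real.pi_gt_three, sq_nonneg r]

variable {E : Type*} [NormedAddCommGroup E] [NormedSpace ℂ E]

/-- sup bound on the half disc from an `L^p` bound -/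
theorem sup_of_lp {H : ℂ → E} {r : ℝ} (hr : 0 < r) (hH : DifferentiableOn ℂ H (ball 0 r))
    {p : ℝ} (hp : 0 < p) {z : ℂ} (hz : ‖z‖ ≤ r / 2) :
    ENNReal.ofReal ((r / 2) ^ 2) * ‖H z‖ₑ ^ p ≤ ∫⁻ w in ball (0 : ℂ) r, ‖H w‖ₑ ^ p := by
  obtain ⟨l, hl1, hl2⟩ := exists_dual_vector'' ℂ (H z)
  have hball : ∀ w ∈ ball (0 : ℂ) (r / 2), z + w ∈ ball (0 : ℂ) r := by
    intro w hw
    rw [mem_ball_zero_iff] at hw ⊢
    exact (norm_add_le _ _).trans_lt (by linarith)
  set f : ℂ → ℂ := fun w => l (H (z + w)) with hf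
  have hfd : DifferentiableOn ℂ f (ball 0 (r / 2)) := by
    have h1 : DifferentiableOn ℂ (fun w : ℂ => H (z + w)) (ball 0 (r / 2)) :=
      hH.comp (by fun_prop) hball
    exact l.differentiable.comp_differentiableOn h1
  have h2 := ofReal_sq_mul_le (half_pos hr) hfd hp
  have h3 : ‖f 0‖ₑ = ‖H z‖ₑ := by
    have h4 : f 0 = ((‖H z‖ : ℝ) : ℂ) := by
      change l (H (z + 0)) = _
      rw [add_zero]
      exact hl2
    rw [h4, ← ofReal_norm, ← ofReal_norm, Complex.norm_real, norm_norm]
  rw [h3] at h2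
  refine h2.trans ?_
  have h5 : ∀ w, ‖f w‖ₑ ^ p ≤ ‖H (z + w)‖ₑ ^ p := by
    intro w
    refine ENNReal.rpow_le_rpow ?_ hp.le
    rw [← ofReal_norm, ← ofReal_norm]
    refine ENNReal.ofReal_le_ofReal ((l.le_opNorm _).trans ?_)
    exact (mul_le_mul_of_nonneg_right hl1 (norm_nonneg _)).trans_eq (one_mul _)
  refine (lintegral_mono fun w => h5 w).trans ?_
  calc ∫⁻ w in ball (0 : ℂ) (r / 2), ‖H (z + w)‖ₑ ^ p
      = ∫⁻ w in ball z (r / 2), ‖H w‖ₑ ^ p := by
        have hmp : MeasurePreserving (fun w : ℂ => z + w) volume volume :=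
          measurePreserving_add_left volume z
        have he : MeasurableEmbedding (fun w : ℂ => z + w) := measurableEmbedding_addLeft z
        have h6 := hmp.setLIntegral_comp_preimage_emb he (fun w => ‖H w‖ₑ ^ p) (ball z (r / 2))
        rw [← h6]
        congr 2
        ext w
        simp
    _ ≤ ∫⁻ w in ball (0 : ℂ) r, ‖H w‖ₑ ^ p := by
        refine lintegral_mono_set (ball_subset_ball' ?_)
        rw [dist_zero_right]
        linarith

end Vale.Agent.P298.H379
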