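import Vale.Agent.P298.H379.Poly

/-!
P298, block IRV (helper379): lower semicontinuity of the root sums and of the integrals `N` in all
parameters, measurability.
-/

namespace Vale.Agent.P298.H379

open Filter Topology Metric MeasureTheory Set Vale.Agent.P298
open scoped ENNReal NNReal

variable {d e : ℕ} {R δ : ℝ} (F : PFam d R δ)

/-- nondegenerate roots persist and move continuously -/
theorem PFam.exists_root {t : ℂ} (ht : t ∈ ball (0 : ℂ) R) {s : ℂ} {p : ℂ × ℂ} {z : ℂ}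
    (hz : z ∈ Rts (F.f t) s p) : ∃ ζ : ℂ × ℂ × (ℂ × ℂ) → ℂ,
      Tendsto ζ (𝓝 (t, s, p)) (𝓝 z) ∧
        ∀ᶠ y in 𝓝 (t, s, p), ζ y ∈ Rts (F.f y.1) y.2.1 y.2.2 := by
  have hst : HasStrictFDerivAt F.G (fderiv ℂ F.G ((t, s, p), z)) ((t, s, p), z) :=
    (F.contDiffAt_G ht s p z).hasStrictFDerivAt one_ne_zero
  have hne : fderiv ℂ F.G ((t, s, p), z) (0, 1) ≠ 0 := by
    rw [F.fderiv_G_inr ht]
    exact hz.2
  have hinv : (fderiv ℂ F.G ((t, s, p), z) ∘L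
      ContinuousLinearMap.inr ℂ (ℂ × ℂ × (ℂ × ℂ)) ℂ).IsInvertible := by
    refine ⟨ContinuousLinearEquiv.unitsEquivAut ℂ (Units.mk0 _ hne), ?_⟩
    ext
    simp
  refine ⟨hst.implicitFunctionOfProdDomain hinv, hst.tendsto_implicitFunctionOfProdDomain hinv, ?_⟩
  have h1 := hst.eventually_apply_implicitFunctionOfProdDomain hinv
  have h2 := hst.tendsto_implicitFunctionOfProdDomain hinv
  set ζ := hst.implicitFunctionOfProdDomain hinv
  have h0 : F.G ((t, s, p), z) = 0 := by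
    change F.f t (pt p z) - s = 0
    rw [hz.1, sub_self]
  have h3 : Tendsto (fun y : ℂ × ℂ × (ℂ × ℂ) => (y.1, pt y.2.2 (ζ y))) (𝓝 (t, s, p))
      (𝓝 (t, pt p z)) := by
    have h4 : Tendsto (fun y : ℂ × ℂ × (ℂ × ℂ) => (y.2.2, ζ y)) (𝓝 (t, s, p)) (𝓝 (p, z)) :=
      ((continuous_snd.comp continuous_snd).tendsto (t, s, p)).prodMk_nhds h2
    exact (continuous_fst.tendsto (t, s, p)).prodMk_nhds ((continuous_pt.tendsto (p, z)).comp h4)
  have h5 := (F.continuousAt_pd ht 2 (pt p z)).tendsto.comp h3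
  filter_upwards [h1, h5.eventually_ne hz.2] with y hy1 hy2
  refine ⟨?_, hy2⟩
  rw [h0] at hy1
  exact sub_eq_zero.1 hy1

theorem lsc_mul {X : Type*} [TopologicalSpace X] {a b : X → ℝ≥0∞} {x : X}
    (ha : LowerSemicontinuousAt a x) (hb : ContinuousAt b x) (h0 : b x ≠ 0) (h1 : b x ≠ ∞) :
    LowerSemicontinuousAt (fun y => a y * b y) x := by
  intro c hc
  have h2 : c / b x < a x := ENNReal.div_lt_of_lt_mul hc
  obtain ⟨c', h3, h4⟩ := exists_between h2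
  have h5 : c < c' * b x := (ENNReal.div_lt_iff (Or.inl h0) (Or.inl h1)).1 h3
  have h6 : Tendsto (fun y => c' * b y) (𝓝 x) (𝓝 (c' * b x)) :=
    ENNReal.Tendsto.const_mul hb (Or.inl h0)
  filter_upwards [ha c' h4, h6.eventually (lt_mem_nhds h5)] with y h7 h8
  exact h8.trans_le (mul_le_mul_left h7.le _)

/-- Lower semicontinuity of the root sums in all parameters. -/
theorem PFam.lsc_rootSum {Y : Type*} [TopologicalSpace Y] {y₀ : Y} {τ σ : Y → ℂ} {π : Y → ℂ × ℂ}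
    (hτ : ContinuousAt τ y₀) (hσ : ContinuousAt σ y₀) (hπ : ContinuousAt π y₀)
    (hR : τ y₀ ∈ ball (0 : ℂ) R) {φ : Y → (Fin 3 → ℂ) → ℝ≥0∞}
    (hφ : ∀ x, LowerSemicontinuousAt (fun q : Y × (Fin 3 → ℂ) => φ q.1 q.2) (y₀, x)) :
    LowerSemicontinuousAt (fun y => rootSum (F.f (τ y)) (σ y) (φ y) (π y)) y₀ := by
  intro c hc
  have hc' : c < ⨆ T : Finset (Rts (F.f (τ y₀)) (σ y₀) (π y₀)),
      ∑ z ∈ T, φ y₀ (pt (π y₀) z) / ‖pd 2 (F.f (τ y₀)) (pt (π y₀) z)‖ₑ ^ 2 := by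
    rw [← ENNReal.tsum_eq_iSup_sum]
    exact hc
  obtain ⟨T, hT⟩ := lt_iSup_iff.1 hc'
  have hex := fun z : Rts (F.f (τ y₀)) (σ y₀) (π y₀) => F.exists_root hR z.2
  choose ζ hζ1 hζ2 using hex
  have hyy : Tendsto (fun y => (τ y, σ y, π y)) (𝓝 y₀) (𝓝 (τ y₀, σ y₀, π y₀)) :=
    hτ.tendsto.prodMk_nhds (hσ.tendsto.prodMk_nhds hπ.tendsto)
  set ξ : Rts (F.f (τ y₀)) (σ y₀) (π y₀) → Y → ℂ := fun z y => ζ z (τ y, σ y, π y) with hξ
  have h1 : ∀ z, Tendsto (ξ z) (𝓝 y₀) (𝓝 (z : ℂ)) := fun z => (hζ1 z).comp hyy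
  have h2 : ∀ z, ∀ᶠ y in 𝓝 y₀, ξ z y ∈ Rts (F.f (τ y)) (σ y) (π y) := fun z =>
    hyy.eventually (hζ2 z)
  have h0 : ∀ z, ξ z y₀ = z := fun z => eq_of_tendsto_nhds (h1 z)
  -- the terms
  set A : Rts (F.f (τ y₀)) (σ y₀) (π y₀) → Y → ℝ≥0∞ := fun z y =>
    φ y (pt (π y) (ξ z y)) / ‖pd 2 (F.f (τ y)) (pt (π y) (ξ z y))‖ₑ ^ 2 with hA
  have h3 : ∀ z, Tendsto (fun y => pt (π y) (ξ z y)) (𝓝 y₀) (𝓝 (pt (π y₀) z)) := fun z =>
    (continuous_pt.tendsto (π y₀, (z : ℂ))).comp (hπ.tendsto.prodMk_nhds (h1 z))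
  have h4 : ∀ z, LowerSemicontinuousAt (A z) y₀ := by
    intro z
    have h5 : ContinuousAt (fun y => ‖pd 2 (F.f (τ y)) (pt (π y) (ξ z y))‖ₑ ^ 2) y₀ := by
      have h6 := (F.continuousAt_pd hR 2 (pt (π y₀) z)).tendsto.comp (hτ.tendsto.prodMk_nhds (h3 z))
      have h7 := (ENNReal.continuous_pow 2).tendsto _ |>.comp (h6.enorm)
      unfold ContinuousAt
      beta_reduce
      rw [h0]
      exact h7
    have h6 : ‖pd 2 (F.f (τ y₀)) (pt (π y₀) (ξ z y₀))‖ₑ ^ 2 ≠ 0 := by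
      rw [h0]
      exact pow_ne_zero 2 (enorm_ne_zero.2 z.2.2)
    have h7 : LowerSemicontinuousAt (fun y => φ y (pt (π y) (ξ z y))) y₀ := by
      intro c' hc''
      have h8 := hφ (pt (π y₀) z) c' (by
        have : φ y₀ (pt (π y₀) (ξ z y₀)) > c' := hc''
        rwa [h0] at this)
      have h9 : Tendsto (fun y => (y, pt (π y) (ξ z y))) (𝓝 y₀) (𝓝 (y₀, pt (π y₀) z)) :=
        tendsto_id.prodMk_nhds (h3 z)
      exact h9.eventually h8
    have h8 : A z = fun y => φ y (pt (π y) (ξ z y)) *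
        (‖pd 2 (F.f (τ y)) (pt (π y) (ξ z y))‖ₑ ^ 2)⁻¹ := rfl
    rw [h8]
    refine lsc_mul h7 (continuous_inv.continuousAt.comp h5) ?_ ?_
    · exact ENNReal.inv_ne_zero.2 (ENNReal.pow_ne_top enorm_ne_top)
    · exact ENNReal.inv_ne_top.2 h6
  have h5 : LowerSemicontinuousAt (fun y => ∑ z ∈ T, A z y) y₀ :=
    lowerSemicontinuousAt_sum fun z _ => h4 z
  have h6 : c < ∑ z ∈ T, A z y₀ := by
    refine hT.trans_eq (Finset.sum_congr rfl fun z _ => ?_)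
    simp only [hA]
    rw [h0]
  -- the roots stay distinct
  have h7 : ∀ᶠ y in 𝓝 y₀, ∀ z ∈ T, ∀ w ∈ T, z ≠ w → ξ z y ≠ ξ w y := by
    rw [eventually_all_finset]
    intro z _
    rw [eventually_all_finset]
    intro w _
    by_cases hzw : z = w
    · exact Eventually.of_forall fun y h => absurd hzw h
    · have h8 : ((z : ℂ) - w) ≠ 0 := sub_ne_zero.2 fun h => hzw (Subtype.ext h)
      filter_upwards [((h1 z).sub (h1 w)).eventually_ne h8] with y hy _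
      exact sub_ne_zero.1 hy
  have h8 : ∀ᶠ y in 𝓝 y₀, ∀ z ∈ T, ξ z y ∈ Rts (F.f (τ y)) (σ y) (π y) := by
    rw [eventually_all_finset]
    exact fun z _ => h2 z
  filter_upwards [h5 c h6, h7, h8] with y h9 h10 h11
  refine h9.trans_le ?_
  change ∑ z ∈ T, A z y ≤ ∑' z : Rts (F.f (τ y)) (σ y) (π y),
    φ y (pt (π y) z) / ‖pd 2 (F.f (τ y)) (pt (π y) z)‖ₑ ^ 2
  classical
  have h12 : ∑ z ∈ T, A z y = ∑ z ∈ T.attach, A z y := (Finset.sum_attach T fun z => A z y).symm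
  let g : {z // z ∈ T} → Rts (F.f (τ y)) (σ y) (π y) := fun z => ⟨ξ z y, h11 z z.2⟩
  have hg : Function.Injective g := by
    intro z w hzw
    by_contra hne
    exact h10 z z.2 w w.2 (fun h => hne (Subtype.ext h)) (congrArg Subtype.val hzw)
  rw [h12]
  have h13 : ∑ z ∈ T.attach, A z y = ∑ q ∈ T.attach.map ⟨g, hg⟩,
      φ y (pt (π y) q) / ‖pd 2 (F.f (τ y)) (pt (π y) q)‖ₑ ^ 2 := by
    rw [Finset.sum_map]
    rfl
  rw [h13]
  exact ENNReal.sum_le_tsum _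

/-- the root sum of a lower semicontinuous function is lower semicontinuous in `p` -/
theorem PFam.lsc_rootSum_p {t : ℂ} (ht : t ∈ ball (0 : ℂ) R) (s : ℂ) {φ : (Fin 3 → ℂ) → ℝ≥0∞}
    (hφ : LowerSemicontinuous φ) : LowerSemicontinuous (rootSum (F.f t) s φ) := by
  intro p
  refine F.lsc_rootSum (Y := ℂ × ℂ) (τ := fun _ => t) (σ := fun _ => s) (π := fun q => q)
    (φ := fun _ => φ) continuousAt_const continuousAt_const continuousAt_id ht fun x c hc => ?_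
  exact (continuous_snd.tendsto (p, x)).eventually (hφ x c hc)

theorem PFam.measurable_rootSum {t : ℂ} (ht : t ∈ ball (0 : ℂ) R) (s : ℂ)
    {φ : (Fin 3 → ℂ) → ℝ≥0∞} (hφ : LowerSemicontinuous φ) :
    Measurable (rootSum (F.f t) s φ) :=
  (F.lsc_rootSum_p ht s hφ).measurable

/-- Lower semicontinuity of the integrals in all parameters (Fatou). -/
theorem PFam.lsc_nu {Y : Type*} [TopologicalSpace Y] [FirstCountableTopology Y] {y₀ : Y}
    {τ σ : Y → ℂ} (hτ : ContinuousAt τ y₀) (hσ : ContinuousAt σ y₀)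
    (hR : τ y₀ ∈ ball (0 : ℂ) R) {φ : Y → (Fin 3 → ℂ) → ℝ≥0∞}
    (hφ : ∀ x, LowerSemicontinuousAt (fun q : Y × (Fin 3 → ℂ) => φ q.1 q.2) (y₀, x))
    (hφ' : ∀ᶠ y in 𝓝 y₀, LowerSemicontinuous (φ y)) :
    LowerSemicontinuousAt (fun y => nu (F.f (τ y)) (σ y) (φ y)) y₀ := by
  intro c hc
  by_contra hcon
  have h1 : ∃ᶠ y in 𝓝 y₀, nu (F.f (τ y)) (σ y) (φ y) ≤ c := by
    rw [Filter.not_eventually] at hcon
    exact hcon.mono fun y hy => not_lt.1 hy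
  have h2 : ∀ᶠ y in 𝓝 y₀, LowerSemicontinuous (φ y) ∧ τ y ∈ ball (0 : ℂ) R :=
    hφ'.and (hτ.tendsto.eventually (isOpen_ball.mem_nhds hR))
  obtain ⟨u, hu, hu2⟩ := Filter.exists_seq_forall_of_frequently (l := 𝓝 y₀)
    (p := fun y => nu (F.f (τ y)) (σ y) (φ y) ≤ c ∧
      (LowerSemicontinuous (φ y) ∧ τ y ∈ ball (0 : ℂ) R)) (h1.and_eventually h2)
  have h3 : ∀ n, Measurable (rootSum (F.f (τ (u n))) (σ (u n)) (φ (u n))) := fun n =>
    F.measurable_rootSum (hu2 n).2.2 _ (hu2 n).2.1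
  have h4 := lintegral_liminf_le (μ := (volume : Measure (ℂ × ℂ))) (u := (atTop : Filter ℕ)) h3
  have h5 : ∀ p : ℂ × ℂ, rootSum (F.f (τ y₀)) (σ y₀) (φ y₀) p ≤
      liminf (fun n => rootSum (F.f (τ (u n))) (σ (u n)) (φ (u n)) p) atTop := by
    intro p
    refine le_of_forall_lt fun c' hc' => ?_
    obtain ⟨c'', h6, h7⟩ := exists_between hc'
    have h8 := F.lsc_rootSum (π := fun _ => p) hτ hσ continuousAt_const hR hφ c'' h7
    refine h6.trans_le (le_liminf_of_le (by isBoundedDefault) ?_)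
    filter_upwards [hu.eventually h8] with n hn
    exact le_of_lt hn
  have h6 : nu (F.f (τ y₀)) (σ y₀) (φ y₀) ≤ c := by
    refine (lintegral_mono h5).trans (h4.trans ?_)
    have h7 : ∀ n, ∫⁻ p : ℂ × ℂ, rootSum (F.f (τ (u n))) (σ (u n)) (φ (u n)) p ≤ c := fun n =>
      (hu2 n).1
    calc liminf (fun n => ∫⁻ p : ℂ × ℂ, rootSum (F.f (τ (u n))) (σ (u n)) (φ (u n)) p) atTop
        ≤ liminf (fun _ : ℕ => c) atTop := liminf_le_liminf (Eventually.of_forall h7)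
      _ = c := liminf_const c
  exact absurd hc (not_lt.2 h6)

/-- the integrand `|h|^(2/k)` -/
theorem continuous_pow_ev (k : ℝ) :
    Continuous fun q : Q d e × (Fin 3 → ℂ) => ‖ev q.1 q.2‖ₑ ^ (2 / k) :=
  (ENNReal.continuous_rpow_const).comp continuous_ev2.enorm

theorem PFam.lsc_N (k : ℝ) {t : ℂ} (ht : t ∈ ball (0 : ℂ) R) (s : ℂ) (h : Q d e) :
    LowerSemicontinuousAt (fun y : ℂ × ℂ × Q d e => F.N k y.1 y.2.1 y.2.2) (t, s, h) := by
  refine F.lsc_nu (Y := ℂ × ℂ × Q d e) (τ := fun y => y.1) (σ := fun y => y.2.1)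
    (φ := fun y x => ‖ev y.2.2 x‖ₑ ^ (2 / k)) continuousAt_fst
    (continuousAt_fst.comp continuousAt_snd) ht ?_ ?_
  · intro x
    have h2 : Continuous fun q : (ℂ × ℂ × Q d e) × (Fin 3 → ℂ) => (q.1.2.2, q.2) := by fun_prop
    have h3 := (continuous_pow_ev k).comp h2
    exact h3.continuousAt.lowerSemicontinuousAt
  · refine Eventually.of_forall fun y => ?_
    have h2 : Continuous fun x : Fin 3 → ℂ => (y.2.2, x) := by fun_prop
    have h3 := (continuous_pow_ev k).comp h2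
    exact h3.lowerSemicontinuous

end Vale.Agent.P298.H379
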