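import Vale.Agent.P298.H379.Surj
import Vale.Agent.P298.Main.Iface

/-!
P298, block IRV (helper379): the two outputs of the block from the outputs of the blocks S1 and OT:
semicontinuity of the colength of the ideals of integrability, and extension of sections.
-/

namespace Vale.Agent.P298.H379

open Filter Topology Metric MeasureTheory Set Vale.Agent.P298 Module
open Vale.Agent.P298.H967 (IK IK_anti)
open Vale.Agent.P298.H752 (GoodFam)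
open Vale.Agent.P298.Main (S1Out OTOut ExtOut)
open scoped ENNReal NNReal

/-- uniform Lojasiewicz inequality for a good family -/
theorem gradLoj_of_good {μ L d : ℕ} {ε : ℝ} {G : (Fin 3 → ℂ) → ℂ → ℂ} (hG : GoodFam μ L d ε G) :
    ∃ ε' : ℝ, 0 < ε' ∧ ε' ≤ ε ∧ ∀ t ∈ ball (0 : ℂ) ε', GradLoj (fun x => G x t) L := by
  obtain ⟨C, -, hC⟩ := H752.loj hG.ideal (by norm_num)
  obtain ⟨r, hr, hball⟩ := Metric.eventually_nhds_iff_ball.1 hC
  refine ⟨min r ε, lt_min hr hG.pos, min_le_right _ _, fun t ht => ⟨C, ?_⟩⟩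
  have htr : t ∈ ball (0 : ℂ) r := ball_subset_ball (min_le_left _ _) ht
  have htε : t ∈ ball (0 : ℂ) ε := ball_subset_ball (min_le_right _ _) ht
  filter_upwards [ball_mem_nhds (0 : Fin 3 → ℂ) hr] with x hx
  have hmem : (x, t) ∈ ball ((0 : Fin 3 → ℂ), (0 : ℂ)) r := by
    rw [← ball_prod_same]
    exact ⟨hx, htr⟩
  have h1 := hball (x, t) hmem
  have h2 : ∀ k, H752.PD (fun q => G q.1 q.2) k (x, t) = pd k (fun x => G x t) x := fun k =>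
    H752.PD_eq_pd (hG.analytic x t htε) k
  simpa only [h2] using h1

/-- For `d ≥ L + 4` all the maps `Phi` are surjective. -/
theorem PFam.Phi_surj_of_loj {d e L : ℕ} {R δ : ℝ} (F : PFam d R δ) {t : ℂ}
    (hL : GradLoj (F.f t) L) (hd : L + 4 ≤ d) {k : ℝ} (hk : k ∈ KK d e) :
    Function.Surjective (F.Phi t k e) := by
  have hk0 := KK.pos hk
  refine F.Phi_surj hk0 (F.qM_le_IK hL hk0 ?_)
  have h1 : k * (d - 4) ≤ e := hk.2.2.1
  have h2 : (L : ℝ) + 4 ≤ d := by exact_mod_cast hd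
  have h3 : (L : ℝ) * k ≤ k * (d - 4) := by
    rw [mul_comm]
    exact mul_le_mul_of_nonneg_left (by linarith) hk0.le
  push_cast
  linarith

/-- **(RV)** Semicontinuity of the colength for one family. -/
theorem PFam.rv {d L : ℕ} {R δ : ℝ} (F : PFam d R δ) {ρ : ℝ} (hρ : 0 < ρ) (hρ1 : ρ < 1)
    {C₀ C₁ C₂ : ℝ≥0} {e : ℕ} (h0 : S1R F ρ e) (h1 : OTPc F C₁ e) (h2 : S1P2 F C₂ e)
    (h3 : OTS F C₀ e) (hd : L + 4 ≤ d) (hL0 : GradLoj (F.f 0) L) {t : ℂ}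
    (ht : t ∈ ball (0 : ℂ) (R / 8)) (hL : GradLoj (F.f t) L) {k' k : ℝ} (hk' : k' ∈ KK d e)
    (hk : k ∈ KK d e) (hlt : k' < k) :
    Module.Finite ℂ (AnFun 3 ⧸ IK (F.f t) k) ∧
      finrank ℂ (AnFun 3 ⧸ IK (F.f 0) k') ≤ finrank ℂ (AnFun 3 ⧸ IK (F.f t) k) := by
  have hR := F.hR
  have ht' : t ∈ ball (0 : ℂ) R := ball_subset_ball (by linarith) ht
  have hs := F.Phi_surj_of_loj hL hd hk
  have hs0 := F.Phi_surj_of_loj hL0 hd hk'
  refine ⟨Module.Finite.of_surjective _ hs, ?_⟩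
  have e1 : finrank ℂ (AnFun 3 ⧸ IK (F.f t) k) + finrank ℂ (F.Ifin (e := e) (KK.pos hk) ht') =
      finrank ℂ (Q d e) := by
    have := LinearMap.finrank_range_add_finrank_ker (F.Phi t k e)
    rwa [LinearMap.range_eq_top.2 hs, finrank_top, F.ker_Phi hk ht'] at this
  have e2 : finrank ℂ (AnFun 3 ⧸ IK (F.f 0) k') +
      finrank ℂ (F.Ifin (e := e) (KK.pos hk') (mem_ball_self F.hR)) = finrank ℂ (Q d e) := by
    have := LinearMap.finrank_range_add_finrank_ker (F.Phi 0 k' e)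
    rwa [LinearMap.range_eq_top.2 hs0, finrank_top, F.ker_Phi hk' (mem_ball_self F.hR)] at this
  have e3 := F.finrank_Ifin_le hρ hρ1 h0 h1 h2 h3 hk hk' hlt ht ht'
  omega

/-- **Output (RV)** of the block. -/
theorem rv_out (hS : S1Out) (hO : OTOut) : ∀ μ L : ℕ, ∃ d₁ : ℕ, ∀ d, d₁ ≤ d →
    ∀ (ε : ℝ) (P : PFam d ε ε), GoodFam μ L d ε (fun x t => P.f t x) →
    ∃ ε' : ℝ, 0 < ε' ∧ ∀ t ∈ ball (0 : ℂ) ε', ∀ (e : ℕ) (k' k : ℝ), k' ∈ KK d e → k ∈ KK d e →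
      k' < k → Module.Finite ℂ (AnFun 3 ⧸ IK (P.f t) k) ∧
        finrank ℂ (AnFun 3 ⧸ IK (P.f 0) k') ≤ finrank ℂ (AnFun 3 ⧸ IK (P.f t) k) := by
  obtain ⟨ρ, C₂, hρ, hρ1, hS⟩ := hS
  obtain ⟨C₁, hO⟩ := hO
  intro μ L
  refine ⟨L + 4, fun d hd ε P hG => ?_⟩
  obtain ⟨ε', hε', -, hloj⟩ := gradLoj_of_good hG
  refine ⟨min ε' (ε / 8), lt_min hε' (by have := hG.pos; linarith), fun t ht e k' k hk' hk hlt => ?_⟩
  have ht1 : t ∈ ball (0 : ℂ) ε' := ball_subset_ball (min_le_left _ _) ht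
  have ht2 : t ∈ ball (0 : ℂ) (ε / 8) := ball_subset_ball (min_le_right _ _) ht
  exact P.rv hρ hρ1 (hS d ε ε P e).1 (hO d ε ε P e).1 (hS d ε ε P e).2 (hO d ε ε P e).2 hd
    (hloj 0 (mem_ball_self hε')) ht2 (hloj t ht1) hk' hk hlt

/-- Finiteness of the colength of the ideals of integrability. -/
theorem PFam.finite_of_loj {d L : ℕ} {R δ : ℝ} (F : PFam d R δ) {t : ℂ}
    (hL : GradLoj (F.f t) L) (hd : L + 4 ≤ d) {N : ℝ} (hN : 0 < N) :
    Module.Finite ℂ (AnFun 3 ⧸ IK (F.f t) N) := by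
  have hd5 := F.hd
  obtain ⟨n, hn⟩ := exists_nat_ge N
  have hk : ((n + 1 : ℕ) : ℝ) ∈ KK d ((n + 1) * (d - 4)) := by
    have h4 : ((d - 4 : ℕ) : ℝ) = (d : ℝ) - 4 := by
      rw [Nat.cast_sub (by omega)]
      norm_num
    refine ⟨by exact_mod_cast Nat.le_add_left 1 n, ⟨(n + 1 : ℕ), by simp⟩, ?_, ?_⟩
    · rw [Nat.cast_mul, h4]
    · rw [Nat.cast_mul, h4]
      refine mul_le_mul_of_nonneg_left (by linarith) (Nat.cast_nonneg _)
  have h1 := F.Phi_surj_of_loj hL hd hk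
  have h2 : Module.Finite ℂ (AnFun 3 ⧸ IK (F.f t) ((n + 1 : ℕ) : ℝ)) :=
    Module.Finite.of_surjective _ h1
  have h3 : IK (F.f t) ((n + 1 : ℕ) : ℝ) ≤ IK (F.f t) N := by
    refine IK_anti hN (hn.trans ?_)
    push_cast
    linarith
  exact Module.Finite.of_surjective
    ((Ideal.Quotient.factorₐ ℂ h3).toLinearMap)
    (Ideal.Quotient.factor_surjective h3)

/-- **Output (FIN)** of the block. -/
theorem finite_out {μ L d : ℕ} (hd : L + 4 ≤ d) {ε : ℝ} (P : PFam d ε ε)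
    (hG : GoodFam μ L d ε (fun x t => P.f t x)) : ∃ ε' : ℝ, 0 < ε' ∧ ∀ t ∈ ball (0 : ℂ) ε',
      ∀ N : ℝ, 0 < N → Module.Finite ℂ (AnFun 3 ⧸ IK (P.f t) N) := by
  obtain ⟨ε', hε', -, hloj⟩ := gradLoj_of_good hG
  exact ⟨ε', hε', fun t ht N hN => P.finite_of_loj (hloj t ht) hd hN⟩

/-- **Output (EXT)** of the block, with the same exponent. -/
theorem ext_out_same (hS : S1Out) (hO : OTOut) (d : ℕ) (ε : ℝ) (P : PFam d ε ε) (e : ℕ) (k : ℝ)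
    (hk : k ∈ KK d e) (t₀ : ℂ) (ht₀ : t₀ ∈ ball (0 : ℂ) (ε / 8)) (v : Q d e)
    (hv : InI (P.f t₀) k (ev v)) :
    ∃ h : ℂ → Q d e, DifferentiableOn ℂ h (ball 0 (ε / 8)) ∧ h t₀ = v ∧
      ∀ t ∈ ball (0 : ℂ) (ε / 8), InI (P.f t) k (ev (h t)) := by
  obtain ⟨ρ, C₂, hρ, hρ1, hS⟩ := hS
  obtain ⟨C₁, hO⟩ := hO
  have hε := P.hR
  have hsub : ball (0 : ℂ) (ε / 8) ⊆ ball 0 ε := ball_subset_ball (by linarith)
  obtain ⟨h, hh, h0, h1⟩ := P.exists_ext hρ hρ1 (hS d ε ε P e).1 (hO d ε ε P e).1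
    (hS d ε ε P e).2 (hO d ε ε P e).2 hk ht₀ ((P.N_lt_top_iff hk (hsub ht₀) v).2 hv)
  exact ⟨h, hh, h0, fun t ht => (P.N_lt_top_iff hk (hsub ht) (h t)).1 (h1 t ht)⟩

/-- **Output (EXT)** of the block. -/
theorem ext_out (hS : S1Out) (hO : OTOut) : ExtOut := by
  intro μ L
  refine ⟨0, fun d _ ε P hG => ⟨ε / 8, by have := hG.pos; linarith, ?_⟩⟩
  intro e k k₁ hk hk₁ hlt v hv
  have hε := P.hR
  exact ext_out_same hS hO d ε P e k hk 0 (mem_ball_self (by linarith)) v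
    (H967.inI_mono hv (KK.pos hk) hlt.le)

end Vale.Agent.P298.H379
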