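import Vale.Agent.P298.H379.Out
import Vale.Agent.P298.H740.End

/-!
P298, block IRV (helper379): the outputs in the form used by the endgame (helper740).
-/

namespace Vale.Agent.P298.H379

open Vale.Agent.P298.Main (S1Out OTOut ExtOut)

theorem rvKK (hS : S1Out) (hO : OTOut) : H740.RVKK := by
  intro μ L
  obtain ⟨d₁, h⟩ := rv_out hS hO μ L
  refine ⟨d₁, fun d hd ε P hG => ?_⟩
  obtain ⟨ε', hε', h1⟩ := h d hd ε P hG
  exact ⟨ε', hε', fun t ht _ _ e k' k hk' hk hlt => (h1 t ht e k' k hk' hk hlt).2⟩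

theorem rvNat (hS : S1Out) (hO : OTOut) : H740.RVNat := H740.rvNat_of_KK (rvKK hS hO)

end Vale.Agent.P298.H379
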