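import Vale.Agent.P298.H379.Sys
import Vale.Agent.P298.H379.LpSub

/-!
P298, block IRV (helper379): the choice of the sequence `s_j`: every element of finite norm on the
singular surface is a limit of elements of bounded norm on the smooth surfaces.
-/

namespace Vale.Agent.P298.H379

open Filter Topology Metric MeasureTheory Set Vale.Agent.P298
open scoped ENNReal NNReal

variable {d e : ℕ} {R δ : ℝ} (F : PFam d R δ)

theorem PFam.lsc_along {k : ℝ} {t : ℂ} (ht : t ∈ ball (0 : ℂ) R) {h : ℂ → Q d e} {s : ℂ}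
    (hs : ContinuousAt h s) : LowerSemicontinuousAt (fun s => F.N k t s (h s)) s := by
  intro c hc
  have h1 := F.lsc_N k ht s (h s) c hc
  have h2 : Tendsto (fun s => (t, s, h s)) (𝓝 s) (𝓝 (t, s, h s)) :=
    tendsto_const_nhds.prodMk_nhds (tendsto_id.prodMk_nhds hs.tendsto)
  exact h2.eventually h1

theorem PFam.aemeasurable_along {k : ℝ} {t : ℂ} (ht : t ∈ ball (0 : ℂ) R) {h : ℂ → Q d e}
    {O : Set ℂ} (hO : IsOpen O) (hh : ContinuousOn h O) :
    AEMeasurable (fun s => F.N k t s (h s)) (volume.restrict O) := by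
  have h1 : LowerSemicontinuous (O.indicator fun s => F.N k t s (h s)) := by
    intro s c hc
    by_cases hs : s ∈ O
    · rw [indicator_of_mem hs] at hc
      have h2 := F.lsc_along (k := k) ht ((hh s hs).continuousAt (hO.mem_nhds hs)) c hc
      filter_upwards [h2, hO.mem_nhds hs] with s' h3 h4
      rw [indicator_of_mem h4]
      exact h3
    · rw [indicator_of_notMem hs] at hc
      exact absurd hc not_lt_zero
  refine ⟨_, h1.measurable, ?_⟩
  filter_upwards [self_mem_ae_restrict hO.measurableSet] with s hs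
  rw [indicator_of_mem hs]

/-- the subspace of elements of finite norm on the surface `F_t = 0` -/
def PFam.Ifin {k : ℝ} (hk : 0 < k) {t : ℂ} (ht : t ∈ ball (0 : ℂ) R) : Submodule ℂ (Q d e) where
  carrier := {v | F.N k t 0 v < ∞}
  zero_mem' := by
    change F.N k t 0 0 < ∞
    rw [F.N_zero hk]
    exact ENNReal.zero_lt_top
  add_mem' := by
    intro a b ha hb
    refine (F.N_add hk ht 0 a b).trans_lt (ENNReal.mul_lt_top ?_ (ENNReal.add_lt_top.2 ⟨ha, hb⟩))
    exact ENNReal.rpow_lt_top_of_nonneg (by positivity) ENNReal.ofNat_ne_top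
  smul_mem' := by
    intro c a ha
    change F.N k t 0 (c • a) < ∞
    rw [F.N_smul hk]
    exact ENNReal.mul_lt_top (ENNReal.rpow_lt_top_of_nonneg (by positivity) ENNReal.coe_ne_top) ha

/-- one extension, with bounds -/
theorem PFam.ext_s {C₀ : ℝ≥0} (hOT : OTS F C₀ e) {k : ℝ} (hk : k ∈ KK d e) {t : ℂ}
    (ht : t ∈ ball (0 : ℂ) R) {v : Q d e} (hv : F.N k t 0 v < ∞) :
    ∃ B : ℝ, 0 ≤ B ∧ ∀ a ∈ Ioo 0 δ, ∃ h : ℂ → Q d e, DifferentiableOn ℂ h (ball 0 a) ∧
      (∀ s ∈ ball (0 : ℂ) (a / 2), ‖h s - v‖ ≤ B / a * ‖s‖) ∧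
      ∫⁻ s in ball (0 : ℂ) a, F.N k t s (h s) ≤ C₀ * ENNReal.ofReal (a ^ 2) * F.N k t 0 v := by
  have hk0 := KK.pos hk
  have hp : 0 < 2 / k := by positivity
  have htR : ‖t‖ < R := mem_ball_zero_iff.1 ht
  obtain ⟨c, hc, hcoer⟩ := F.coercive (e := e) hk0 htR δ
  have hc0 : (c : ℝ≥0∞) ≠ 0 := by exact_mod_cast hc.ne'
  set N₀ := F.N k t 0 v with hN₀
  set B₀ : ℝ≥0∞ := (4 * ((c : ℝ≥0∞)⁻¹ * (C₀ * N₀))) ^ (2 / k)⁻¹ with hB₀
  have hB₀t : B₀ ≠ ∞ := by
    refine ENNReal.rpow_ne_top_of_nonneg (by positivity) ?_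
    refine ENNReal.mul_ne_top (by norm_num) (ENNReal.mul_ne_top (ENNReal.inv_ne_top.2 hc0) ?_)
    exact ENNReal.mul_ne_top ENNReal.coe_ne_top hv.ne
  refine ⟨4 * B₀.toReal, by positivity, fun a ha => ?_⟩
  obtain ⟨h, hh, h0, hint⟩ := hOT k hk t ht a ha v hv
  refine ⟨h, hh, ?_, hint⟩
  -- sup bound
  have ha0 : 0 < a := ha.1
  have h1 : ∫⁻ s in ball (0 : ℂ) a, ‖h s‖ₑ ^ (2 / k) ≤
      (c : ℝ≥0∞)⁻¹ * (C₀ * ENNReal.ofReal (a ^ 2) * N₀) := by
    calc ∫⁻ s in ball (0 : ℂ) a, ‖h s‖ₑ ^ (2 / k)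
        ≤ ∫⁻ s in ball (0 : ℂ) a, (c : ℝ≥0∞)⁻¹ * F.N k t s (h s) := by
          refine setLIntegral_mono' measurableSet_ball fun s hs => ?_
          have h2 := hcoer t (mem_closedBall_zero_iff.2 le_rfl) s
            (mem_closedBall_zero_iff.2 ((mem_ball_zero_iff.1 hs).le.trans ha.2.le)) (h s)
          calc ‖h s‖ₑ ^ (2 / k) = (c : ℝ≥0∞)⁻¹ * (c * (‖h s‖₊ : ℝ≥0∞) ^ (2 / k)) := by
                rw [← mul_assoc, ENNReal.inv_mul_cancel hc0 ENNReal.coe_ne_top, one_mul]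
                rfl
            _ ≤ _ := by gcongr
      _ = (c : ℝ≥0∞)⁻¹ * ∫⁻ s in ball (0 : ℂ) a, F.N k t s (h s) :=
          lintegral_const_mul' _ _ (ENNReal.inv_ne_top.2 hc0)
      _ ≤ _ := by gcongr
  have h2 : ∀ s : ℂ, ‖s‖ ≤ a / 2 → ‖h s‖ ≤ B₀.toReal := by
    intro s hs
    have h3 := (sup_of_lp ha0 hh hp hs).trans h1
    have h4 : ENNReal.ofReal (a ^ 2) = 4 * ENNReal.ofReal ((a / 2) ^ 2) := by
      rw [show (4 : ℝ≥0∞) = ENNReal.ofReal 4 by norm_num, ← ENNReal.ofReal_mul (by norm_num)]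
      congr 1
      ring
    have h5 : ENNReal.ofReal ((a / 2) ^ 2) ≠ 0 := by
      rw [Ne, ENNReal.ofReal_eq_zero, not_le]
      positivity
    have h6 : ‖h s‖ₑ ^ (2 / k) ≤ 4 * ((c : ℝ≥0∞)⁻¹ * (C₀ * N₀)) := by
      refine (ENNReal.mul_le_mul_iff_right h5 ENNReal.ofReal_ne_top).1 (h3.trans_eq ?_)
      rw [h4]
      ring
    have h7 : ‖h s‖ₑ ≤ B₀ := by
      rw [hB₀, ← ENNReal.rpow_le_rpow_iff hp, ENNReal.rpow_inv_rpow hp.ne']
      exact h6
    have h8 := ENNReal.toReal_mono hB₀t h7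
    rwa [toReal_enorm] at h8
  intro s hs
  have h3 : MapsTo h (ball 0 (a / 2)) (closedBall (h 0) (2 * B₀.toReal)) := by
    intro z hz
    rw [mem_closedBall, dist_eq_norm]
    refine (norm_sub_le _ _).trans ?_
    have h4 := h2 z (mem_ball_zero_iff.1 hz).le
    have h5 := h2 0 (by rw [norm_zero]; positivity)
    linarith
  have h4 := Complex.dist_le_div_mul_dist_of_mapsTo_ball
    (hh.mono (ball_subset_ball (by linarith : a / 2 ≤ a))) h3 hs
  rw [dist_eq_norm, dist_zero_right, h0] at h4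
  refine h4.trans_eq ?_
  field_simp
  ring

/-- The choice of the points `s_j`. -/
theorem PFam.exists_seq {C₀ : ℝ≥0} (hOT : OTS F C₀ e) {k : ℝ} (hk : k ∈ KK d e) {t : ℂ}
    (ht : t ∈ ball (0 : ℂ) R) {r : ℕ} (v : Fin r → Q d e) (hv : ∀ i, F.N k t 0 (v i) < ∞) :
    ∃ s : ℕ → ℂ, (∀ j, s j ≠ 0) ∧ (∀ j, ‖s j‖ < δ) ∧ Tendsto s atTop (𝓝 0) ∧
      ∀ i, ∀ ε > 0, ∃ Λ : ℝ≥0, ∀ᶠ j in atTop, ∃ H : Q d e, ‖H - v i‖ ≤ ε ∧
        F.N k t (s j) H ≤ Λ := by
  classical
  have hδ := F.hδ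
  choose B hB0 hB using fun i => F.ext_s hOT hk ht (hv i)
  set b : ℕ → ℝ := fun j => δ / (2 * (j + 2)) with hb
  have hb0 : ∀ j, 0 < b j := fun j => by positivity
  have hab : ∀ j n : ℕ, n ≤ j → ((n : ℝ) + 2) * b j ∈ Ioo 0 δ := by
    intro j n hn
    refine ⟨by have := hb0 j; positivity, ?_⟩
    have h1 : ((n : ℝ) + 2) * b j ≤ δ / 2 := by
      have h2 : ((n : ℝ) + 2) ≤ (j + 2) := by
        have : (n : ℝ) ≤ j := by exact_mod_cast hn
        linarith
      calc ((n : ℝ) + 2) * b j ≤ (j + 2) * b j := mul_le_mul_of_nonneg_right h2 (hb0 j).le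
        _ = δ / 2 := by
            simp only [hb]
            field_simp
    linarith
  have hex : ∀ i : Fin r, ∀ j n : ℕ, ∃ h : ℂ → Q d e, n ≤ j →
      DifferentiableOn ℂ h (ball 0 (((n : ℝ) + 2) * b j)) ∧
      (∀ s ∈ ball (0 : ℂ) ((((n : ℝ) + 2) * b j) / 2),
        ‖h s - v i‖ ≤ B i / (((n : ℝ) + 2) * b j) * ‖s‖) ∧
      ∫⁻ s in ball (0 : ℂ) (((n : ℝ) + 2) * b j), F.N k t s (h s) ≤
        C₀ * ENNReal.ofReal ((((n : ℝ) + 2) * b j) ^ 2) * F.N k t 0 (v i) := by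
    intro i j n
    by_cases hn : n ≤ j
    · obtain ⟨h, h1⟩ := hB i _ (hab j n hn)
      exact ⟨h, fun _ => h1⟩
    · exact ⟨fun _ => 0, fun h => absurd h hn⟩
  choose h hh using hex
  set w : ℕ → ℝ≥0∞ := fun n => (ENNReal.ofReal (((n : ℝ) + 2) ^ 2) * 2 ^ (n + 1))⁻¹ with hw
  have hw0 : ∀ n : ℕ, ENNReal.ofReal (((n : ℝ) + 2) ^ 2) * 2 ^ (n + 1) ≠ 0 := fun n => by
    refine mul_ne_zero ?_ (pow_ne_zero _ (by norm_num))
    rw [Ne, ENNReal.ofReal_eq_zero, not_le]
    positivity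
  have hwt : ∀ n : ℕ, ENNReal.ofReal (((n : ℝ) + 2) ^ 2) * 2 ^ (n + 1) ≠ ∞ := fun n =>
    ENNReal.mul_ne_top ENNReal.ofReal_ne_top (ENNReal.pow_ne_top (by norm_num))
  set G : ℕ → ℂ → ℝ≥0∞ := fun j s => ∑ i, ∑ n ∈ Finset.range (j + 1), w n * F.N k t s (h i j n s)
    with hG
  set S₀ : ℝ≥0∞ := ∑ i, C₀ * F.N k t 0 (v i) with hS₀
  have hS₀t : S₀ ≠ ∞ := by
    rw [hS₀]
    exact ENNReal.sum_ne_top.2 fun i _ => ENNReal.mul_ne_top ENNReal.coe_ne_top (hv i).ne
  have hsub : ∀ j n : ℕ, ball (0 : ℂ) (b j) ⊆ ball (0 : ℂ) (((n : ℝ) + 2) * b j) := fun j n => by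
    refine ball_subset_ball ?_
    have h1 := hb0 j
    have h2 : (0 : ℝ) ≤ n := Nat.cast_nonneg n
    nlinarith
  have hmeas : ∀ i : Fin r, ∀ j n : ℕ, n ≤ j →
      AEMeasurable (fun s => F.N k t s (h i j n s)) (volume.restrict (ball (0 : ℂ) (b j))) := by
    intro i j n hn
    exact F.aemeasurable_along ht isOpen_ball (((hh i j n hn).1.mono (hsub j n)).continuousOn)
  have hGm : ∀ j, AEMeasurable (G j) (volume.restrict (ball (0 : ℂ) (b j))) := by
    intro j
    refine Finset.aemeasurable_fun_sum _ fun i _ => Finset.aemeasurable_fun_sum _ fun n hn => ?_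
    exact (hmeas i j n (Nat.lt_succ_iff.1 (Finset.mem_range.1 hn))).const_mul _
  have hGint : ∀ j, ∫⁻ s in ball (0 : ℂ) (b j), G j s ≤ ENNReal.ofReal (b j ^ 2) * S₀ := by
    intro j
    rw [hG]
    beta_reduce
    rw [lintegral_finsetSum' _ fun i _ => Finset.aemeasurable_fun_sum _ fun n hn =>
      (hmeas i j n (Nat.lt_succ_iff.1 (Finset.mem_range.1 hn))).const_mul _, hS₀, Finset.mul_sum]
    refine Finset.sum_le_sum fun i _ => ?_
    rw [lintegral_finsetSum' _ fun n hn =>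
      (hmeas i j n (Nat.lt_succ_iff.1 (Finset.mem_range.1 hn))).const_mul _]
    have h1 : ∀ n ∈ Finset.range (j + 1), ∫⁻ s in ball (0 : ℂ) (b j), w n * F.N k t s (h i j n s) ≤
        (2 ^ (n + 1))⁻¹ * (ENNReal.ofReal (b j ^ 2) * (C₀ * F.N k t 0 (v i))) := by
      intro n hn
      have hn' : n ≤ j := Nat.lt_succ_iff.1 (Finset.mem_range.1 hn)
      rw [lintegral_const_mul' _ _ (ENNReal.inv_ne_top.2 (hw0 n))]
      have h2 := (lintegral_mono_set (μ := volume) (f := fun s => F.N k t s (h i j n s))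
        (hsub j n)).trans (hh i j n hn').2.2
      have h3 : ENNReal.ofReal ((((n : ℝ) + 2) * b j) ^ 2) =
          ENNReal.ofReal (((n : ℝ) + 2) ^ 2) * ENNReal.ofReal (b j ^ 2) := by
        rw [← ENNReal.ofReal_mul (by positivity)]
        congr 1
        ring
      have h4 : ENNReal.ofReal (((n : ℝ) + 2) ^ 2) ≠ 0 := by
        rw [Ne, ENNReal.ofReal_eq_zero, not_le]
        positivity
      calc w n * ∫⁻ s in ball (0 : ℂ) (b j), F.N k t s (h i j n s)
          ≤ w n * (C₀ * (ENNReal.ofReal (((n : ℝ) + 2) ^ 2) * ENNReal.ofReal (b j ^ 2)) *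
              F.N k t 0 (v i)) := by
            rw [← h3]
            gcongr
        _ = (2 ^ (n + 1))⁻¹ * ((ENNReal.ofReal (((n : ℝ) + 2) ^ 2))⁻¹ *
              ENNReal.ofReal (((n : ℝ) + 2) ^ 2)) * (ENNReal.ofReal (b j ^ 2) *
                (C₀ * F.N k t 0 (v i))) := by
            rw [hw]
            beta_reduce
            rw [ENNReal.mul_inv (Or.inl h4) (Or.inl ENNReal.ofReal_ne_top)]
            ring
        _ = _ := by
            rw [ENNReal.inv_mul_cancel h4 ENNReal.ofReal_ne_top, mul_one]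
    refine (Finset.sum_le_sum h1).trans ?_
    rw [← Finset.sum_mul]
    have h2 : ∑ n ∈ Finset.range (j + 1), ((2 : ℝ≥0∞) ^ (n + 1))⁻¹ ≤ 1 := by
      calc ∑ n ∈ Finset.range (j + 1), ((2 : ℝ≥0∞) ^ (n + 1))⁻¹
          ≤ ∑' n : ℕ, ((2 : ℝ≥0∞) ^ (n + 1))⁻¹ := ENNReal.sum_le_tsum _
        _ = 1 := by
            have := ENNReal.tsum_geometric_add_one (2 : ℝ≥0∞)⁻¹
            simp only [ENNReal.inv_pow] at this ⊢
            rw [this]
            norm_num
            exact ENNReal.inv_mul_cancel (by norm_num) (by norm_num)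
    calc _ ≤ 1 * (ENNReal.ofReal (b j ^ 2) * (C₀ * F.N k t 0 (v i))) := by gcongr
      _ = _ := one_mul _
  have hsel : ∀ j, ∃ s : ℂ, s ≠ 0 ∧ ‖s‖ < b j ∧ G j s ≤ S₀ := by
    intro j
    have hvol : volume (ball (0 : ℂ) (b j)) ≠ 0 := (measure_ball_pos _ _ (hb0 j)).ne'
    have hne : volume.restrict (ball (0 : ℂ) (b j)) ≠ 0 := by
      rwa [Ne, Measure.restrict_eq_zero]
    have hnull : volume.restrict (ball (0 : ℂ) (b j)) (insert 0 (ball (0 : ℂ) (b j))ᶜ) = 0 := by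
      rw [Measure.restrict_apply ((measurableSet_ball.compl).insert 0)]
      refine measure_mono_null ?_ (measure_singleton (0 : ℂ))
      rintro x ⟨hx | hx, hx2⟩
      · exact hx
      · exact absurd hx2 hx
    have hfm : IsFiniteMeasure (volume.restrict (ball (0 : ℂ) (b j))) :=
      ⟨by rw [Measure.restrict_apply_univ]; exact measure_ball_lt_top⟩
    obtain ⟨s, hs1, hs2⟩ := exists_notMem_null_le_laverage hne (hGm j) hnull
    refine ⟨s, fun h0 => hs1 (h0 ▸ mem_insert _ _), ?_, ?_⟩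
    · by_contra hcon
      exact hs1 (mem_insert_of_mem _ fun h => hcon (mem_ball_zero_iff.1 h))
    · refine hs2.trans ?_
      rw [setLAverage_eq, Complex.volume_ball]
      refine ENNReal.div_le_of_le_mul ?_
      refine (hGint j).trans ?_
      rw [mul_comm S₀]
      gcongr
      rw [ENNReal.ofReal_pow (hb0 j).le]
      refine le_mul_of_one_le_right zero_le ?_
      have : (1 : ℝ≥0) ≤ NNReal.pi := by
        rw [← NNReal.coe_le_coe, NNReal.coe_real_pi]
        exact_mod_cast (by linarith [Real.pi_gt_three] : (1 : ℝ) ≤ Real.pi)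
      exact_mod_cast this
  choose s hs0 hsb hsG using hsel
  have hbδ : ∀ j, b j < δ := fun j => by
    have h1 := (hab j 0 (Nat.zero_le j)).2
    have h2 := hb0 j
    simp only [Nat.cast_zero, zero_add] at h1
    linarith
  have hb_lim : Tendsto b atTop (𝓝 0) := by
    have h1 : Tendsto (fun j : ℕ => 2 * ((j : ℝ) + 2)) atTop atTop := by
      refine Tendsto.const_mul_atTop two_pos ?_
      exact tendsto_atTop_add_const_right _ _ tendsto_natCast_atTop_atTop
    exact tendsto_const_nhds.div_atTop h1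
  refine ⟨s, hs0, fun j => (hsb j).trans (hbδ j), ?_, fun i ε hε => ?_⟩
  · exact squeeze_zero_norm (fun j => (hsb j).le) hb_lim
  · obtain ⟨n, hn⟩ := exists_nat_gt (B i / ε)
    refine ⟨(ENNReal.ofReal (((n : ℝ) + 2) ^ 2) * 2 ^ (n + 1) * S₀).toNNReal, ?_⟩
    rw [ENNReal.coe_toNNReal (ENNReal.mul_ne_top (hwt n) hS₀t)]
    filter_upwards [eventually_ge_atTop n] with j hj
    refine ⟨h i j n (s j), ?_, ?_⟩
    · have h1 := hb0 j
      have h2 : (0 : ℝ) ≤ n := Nat.cast_nonneg n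
      have h3 : s j ∈ ball (0 : ℂ) ((((n : ℝ) + 2) * b j) / 2) := by
        rw [mem_ball_zero_iff]
        refine (hsb j).trans_le ?_
        nlinarith
      refine ((hh i j n hj).2.1 (s j) h3).trans ?_
      have h4 : B i / (((n : ℝ) + 2) * b j) * ‖s j‖ ≤ B i / (((n : ℝ) + 2) * b j) * b j := by
        refine mul_le_mul_of_nonneg_left (hsb j).le ?_
        exact div_nonneg (hB0 i) (by positivity)
      refine h4.trans ?_
      have h5 : B i / (((n : ℝ) + 2) * b j) * b j = B i / ((n : ℝ) + 2) := by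
        field_simp
      rw [h5, div_le_iff₀ (by positivity)]
      rw [div_lt_iff₀ hε] at hn
      nlinarith
    · have h1 : w n * F.N k t (s j) (h i j n (s j)) ≤ S₀ := by
        refine le_trans ?_ (hsG j)
        rw [hG]
        beta_reduce
        refine le_trans ?_ (Finset.single_le_sum (f := fun i => ∑ n ∈ Finset.range (j + 1),
          w n * F.N k t (s j) (h i j n (s j))) (fun _ _ => zero_le) (Finset.mem_univ i))
        exact Finset.single_le_sum (f := fun n => w n * F.N k t (s j) (h i j n (s j)))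
          (fun _ _ => zero_le) (Finset.mem_range.2 (Nat.lt_succ_of_le hj))
      calc F.N k t (s j) (h i j n (s j))
          = (ENNReal.ofReal (((n : ℝ) + 2) ^ 2) * 2 ^ (n + 1)) *
              (w n * F.N k t (s j) (h i j n (s j))) := by
            rw [← mul_assoc, hw]
            beta_reduce
            rw [ENNReal.mul_inv_cancel (hw0 n) (hwt n), one_mul]
        _ ≤ _ := by gcongr

end Vale.Agent.P298.H379
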