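import Vale.Agent.P298.H379.Germ

/-!
P298, block IRV (helper379): a Lojasiewicz inequality for the gradient of `F_t` implies that every
germ is congruent to a polynomial of `Q d e` modulo the ideal of integrability.
-/

namespace Vale.Agent.P298.H379

open Filter Topology Metric MeasureTheory Set Vale.Agent.P298
open Vale.Agent.P298.H967 (IK)
open Vale.Agent.P298.H766 (toAn toAn_apply exists_poly)
open scoped ENNReal NNReal

variable {d e : ℕ} {R δ : ℝ} (F : PFam d R δ)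

/-- Lojasiewicz inequality for the gradient -/
def GradLoj (f : (Fin 3 → ℂ) → ℂ) (L : ℕ) : Prop :=
  ∃ C : ℝ, ∀ᶠ x in 𝓝 (0 : Fin 3 → ℂ), ‖x‖ ^ L ≤ C * ∑ k, ‖pd k f x‖

/-- Germs of large order are in the ideal of integrability. -/
theorem PFam.inI_of_order {t : ℂ} {L : ℕ} (hL : GradLoj (F.f t) L) {h : (Fin 3 → ℂ) → ℂ}
    (hh : Hol h) {M : ℕ} (hM : ∃ C : ℝ, ∀ᶠ x in 𝓝 (0 : Fin 3 → ℂ), ‖h x‖ ≤ C * ‖x‖ ^ M)
    {k : ℝ} (hk : 0 < k) (hLM : L * k ≤ M) : InI (F.f t) k h := by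
  obtain ⟨C₁, hC₁⟩ := hL
  obtain ⟨C₂, hC₂⟩ := hM
  have hp : 0 < 2 / k := by positivity
  obtain ⟨r, hr, hball⟩ := Metric.eventually_nhds_iff_ball.1 (hC₁.and hC₂)
  set r₀ : ℝ := min r 1 with hr₀
  have hr₀0 : 0 < r₀ := lt_min hr one_pos
  refine ⟨hh, r₀, hr₀0, ?_⟩
  set B : ℝ := |C₂| ^ (2 / k) * (9 * |C₁| ^ 2) with hB
  have hB0 : 0 ≤ B := by positivity
  set Φ : ℂ × ℂ → ℝ≥0∞ := (closedBall (0 : ℂ × ℂ) 1).indicator fun _ => ENNReal.ofReal B with hΦ
  have hΦm : Measurable Φ := measurable_const.indicator measurableSet_closedBall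
  have hint : ∫⁻ q, Φ q < ∞ := by
    rw [hΦ, lintegral_indicator measurableSet_closedBall, lintegral_const]
    refine ENNReal.mul_lt_top ENNReal.ofReal_lt_top ?_
    rw [Measure.restrict_apply_univ]
    exact (isCompact_closedBall _ _).measure_lt_top
  have hfin : 3 * d * ∫⁻ q, Φ q < ∞ :=
    ENNReal.mul_lt_top (ENNReal.mul_lt_top (by norm_num) (ENNReal.natCast_lt_top d)) hint
  set φ : (Fin 3 → ℂ) → ℝ≥0∞ := (ball (0 : Fin 3 → ℂ) r₀).indicator fun x =>
    ENNReal.ofReal ((|C₂| * ‖x‖ ^ M) ^ (2 / k)) with hφ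
  have hφm : Measurable φ := by
    refine Measurable.indicator (ENNReal.measurable_ofReal.comp ?_) measurableSet_ball
    exact ((measurable_norm.pow_const M).const_mul _).pow_const _
  have h1 : Nloc (F.f t) r₀ k h ≤ nu (F.f t) 0 φ := by
    refine nu_mono fun x _ => ?_
    by_cases hx : x ∈ ball (0 : Fin 3 → ℂ) r₀
    · rw [indicator_of_mem hx, hφ, indicator_of_mem hx]
      have hx' : x ∈ ball (0 : Fin 3 → ℂ) r := ball_subset_ball (min_le_left _ _) hx
      have h2 := (hball x hx').2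
      have h3 : ‖h x‖ ≤ |C₂| * ‖x‖ ^ M :=
        h2.trans (mul_le_mul_of_nonneg_right (le_abs_self _) (by positivity))
      rw [← ofReal_norm, ENNReal.ofReal_rpow_of_nonneg (norm_nonneg _) hp.le]
      exact ENNReal.ofReal_le_ofReal (Real.rpow_le_rpow (norm_nonneg _) h3 hp.le)
    · rw [indicator_of_notMem hx]
      exact zero_le
  refine h1.trans_lt (lt_of_le_of_lt (F.nu_le_three t 0 hφm hΦm fun x _ => ?_) hfin)
  by_cases hx : x ∈ ball (0 : Fin 3 → ℂ) r₀
  swap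
  · refine ⟨0, ?_⟩
    rw [hφ, indicator_of_notMem hx]
    exact zero_le
  have hx' : x ∈ ball (0 : Fin 3 → ℂ) r := ball_subset_ball (min_le_left _ _) hx
  have hx1 : ‖x‖ ≤ 1 := by
    have := mem_ball_zero_iff.1 hx
    exact (this.le).trans (min_le_right _ _)
  have h2 := (hball x hx').1
  obtain ⟨j, hj⟩ : ∃ j, ‖x‖ ^ L ≤ 3 * (|C₁| * ‖pd j (F.f t) x‖) := by
    by_contra hcon
    push Not at hcon
    have h3 : ‖x‖ ^ L ≤ |C₁| * ∑ k, ‖pd k (F.f t) x‖ :=
      h2.trans (mul_le_mul_of_nonneg_right (le_abs_self _)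
        (Finset.sum_nonneg fun k _ => norm_nonneg _))
    rw [Fin.sum_univ_three] at h3
    linarith [hcon 0, hcon 1, hcon 2]
  refine ⟨j, ?_⟩
  have h3 : prk j x ∈ closedBall (0 : ℂ × ℂ) 1 := by
    rw [mem_closedBall_zero_iff]
    exact (norm_prk_le j x).trans hx1
  rw [hφ, indicator_of_mem hx, hΦ, indicator_of_mem h3, ← ofReal_norm,
    ← ENNReal.ofReal_pow (norm_nonneg _), ← ENNReal.ofReal_mul (sq_nonneg _)]
  refine ENNReal.ofReal_le_ofReal ?_
  have h4 : (|C₂| * ‖x‖ ^ M) ^ (2 / k) ≤ |C₂| ^ (2 / k) * ‖x‖ ^ (2 * L) := by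
    rw [Real.mul_rpow (abs_nonneg _) (by positivity)]
    refine mul_le_mul_of_nonneg_left ?_ (by positivity)
    rw [← Real.rpow_natCast, ← Real.rpow_natCast, ← Real.rpow_mul (norm_nonneg _)]
    refine Real.rpow_le_rpow_of_exponent_ge' (norm_nonneg _) hx1 (by positivity) ?_
    push_cast
    rw [mul_div_assoc', le_div_iff₀ hk]
    linarith
  have h5 : ‖x‖ ^ (2 * L) ≤ 9 * |C₁| ^ 2 * ‖pd j (F.f t) x‖ ^ 2 := by
    calc ‖x‖ ^ (2 * L) = (‖x‖ ^ L) ^ 2 := by ring
      _ ≤ (3 * (|C₁| * ‖pd j (F.f t) x‖)) ^ 2 := pow_le_pow_left₀ (by positivity) hj 2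
      _ = _ := by ring
  calc (|C₂| * ‖x‖ ^ M) ^ (2 / k) ≤ |C₂| ^ (2 / k) * ‖x‖ ^ (2 * L) := h4
    _ ≤ |C₂| ^ (2 / k) * (9 * |C₁| ^ 2 * ‖pd j (F.f t) x‖ ^ 2) :=
        mul_le_mul_of_nonneg_left h5 (by positivity)
    _ = ‖pd j (F.f t) x‖ ^ 2 * B := by
        rw [hB]
        ring

theorem PFam.qM_le_IK {t : ℂ} {L : ℕ} (hL : GradLoj (F.f t) L) {M : ℕ} {k : ℝ} (hk : 0 < k)
    (hLM : L * k ≤ M) : qM 3 M ≤ IK (F.f t) k := fun h hh =>
  H967.inI_mem_IK (F.inI_of_order hL h.2 (qM_bound M h hh) hk hLM)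

/-! ### Division by `F_t` -/

/-- the monomials as germs -/
noncomputable def monA (α : Fin 3 → ℕ) : AnFun 3 := ∏ i, coordF 3 i ^ α i

theorem monA_apply (α : Fin 3 → ℕ) (x : Fin 3 → ℂ) :
    (monA α : (Fin 3 → ℂ) → ℂ) x = ∏ i, x i ^ α i := by
  unfold monA
  rw [Fin.prod_univ_three, Fin.prod_univ_three]
  rfl

theorem monA_mul (α β : Fin 3 → ℕ) : monA α * monA β = monA (α + β) := by
  unfold monA
  rw [← Finset.prod_mul_distrib]
  exact Finset.prod_congr rfl fun i _ => (pow_add _ _ _).symm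

theorem monA_mem_mX_pow (α : Fin 3 → ℕ) : monA α ∈ mX 3 ^ (∑ i, α i) := by
  unfold monA
  rw [← Finset.prod_pow_eq_pow_sum]
  exact Ideal.prod_mem_prod fun i _ => Ideal.pow_mem_pow (H766.coordF_mem i) _

theorem monA_mem_qM {α : Fin 3 → ℕ} {M : ℕ} (h : M ≤ ∑ i, α i) : monA α ∈ qM 3 M :=
  H766.mX_pow_le_qM M (Ideal.pow_le_pow_right h (monA_mem_mX_pow α))

/-- the class of a basis element -/
theorem evA_single (α : Mon d e) :
    (evA (Pi.single α (1 : ℂ)) : AnFun 3) = monA fun i => (α.1 i : ℕ) := by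
  classical
  apply Subtype.ext
  funext x
  rw [monA_apply]
  change ev (Pi.single α (1 : ℂ)) x = _
  unfold ev
  rw [Finset.sum_eq_single α]
  · rw [Pi.single_eq_same, one_mul]
  · intro β _ hβ
    rw [Pi.single_eq_of_ne hβ, zero_mul]
  · intro h
    exact absurd (Finset.mem_univ α) h

theorem evA_eq_sum (h : Q d e) :
    (evA h : AnFun 3) = ∑ α : Mon d e, h α • monA fun i => (α.1 i : ℕ) := by
  classical
  conv_lhs => rw [pi_eq_sum_univ' h]
  rw [map_sum]
  refine Finset.sum_congr rfl fun α _ => ?_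
  rw [map_smul]
  congr 1
  rw [← evA_single]

/-- germs congruent to polynomials of `Q d e` -/
noncomputable def PFam.W (t : ℂ) (k : ℝ) (e : ℕ) : Submodule ℂ (AnFun 3) :=
  LinearMap.range (evA (d := d) (e := e)) ⊔ (IK (F.f t) k).restrictScalars ℂ

theorem PFam.IK_mem_W {t : ℂ} {k : ℝ} {h : AnFun 3} (hh : h ∈ IK (F.f t) k) : h ∈ F.W t k e :=
  Submodule.mem_sup_right (by rwa [Submodule.restrictScalars_mem])

/-- `F_t` as an element of the algebra of germs -/
noncomputable def PFam.fA (t : ℂ) : AnFun 3 := ⟨F.f t, F.hol_f t⟩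

theorem PFam.fA_eq (t : ℂ) : F.fA t =
    F.c 0 • coordF 3 0 ^ d + F.c 1 • coordF 3 1 ^ d + F.c 2 • coordF 3 2 ^ d +
      ∑ α : Mon d (d - 1), F.a t α • monA fun i => (α.1 i : ℕ) := by
  rw [← evA_eq_sum]
  apply Subtype.ext
  funext x
  change F.f t x = F.c 0 * x 0 ^ d + F.c 1 * x 1 ^ d + F.c 2 * x 2 ^ d + ev (F.a t) x
  unfold PFam.f
  rw [Fin.sum_univ_three]

theorem coord_pow_eq_monA (i : Fin 3) (n : ℕ) : coordF 3 i ^ n = monA (Pi.single i n) := by
  unfold monA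
  rw [Finset.prod_eq_single i]
  · rw [Pi.single_eq_same]
  · intro j _ hj
    rw [Pi.single_eq_of_ne hj, pow_zero]
  · intro h
    exact absurd (Finset.mem_univ i) h

theorem PFam.monA_mem_W {t : ℂ} {k : ℝ} (hk : 0 < k) (hq : qM 3 (e + 1) ≤ IK (F.f t) k) :
    ∀ (n : ℕ) (α : Fin 3 → ℕ), α 2 = n → monA α ∈ F.W t k e := by
  intro n
  induction n using Nat.strong_induction_on with
  | _ n ih =>
  intro α hα
  by_cases h1 : e + 1 ≤ ∑ i, α i
  · exact F.IK_mem_W (hq (monA_mem_qM h1))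
  have h2 : α 0 + α 1 + α 2 ≤ e := by
    rw [Fin.sum_univ_three] at h1
    omega
  by_cases h3 : α 2 < d
  · refine Submodule.mem_sup_left ?_
    have h4 : ∀ i, α i < e + 1 := by
      intro i
      fin_cases i
      · change α 0 < e + 1; omega
      · change α 1 < e + 1; omega
      · change α 2 < e + 1; omega
    let β : Mon d e := ⟨fun i => ⟨α i, h4 i⟩, h2, h3⟩
    exact ⟨Pi.single β 1, evA_single β⟩
  · rw [not_lt] at h3
    set β : Fin 3 → ℕ := Function.update α 2 (α 2 - d) with hβ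
    have hβ2 : β 2 = α 2 - d := by rw [hβ, Function.update_self]
    have hd := F.hd
    have h5 : monA α = monA β * coordF 3 2 ^ d := by
      rw [coord_pow_eq_monA, monA_mul]
      congr 1
      funext i
      fin_cases i
      · simp [hβ]
      · simp [hβ]
      · simp [hβ]
        omega
    have h6 : monA α = (F.c 2)⁻¹ • (monA β * F.fA t) -
        (F.c 2)⁻¹ • (F.c 0 • (monA β * coordF 3 0 ^ d) + F.c 1 • (monA β * coordF 3 1 ^ d) +
          ∑ γ : Mon d (d - 1), F.a t γ • (monA β * monA fun i => (γ.1 i : ℕ))) := by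
      rw [← smul_sub, eq_inv_smul_iff₀ (F.hc 2), h5, F.fA_eq]
      simp only [mul_add, mul_smul_comm, Finset.mul_sum]
      abel
    rw [h6]
    refine Submodule.sub_mem _ (Submodule.smul_mem _ _ (F.IK_mem_W ?_))
      (Submodule.smul_mem _ _ (Submodule.add_mem _ (Submodule.add_mem _ ?_ ?_)
        (Submodule.sum_mem _ fun γ _ => ?_)))
    · exact Ideal.mul_mem_left _ _ (H967.self_mem_IK (F.hol_f t) hk)
    · refine Submodule.smul_mem _ _ ?_
      rw [coord_pow_eq_monA, monA_mul]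
      refine ih (α 2 - d) (by omega) _ ?_
      simp [hβ2]
    · refine Submodule.smul_mem _ _ ?_
      rw [coord_pow_eq_monA, monA_mul]
      refine ih (α 2 - d) (by omega) _ ?_
      simp [hβ2]
    · refine Submodule.smul_mem _ _ ?_
      rw [monA_mul]
      have hγ : (γ.1 2 : ℕ) < d - 1 + 1 := (γ.1 2).2
      refine ih (α 2 - d + (γ.1 2 : ℕ)) (by omega) _ ?_
      simp [hβ2]

theorem PFam.W_eq_top {t : ℂ} {k : ℝ} (hk : 0 < k) (hq : qM 3 (e + 1) ≤ IK (F.f t) k) :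
    F.W t k e = ⊤ := by
  rw [eq_top_iff]
  intro h _
  obtain ⟨p, hp⟩ := exists_poly (e + 1) h
  have h1 : toAn 3 p ∈ F.W t k e := by
    rw [← MvPolynomial.support_sum_monomial_coeff p, map_sum]
    refine Submodule.sum_mem _ fun α _ => ?_
    have h2 : toAn 3 (MvPolynomial.monomial α (MvPolynomial.coeff α p)) =
        MvPolynomial.coeff α p • monA α := by
      unfold toAn
      rw [MvPolynomial.aeval_monomial, Algebra.smul_def]
      congr 1
      unfold monA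
      exact Finsupp.prod_fintype _ _ fun i => pow_zero _
    rw [h2]
    exact Submodule.smul_mem _ _ (F.monA_mem_W hk hq _ α rfl)
  have h2 := Submodule.add_mem _ (F.IK_mem_W (e := e) (hq hp)) h1
  rwa [sub_add_cancel] at h2

theorem PFam.Phi_surj {t : ℂ} {k : ℝ} (hk : 0 < k) (hq : qM 3 (e + 1) ≤ IK (F.f t) k) :
    Function.Surjective (F.Phi t k e) := by
  intro y
  obtain ⟨h, rfl⟩ := Ideal.Quotient.mk_surjective y
  have h1 : h ∈ F.W t k e := by
    rw [F.W_eq_top hk hq]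
    exact Submodule.mem_top
  obtain ⟨a, ⟨q, rfl⟩, b, hb, rfl⟩ := Submodule.mem_sup.1 h1
  refine ⟨q, ?_⟩
  rw [F.Phi_apply, map_add]
  rw [Submodule.restrictScalars_mem] at hb
  rw [Ideal.Quotient.eq_zero_iff_mem.2 hb, add_zero]

end Vale.Agent.P298.H379
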