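import Vale.Agent.P298.H379.Tail

/-!
P298, block IRV (helper379): the system `NSys` of a polynomial family.
-/

namespace Vale.Agent.P298.H379

open Filter Topology Metric MeasureTheory Set Vale.Agent.P298
open scoped ENNReal NNReal

variable {d e : ℕ} {R δ : ℝ} (F : PFam d R δ)

theorem KK.pos {k : ℝ} (hk : k ∈ KK d e) : 0 < k := lt_of_lt_of_le one_pos hk.1

omit F in
theorem KK_lt {k : ℝ} (hk : k ∈ KK d e) : (e : ℝ) < k * (d - 3) := by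
  have h1 := KK.pos hk
  have h2 := hk.2.2.2
  nlinarith

include F in
theorem PFam.KK_dense {a b : ℝ} (ha : a ∈ KK d e) (hb : b ∈ KK d e) (hab : a < b) :
    ∃ c ∈ KK d e, a < c ∧ c < b := by
  obtain ⟨q, hq1, hq2⟩ := exists_rat_btwn hab
  have hd : (5 : ℝ) ≤ d := by exact_mod_cast F.hd
  refine ⟨q, ⟨?_, ⟨q, rfl⟩, ?_, ?_⟩, hq1, hq2⟩
  · exact ha.1.trans hq1.le
  · have h1 := hb.2.2.1
    nlinarith
  · have h1 := ha.2.2.2
    nlinarith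

theorem PFam.exists_bound {R₁ : ℝ} (hR₁ : R₁ < R) :
    ∃ M : ℝ, ∀ t ∈ closedBall (0 : ℂ) R₁, ‖F.a t‖ ≤ M := by
  have h1 : ContinuousOn F.a (closedBall (0 : ℂ) R₁) :=
    F.holo.continuousOn.mono (closedBall_subset_ball hR₁)
  obtain ⟨M, hM⟩ := (isCompact_closedBall (0 : ℂ) R₁).exists_bound_of_continuousOn h1
  exact ⟨M, hM⟩

theorem nnnorm_ev_le (h : Q d e) (x : Fin 3 → ℂ) :
    ‖ev h x‖ₑ ≤ ((Fintype.card (Mon d e) : ℝ≥0) : ℝ≥0∞) * ‖h‖₊ * ENNReal.ofReal ((1 + ‖x‖) ^ e) := by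
  have h1 := norm_ev_le h x
  rw [← ofReal_norm]
  refine (ENNReal.ofReal_le_ofReal h1).trans_eq ?_
  rw [ENNReal.ofReal_mul (by positivity), ENNReal.ofReal_mul (by positivity)]
  congr 2
  · rw [ENNReal.ofReal_natCast]
    simp
  · rw [ofReal_norm]
    rfl

/-- comparison of the exponents -/
theorem PFam.N_mono {k k' : ℝ} (hk : k ∈ KK d e) (hk' : k' ∈ KK d e) (hlt : k' < k) {R₁ : ℝ}
    (hR₁ : R₁ < R) (δ₁ : ℝ) :
    ∃ C : ℝ≥0, ∀ t ∈ closedBall (0 : ℂ) R₁, ∀ s ∈ closedBall (0 : ℂ) δ₁, ∀ h : Q d e,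
      F.N k' t s h ≤ C * (‖h‖₊ : ℝ≥0∞) ^ (2 / k' - 2 / k) * F.N k t s h := by
  have hk0 := KK.pos hk
  have hk0' := KK.pos hk'
  have hp : 0 < 2 / k := by positivity
  have hp' : 0 < 2 / k' := by positivity
  have hpp : 0 < 2 / k' - 2 / k := sub_pos.2 (div_lt_div_of_pos_left two_pos hk0' hlt)
  obtain ⟨M, hM⟩ := F.exists_bound hR₁
  have hγ : (e : ℝ) * (2 / k') < 2 * (d - 3) := by
    have h1 := KK_lt hk'
    have h2 : (e : ℝ) * (2 / k') = 2 * (e / k') := by ring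
    rw [h2]
    have h3 : (e : ℝ) / k' < d - 3 := by
      rw [div_lt_iff₀ hk0']
      linarith
    linarith
  obtain ⟨A, hA, C₁, hC₁⟩ := F.tail M hγ
  obtain ⟨c, hc, hcoer⟩ := F.coercive (e := e) hk0 hR₁ δ₁
  set D : ℝ≥0 := (Fintype.card (Mon d e) : ℝ≥0) with hD
  set D' : ℝ≥0 := D * Real.toNNReal ((1 + A) ^ e) with hD'
  refine ⟨D' ^ (2 / k' - 2 / k) + D ^ (2 / k') * C₁ * c⁻¹, fun t ht s hs h => ?_⟩
  have htb : t ∈ ball (0 : ℂ) R := closedBall_subset_ball hR₁ ht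
  -- the pointwise bound
  set n : ℝ≥0∞ := (‖h‖₊ : ℝ≥0∞) with hn
  have hntop : n ≠ ∞ := ENNReal.coe_ne_top
  have hpt : ∀ x : Fin 3 → ℂ, ‖ev h x‖ₑ ^ (2 / k') ≤
      ((D' : ℝ≥0∞) * n) ^ (2 / k' - 2 / k) * ‖ev h x‖ₑ ^ (2 / k) +
        ((D : ℝ≥0∞) * n) ^ (2 / k') * ({x : Fin 3 → ℂ | A ≤ ‖x‖}.indicator fun x =>
          ENNReal.ofReal ((1 + ‖x‖) ^ ((e : ℝ) * (2 / k')))) x := by
    intro x
    by_cases hx : A ≤ ‖x‖
    · refine le_add_left ?_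
      rw [indicator_of_mem (show x ∈ {x : Fin 3 → ℂ | A ≤ ‖x‖} from hx)]
      have h1 := ENNReal.rpow_le_rpow (nnnorm_ev_le h x) hp'.le
      refine h1.trans_eq ?_
      rw [ENNReal.mul_rpow_of_nonneg _ _ hp'.le, ENNReal.ofReal_rpow_of_pos (by positivity),
        ← Real.rpow_natCast, ← Real.rpow_mul (by positivity)]
    · refine le_add_right ?_
      have hx' : ‖x‖ ≤ A := le_of_lt (not_le.1 hx)
      have h1 : ‖ev h x‖ₑ ≤ (D' : ℝ≥0∞) * n := by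
        refine (nnnorm_ev_le h x).trans ?_
        have h2 : ENNReal.ofReal ((1 + ‖x‖) ^ e) ≤ (Real.toNNReal ((1 + A) ^ e) : ℝ≥0∞) := by
          refine ENNReal.ofReal_le_ofReal ?_
          exact pow_le_pow_left₀ (by positivity) (by linarith) _
        rw [hD']
        push_cast
        calc (D : ℝ≥0∞) * n * ENNReal.ofReal ((1 + ‖x‖) ^ e)
            ≤ (D : ℝ≥0∞) * n * (Real.toNNReal ((1 + A) ^ e) : ℝ≥0∞) := by gcongr
          _ = _ := by ring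
      have h3 : ‖ev h x‖ₑ ^ (2 / k') = ‖ev h x‖ₑ ^ (2 / k' - 2 / k) * ‖ev h x‖ₑ ^ (2 / k) := by
        rw [← ENNReal.rpow_add_of_nonneg _ _ hpp.le hp.le]
        congr 1
        ring
      rw [h3]
      gcongr
  have hmeas : Measurable (rootSum (F.f t) s fun x => ((D' : ℝ≥0∞) * n) ^ (2 / k' - 2 / k) *
      ‖ev h x‖ₑ ^ (2 / k)) := by
    have h1 : (rootSum (F.f t) s fun x => ((D' : ℝ≥0∞) * n) ^ (2 / k' - 2 / k) *
        ‖ev h x‖ₑ ^ (2 / k)) = fun p => ((D' : ℝ≥0∞) * n) ^ (2 / k' - 2 / k) *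
          rootSum (F.f t) s (fun x => ‖ev h x‖ₑ ^ (2 / k)) p := by
      ext1 p
      exact rootSum_const_mul _ p
    rw [h1]
    exact (F.measurable_rootSum htb s (lsc_pow_ev k h)).const_mul _
  have hc1 : ((D' : ℝ≥0∞) * n) ^ (2 / k' - 2 / k) ≠ ∞ :=
    ENNReal.rpow_ne_top_of_nonneg hpp.le (ENNReal.mul_ne_top ENNReal.coe_ne_top hntop)
  have hc2 : ((D : ℝ≥0∞) * n) ^ (2 / k') ≠ ∞ :=
    ENNReal.rpow_ne_top_of_nonneg hp'.le (ENNReal.mul_ne_top ENNReal.coe_ne_top hntop)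
  have hmain : F.N k' t s h ≤ ((D' : ℝ≥0∞) * n) ^ (2 / k' - 2 / k) * F.N k t s h +
      ((D : ℝ≥0∞) * n) ^ (2 / k') * C₁ := by
    refine (nu_mono fun x _ => hpt x).trans ?_
    rw [nu_add hmeas, nu_const_mul hc1, nu_const_mul hc2]
    refine add_le_add (le_refl _) ?_
    gcongr
    exact hC₁ t (hM t ht) s
  refine hmain.trans ?_
  have h4 := hcoer t ht s hs h
  have hc0 : (c : ℝ≥0∞) ≠ 0 := by exact_mod_cast hc.ne'
  have h5 : n ^ (2 / k) ≤ (c : ℝ≥0∞)⁻¹ * F.N k t s h := by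
    calc n ^ (2 / k) = (c : ℝ≥0∞)⁻¹ * (c * n ^ (2 / k)) := by
          rw [← mul_assoc, ENNReal.inv_mul_cancel hc0 ENNReal.coe_ne_top, one_mul]
      _ ≤ _ := by gcongr
  have h6 : n ^ (2 / k') = n ^ (2 / k' - 2 / k) * n ^ (2 / k) := by
    rw [← ENNReal.rpow_add_of_nonneg _ _ hpp.le hp.le]
    congr 1
    ring
  have h7 : ((D : ℝ≥0∞) * n) ^ (2 / k') * C₁ ≤
      ((D : ℝ≥0∞) ^ (2 / k') * C₁ * (c : ℝ≥0∞)⁻¹) * (n ^ (2 / k' - 2 / k) * F.N k t s h) := by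
    rw [ENNReal.mul_rpow_of_nonneg _ _ hp'.le, h6]
    calc (D : ℝ≥0∞) ^ (2 / k') * (n ^ (2 / k' - 2 / k) * n ^ (2 / k)) * C₁
        ≤ (D : ℝ≥0∞) ^ (2 / k') * (n ^ (2 / k' - 2 / k) * ((c : ℝ≥0∞)⁻¹ * F.N k t s h)) * C₁ := by
          gcongr
      _ = _ := by ring
  have h8 : ((D' : ℝ≥0∞) * n) ^ (2 / k' - 2 / k) * F.N k t s h =
      (D' : ℝ≥0∞) ^ (2 / k' - 2 / k) * (n ^ (2 / k' - 2 / k) * F.N k t s h) := by
    rw [ENNReal.mul_rpow_of_nonneg _ _ hpp.le, mul_assoc]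
  rw [h8]
  refine (add_le_add le_rfl h7).trans_eq ?_
  rw [← add_mul, ← mul_assoc]
  congr 2
  have e1 : ((D' ^ (2 / k' - 2 / k) : ℝ≥0) : ℝ≥0∞) = (D' : ℝ≥0∞) ^ (2 / k' - 2 / k) :=
    (ENNReal.coe_rpow_of_nonneg _ hpp.le)
  have e2 : ((D ^ (2 / k') : ℝ≥0) : ℝ≥0∞) = (D : ℝ≥0∞) ^ (2 / k') :=
    (ENNReal.coe_rpow_of_nonneg _ hp'.le)
  have e3 : ((c⁻¹ : ℝ≥0) : ℝ≥0∞) = (c : ℝ≥0∞)⁻¹ := ENNReal.coe_inv hc.ne'
  have e4 : ((D ^ (2 / k') * C₁ * c⁻¹ : ℝ≥0) : ℝ≥0∞) =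
      (D : ℝ≥0∞) ^ (2 / k') * C₁ * (c : ℝ≥0∞)⁻¹ := by
    rw [← e2, ← e3, ← ENNReal.coe_mul, ← ENNReal.coe_mul]
  rw [ENNReal.coe_add, e1, e4]

/-- (P1) for closed discs (same as `H293.OTP1c`) -/
def OTPc (F : PFam d R δ) (C : ℝ≥0) (e : ℕ) : Prop :=
  ∀ k ∈ KK d e, ∀ s : ℂ, s ≠ 0 → ‖s‖ < δ → ∀ t₀ : ℂ, ∀ r > 0, closedBall t₀ r ⊆ ball 0 R →
    ∀ v : Q d e, ∃ h : ℂ → Q d e, DifferentiableOn ℂ h (ball t₀ r) ∧ h t₀ = v ∧
      ∫⁻ t in ball t₀ r, F.N k t s (h t) ≤ C * ENNReal.ofReal (r ^ 2) * F.N k t₀ s v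

theorem OTP1.closed {F : PFam d R δ} {C : ℝ≥0} (h : OTP1 F C e) : OTPc F C e :=
  fun k hk s hs hsδ t₀ r hr hb v => h k hk s hs hsδ t₀ r hr (ball_subset_closedBall.trans hb) v

theorem PFam.extend {C₁ C₂ : ℝ≥0} (h1 : OTPc F C₁ e) (h2 : S1P2 F C₂ e) {k : ℝ} (hk : k ∈ KK d e)
    {t₀ : ℂ} (ht₀ : t₀ ∈ ball (0 : ℂ) (R / 8)) {s : ℂ} (hs : s ≠ 0) (hsδ : ‖s‖ < δ) (v : Q d e) :
    ∃ h : ℂ → Q d e, DifferentiableOn ℂ h (ball 0 (R / 8)) ∧ h t₀ = v ∧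
      ∀ t ∈ ball (0 : ℂ) (R / 8), F.N k t s (h t) ≤ (4 * C₁ * C₂ : ℝ≥0) * F.N k t₀ s v := by
  have hR := F.hR
  rw [mem_ball_zero_iff] at ht₀
  have hb1 : closedBall t₀ (R / 2) ⊆ ball 0 R := by
    refine closedBall_subset_ball' ?_
    rw [dist_zero_right]
    linarith
  obtain ⟨h, hh, hv, hint⟩ := h1 k hk s hs hsδ t₀ (R / 2) (by linarith) hb1 v
  have hb2 : ball (0 : ℂ) (R / 8) ⊆ ball t₀ (R / 2) := by
    refine ball_subset_ball' ?_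
    rw [dist_comm, dist_zero_right]
    linarith
  refine ⟨h, hh.mono hb2, hv, fun t ht => ?_⟩
  rw [mem_ball_zero_iff] at ht
  have hb3 : ball t (R / 4) ⊆ ball t₀ (R / 2) := by
    refine ball_subset_ball' ?_
    have h6 := norm_sub_le t t₀
    rw [dist_eq_norm]
    linarith
  have hb4 : ball t (R / 4) ⊆ ball 0 R := by
    refine ball_subset_ball' ?_
    rw [dist_zero_right]
    linarith
  have h3 := h2 k hk s hs hsδ t (R / 4) (by linarith) hb4 h (hh.mono hb3)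
  have h4 : ∫⁻ t in ball t (R / 4), F.N k t s (h t) ≤ ∫⁻ t in ball t₀ (R / 2), F.N k t s (h t) :=
    lintegral_mono_set hb3
  have h5 : ENNReal.ofReal ((R / 4) ^ 2) * F.N k t s (h t) ≤
      ENNReal.ofReal ((R / 4) ^ 2) * ((4 * C₁ * C₂ : ℝ≥0) * F.N k t₀ s v) := by
    refine h3.trans ?_
    calc (C₂ : ℝ≥0∞) * ∫⁻ t in ball t (R / 4), F.N k t s (h t)
        ≤ C₂ * (C₁ * ENNReal.ofReal ((R / 2) ^ 2) * F.N k t₀ s v) := by
          gcongr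
          exact h4.trans hint
      _ = _ := by
          have h6 : ENNReal.ofReal ((R / 2) ^ 2) = 4 * ENNReal.ofReal ((R / 4) ^ 2) := by
            rw [show (4 : ℝ≥0∞) = ENNReal.ofReal 4 by norm_num, ← ENNReal.ofReal_mul (by norm_num)]
            congr 1
            ring
          rw [h6]
          push_cast
          ring
  have h6 : ENNReal.ofReal ((R / 4) ^ 2) ≠ 0 := by
    rw [Ne, ENNReal.ofReal_eq_zero, not_le]
    positivity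
  exact (ENNReal.mul_le_mul_iff_right h6 ENNReal.ofReal_ne_top).1 h5

/-- The system of a polynomial family along a sequence `s_j`. -/
noncomputable def PFam.sys {ρ : ℝ} (hρ : 0 < ρ) (hρ1 : ρ < 1) {C₁ C₂ : ℝ≥0} (h0 : S1R F ρ e)
    (h1 : OTPc F C₁ e) (h2 : S1P2 F C₂ e) {ι : Type*} (U : Ultrafilter ι) (s : ι → ℂ)
    (hs : ∀ j, s j ≠ 0) (hsδ : ∀ j, ‖s j‖ < δ) :
    NSys ι (Q d e) U (KK d e) (R / 8) ρ where
  N := fun k t j h => F.N k t (s j) h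
  R_pos := by have := F.hR; linarith
  ρ_pos := hρ
  ρ_lt := hρ1
  pos := fun k hk => KK.pos hk
  dense := fun a ha b hb hab => F.KK_dense ha hb hab
  add := fun k hk => by
    refine ⟨2 ^ (2 / k), Eventually.of_forall fun j t ht h g => ?_⟩
    have hR := F.hR
    have h3 := F.N_add (KK.pos hk) (ball_subset_ball (by linarith) ht) (s j) h g
    refine h3.trans_eq ?_
    rw [ENNReal.coe_rpow_of_nonneg _ (by have := KK.pos hk; positivity)]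
    rfl
  smul := fun k hk => Eventually.of_forall fun j t _ c h => F.N_smul (KK.pos hk) t (s j) c h
  coer := fun k hk => by
    have hR := F.hR
    obtain ⟨c, hc, hcoer⟩ := F.coercive (e := e) (KK.pos hk) (show R / 8 < R by linarith) δ
    refine ⟨c, hc, Eventually.of_forall fun j t ht h => ?_⟩
    exact hcoer t (ball_subset_closedBall ht) (s j)
      (by rw [mem_closedBall_zero_iff]; exact (hsδ j).le) h
  mono := fun k' hk' k hk hlt => by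
    have hR := F.hR
    obtain ⟨C, hC⟩ := F.N_mono hk hk' hlt (show R / 8 < R by linarith) δ
    refine ⟨C, Eventually.of_forall fun j t ht h => ?_⟩
    exact hC t (ball_subset_closedBall ht) (s j)
      (by rw [mem_closedBall_zero_iff]; exact (hsδ j).le) h
  core := fun k hk => Eventually.of_forall fun j r₂ hr₂ r hr h hh Λ hΛ => by
    have hR := F.hR
    exact h0 k hk (s j) (hs j) (hsδ j) r₂ (by linarith) r hr h hh Λ hΛ
  ext := fun k hk t₀ ht₀ => ⟨4 * C₁ * C₂, Eventually.of_forall fun j v =>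
    F.extend h1 h2 hk ht₀ (hs j) (hsδ j) v⟩

end Vale.Agent.P298.H379
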