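import Vale.Agent.P298.H379.Coer
import Vale.Agent.P298.H373.Nu

/-!
P298, block IRV (helper379): upper bounds for the integrals: at infinity (uniformly in the
parameters) and away from the singular point.
-/

namespace Vale.Agent.P298.H379

open Filter Topology Metric MeasureTheory Set Vale.Agent.P298
open scoped ENNReal NNReal

variable {d e : ℕ} {R δ : ℝ} (F : PFam d R δ)

theorem PFam.analyticOnNhd_f (t : ℂ) (Ω : Set (Fin 3 → ℂ)) : AnalyticOnNhd ℂ (F.f t) Ω :=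
  fun _ _ => ((F.contDiff_f t (n := ⊤)).contDiffAt).analyticAt

/-- the other two coordinates -/
def prk (k : Fin 3) (x : Fin 3 → ℂ) : ℂ × ℂ := (x (k + 1), x (k + 2))

theorem prk_eq {k : Fin 3} {x y : Fin 3 → ℂ} (h : prk k x = prk k y) (hk : x k = y k) : x = y := by
  have h1 : x (k + 1) = y (k + 1) := congrArg Prod.fst h
  have h2 : x (k + 2) = y (k + 2) := congrArg Prod.snd h
  ext l
  fin_cases k <;> fin_cases l <;> first | exact hk | exact h1 | exact h2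

theorem norm_prk_le (k : Fin 3) (x : Fin 3 → ℂ) : ‖prk k x‖ ≤ ‖x‖ := by
  rw [Prod.norm_def]
  exact max_le (norm_le_pi_norm x _) (norm_le_pi_norm x _)

theorem measurable_prk (k : Fin 3) : Measurable (prk k) :=
  (measurable_pi_apply _).prodMk (measurable_pi_apply _)

/-- The fibres of two coordinates on a level surface have at most `d` points. -/
theorem PFam.encard_fibre_le (t s : ℂ) (k : Fin 3) (q : ℂ × ℂ) :
    {x : Fin 3 → ℂ | F.f t x = s ∧ prk k x = q}.encard ≤ d := by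
  classical
  have hd := F.hd
  let h := F.a t
  let y : Fin 3 → Fin 3 → ℂ := fun l => Function.update (Function.update (fun _ => 0) (l + 1) q.1) (l + 2) q.2
  let A : ℂ := F.c (k + 1) * q.1 ^ d + F.c (k + 2) * q.2 ^ d - s
  let P : Polynomial ℂ := Polynomial.C (F.c k) * Polynomial.X ^ d + (Polynomial.C A +
      ∑ α : Mon d (d - 1), Polynomial.C (h α * (q.1 ^ (α.1 (k + 1) : ℕ) *
        q.2 ^ (α.1 (k + 2) : ℕ))) * Polynomial.X ^ (α.1 k : ℕ))
  have hP : ∀ x : Fin 3 → ℂ, prk k x = q → P.eval (x k) = F.f t x - s := by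
    intro x hx
    have hq1 : x (k + 1) = q.1 := by rw [← hx]; rfl
    have hq2 : x (k + 2) = q.2 := by rw [← hx]; rfl
    have e1 : ∀ g : Fin 3 → ℂ, ∑ i, g i = g k + g (k + 1) + g (k + 2) := by
      intro g
      rw [Fin.sum_univ_three]
      fin_cases k
      · rfl
      · change g 0 + g 1 + g 2 = g 1 + g 2 + g 0
        ring
      · change g 0 + g 1 + g 2 = g 2 + g 0 + g 1
        ring
    have e2 : ∀ g : Fin 3 → ℂ, ∏ i, g i = g k * g (k + 1) * g (k + 2) := by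
      intro g
      rw [Fin.prod_univ_three]
      fin_cases k
      · rfl
      · change g 0 * g 1 * g 2 = g 1 * g 2 * g 0
        ring
      · change g 0 * g 1 * g 2 = g 2 * g 0 * g 1
        ring
    have h2 : ev h x = ∑ α : Mon d (d - 1), h α * (q.1 ^ (α.1 (k + 1) : ℕ) *
        q.2 ^ (α.1 (k + 2) : ℕ)) * x k ^ (α.1 k : ℕ) := by
      unfold ev
      refine Finset.sum_congr rfl fun α _ => ?_
      rw [e2, hq1, hq2]
      ring
    unfold PFam.f
    rw [e1, hq1, hq2]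
    change _ = _ + ev h x - s
    rw [h2]
    simp only [P, A, Polynomial.eval_add, Polynomial.eval_mul, Polynomial.eval_C,
      Polynomial.eval_pow, Polynomial.eval_X, Polynomial.eval_finsetSum]
    ring
  have hlow : (Polynomial.C A + ∑ α : Mon d (d - 1), Polynomial.C (h α *
      (q.1 ^ (α.1 (k + 1) : ℕ) * q.2 ^ (α.1 (k + 2) : ℕ))) *
        Polynomial.X ^ (α.1 k : ℕ)).degree < (d : WithBot ℕ) := by
    refine (Polynomial.degree_add_le _ _).trans_lt (max_lt ?_ ?_)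
    · refine Polynomial.degree_C_le.trans_lt ?_
      exact_mod_cast (by omega : 0 < d)
    · refine (Polynomial.degree_sum_le _ _).trans_lt ?_
      refine (Finset.sup_lt_iff (WithBot.bot_lt_coe d)).2 fun α _ => ?_
      refine (Polynomial.degree_C_mul_X_pow_le _ _).trans_lt ?_
      refine WithBot.coe_lt_coe.2 ?_
      have h1 : (α.1 k : ℕ) < d - 1 + 1 := (α.1 k).2
      change (α.1 k : ℕ) < d
      omega
  have hdeg : P.natDegree = d := by
    have h1 : P.degree = d := by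
      have h2 : (Polynomial.C (F.c k) * Polynomial.X ^ d : Polynomial ℂ).degree = d :=
        Polynomial.degree_C_mul_X_pow d (F.hc k)
      rw [Polynomial.degree_add_eq_left_of_degree_lt (by rw [h2]; exact hlow), h2]
    exact Polynomial.natDegree_eq_of_degree_eq_some h1
  have hP0 : P ≠ 0 := by
    intro h0
    rw [h0, Polynomial.natDegree_zero] at hdeg
    omega
  have hinj : Set.InjOn (fun x : Fin 3 → ℂ => x k) {x | F.f t x = s ∧ prk k x = q} :=
    fun x hx z hz hxz => prk_eq (hx.2.trans hz.2.symm) hxz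
  rw [← hinj.encard_image]
  have hsub : (fun x : Fin 3 → ℂ => x k) '' {x | F.f t x = s ∧ prk k x = q} ⊆
      (P.roots.toFinset : Set ℂ) := by
    rintro _ ⟨x, hx, rfl⟩
    rw [Finset.mem_coe, Multiset.mem_toFinset, Polynomial.mem_roots hP0]
    change P.eval (x k) = 0
    rw [hP x hx.2, hx.1, sub_self]
  refine (encard_le_encard hsub).trans ?_
  rw [encard_coe_eq_coe_finsetCard]
  have h1 : P.roots.toFinset.card ≤ d :=
    (Multiset.toFinset_card_le _).trans ((Polynomial.card_roots' P).trans_eq hdeg)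
  exact_mod_cast h1

theorem measurable_pd_enorm (t : ℂ) (k : Fin 3) :
    Measurable fun x => ‖pd k (F.f t) x‖ₑ := by
  have h1 : Continuous (pd k (F.f t)) := by
    unfold pd
    exact ((F.contDiff_f t (n := 1)).continuous_fderiv one_ne_zero).clm_apply continuous_const
  exact h1.measurable.enorm

/-- The basic upper bound. -/
theorem PFam.nu_le_three (t s : ℂ) {φ : (Fin 3 → ℂ) → ℝ≥0∞} (hφ : Measurable φ)
    {Φ : ℂ × ℂ → ℝ≥0∞} (hΦ : Measurable Φ)
    (h : ∀ x, F.f t x = s → ∃ k, φ x ≤ ‖pd k (F.f t) x‖ₑ ^ 2 * Φ (prk k x)) :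
    nu (F.f t) s φ ≤ 3 * d * ∫⁻ q, Φ q := by
  classical
  have hf : AnalyticOnNhd ℂ (F.f t) univ := F.analyticOnNhd_f t univ
  set E : Fin 3 → Set (Fin 3 → ℂ) := fun k =>
    {x | φ x ≤ ‖pd k (F.f t) x‖ₑ ^ 2 * Φ (prk k x)} with hE
  have hEm : ∀ k, MeasurableSet (E k) := fun k =>
    measurableSet_le hφ (((measurable_pd_enorm F t k).pow_const 2).mul
      (hΦ.comp (measurable_prk k)))
  have hm : ∀ k, Measurable ((E k).indicator φ) := fun k => hφ.indicator (hEm k)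
  have h1 : ∀ k, nu (F.f t) s ((E k).indicator φ) ≤ d * ∫⁻ q, Φ q := by
    intro k
    have hk1 : k + 1 ≠ k + 2 := by fin_cases k <;> decide
    have hk2 : k + 1 ≠ k := by fin_cases k <;> decide
    have hk3 : k + 2 ≠ k := by fin_cases k <;> decide
    refine H373.nu_le_of_fibre isOpen_univ hf (H373.analyticOnNhd_proj (k + 1))
      (H373.analyticOnNhd_proj (k + 2)) s hΦ ?_ (fun x hx => absurd (mem_univ x) hx) ?_
    · intro q
      refine (encard_le_encard ?_).trans (F.encard_fibre_le t s k q)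
      rintro x ⟨-, h2, h3, h4⟩
      exact ⟨h2, Prod.ext h3 h4⟩
    · intro x _ _ _
      have h3 : ‖jac3 (F.f t) (fun y => y (k + 1)) (fun y => y (k + 2)) x‖ₑ =
          ‖pd k (F.f t) x‖ₑ := by
        rw [← ofReal_norm, ← ofReal_norm, H373.norm_jac3_proj hk1 hk2 hk3]
      rw [h3]
      by_cases hx : x ∈ E k
      · rw [indicator_of_mem hx]
        exact hx
      · rw [indicator_of_notMem hx]
        exact zero_le
  have h2 : nu (F.f t) s φ ≤ nu (F.f t) s (fun x => (E 0).indicator φ x +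
      ((E 1).indicator φ x + (E 2).indicator φ x)) := by
    refine nu_mono fun x hx => ?_
    obtain ⟨k, hk⟩ := h x hx
    have h3 : φ x = (E k).indicator φ x := (indicator_of_mem (show x ∈ E k from hk) φ).symm
    fin_cases k
    · rw [h3]
      exact le_self_add
    · rw [h3]
      exact le_add_of_le_right le_self_add
    · rw [h3]
      exact le_add_of_le_right le_add_self
  refine h2.trans ?_
  rw [H373.nu_add isOpen_univ hf s (hm 0) (fun x hx => absurd (mem_univ x) hx),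
    H373.nu_add isOpen_univ hf s (hm 1) (fun x hx => absurd (mem_univ x) hx)]
  refine (add_le_add (h1 0) (add_le_add (h1 1) (h1 2))).trans_eq ?_
  ring

theorem one_add_pow_le {X : ℝ} (hX : 1 ≤ X) (n : ℕ) : (1 + X) ^ n ≤ 2 ^ n * X ^ n := by
  rw [← mul_pow]
  exact pow_le_pow_left₀ (by linarith) (by linarith) _

/-- gradient growth at infinity, uniformly for bounded lower coefficients -/
theorem PFam.grad_inf (M : ℝ) : ∃ A : ℝ, 1 ≤ A ∧ ∃ κ : ℝ, 0 < κ ∧ ∀ t, ‖F.a t‖ ≤ M →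
    ∀ x : Fin 3 → ℂ, A ≤ ‖x‖ → ∃ k, κ * ‖x‖ ^ (d - 1) ≤ ‖pd k (F.f t) x‖ := by
  obtain ⟨n, hn⟩ : ∃ n, d = n + 2 := ⟨d - 2, by have := F.hd; omega⟩
  have hn0 : d - 1 = n + 1 := by omega
  have hn1 : d - 1 - 1 = n := by omega
  obtain ⟨c0, hc0, hc⟩ : ∃ c0 : ℝ, 0 < c0 ∧ ∀ k, c0 ≤ ‖F.c k‖ := by
    obtain ⟨k0, hk0⟩ := Finite.exists_min fun k => ‖F.c k‖
    exact ⟨‖F.c k0‖, norm_pos_iff.2 (F.hc k0), hk0⟩
  set M1 : ℝ := Fintype.card (Mon d (d - 1)) * ((d - 1 : ℕ) : ℝ) * |M| with hM1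
  have hM10 : 0 ≤ M1 := by positivity
  refine ⟨max 1 (2 * (M1 * 2 ^ n) / c0), le_max_left _ _, c0 / 2, by positivity, ?_⟩
  intro t ht x hx
  have hx1 : 1 ≤ ‖x‖ := (le_max_left _ _).trans hx
  have hx2 : M1 * 2 ^ n ≤ c0 / 2 * ‖x‖ := by
    have h1 : 2 * (M1 * 2 ^ n) / c0 ≤ ‖x‖ := (le_max_right _ _).trans hx
    rw [div_le_iff₀ hc0] at h1
    linarith
  obtain ⟨k, hk⟩ : ∃ k, ‖x k‖ = ‖x‖ := by
    obtain ⟨k, hk⟩ := Finite.exists_max fun k => ‖x k‖
    exact ⟨k, le_antisymm (norm_le_pi_norm x k)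
      ((pi_norm_le_iff_of_nonneg (norm_nonneg _)).2 hk)⟩
  refine ⟨k, ?_⟩
  have h1 := norm_pd_ev_le k (F.a t) x
  rw [F.pd_f]
  have h2 : ‖F.c k * (d * x k ^ (d - 1))‖ = ‖F.c k‖ * (d * ‖x‖ ^ (n + 1)) := by
    rw [norm_mul, norm_mul, norm_pow, Complex.norm_natCast, hk, hn0]
  have h3 : c0 * ‖x‖ ^ (n + 1) ≤ ‖F.c k‖ * (d * ‖x‖ ^ (n + 1)) := by
    refine mul_le_mul (hc k) ?_ (by positivity) (norm_nonneg _)
    have : (1 : ℝ) ≤ d := by
      have := F.hd
      exact_mod_cast (by omega : 1 ≤ d)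
    exact le_mul_of_one_le_left (by positivity) this
  have h4 : ‖pd k (ev (F.a t)) x‖ ≤ M1 * (1 + ‖x‖) ^ n := by
    refine h1.trans ?_
    have h5 : (Fintype.card (Mon d (d - 1)) : ℝ) * ((d - 1 : ℕ) : ℝ) * ‖F.a t‖ ≤ M1 := by
      rw [hM1]
      exact mul_le_mul_of_nonneg_left (ht.trans (le_abs_self M)) (by positivity)
    have h6 : (1 + ‖x‖) ^ (d - 1 - 1) = (1 + ‖x‖) ^ n := by rw [hn1]
    rw [h6]
    exact mul_le_mul_of_nonneg_right h5 (by positivity)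
  have h5 : M1 * (1 + ‖x‖) ^ n ≤ c0 / 2 * ‖x‖ ^ (n + 1) := by
    calc M1 * (1 + ‖x‖) ^ n ≤ M1 * (2 ^ n * ‖x‖ ^ n) :=
          mul_le_mul_of_nonneg_left (one_add_pow_le hx1 n) hM10
      _ = (M1 * 2 ^ n) * ‖x‖ ^ n := by ring
      _ ≤ (c0 / 2 * ‖x‖) * ‖x‖ ^ n := mul_le_mul_of_nonneg_right hx2 (by positivity)
      _ = c0 / 2 * ‖x‖ ^ (n + 1) := by ring
  have h6 := norm_sub_norm_le (F.c k * (d * x k ^ (d - 1))) (-pd k (ev (F.a t)) x)
  rw [sub_neg_eq_add, norm_neg, h2] at h6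
  have h7 : ‖x‖ ^ (d - 1) = ‖x‖ ^ (n + 1) := by rw [hn0]
  rw [h7]
  linarith

/-- uniform tail bound -/
theorem PFam.tail (M : ℝ) {γ : ℝ} (hγ : γ < 2 * (d - 3)) : ∃ A : ℝ, 1 ≤ A ∧ ∃ C : ℝ≥0,
    ∀ t, ‖F.a t‖ ≤ M → ∀ s, nu (F.f t) s ({x : Fin 3 → ℂ | A ≤ ‖x‖}.indicator fun x =>
      ENNReal.ofReal ((1 + ‖x‖) ^ γ)) ≤ C := by
  obtain ⟨A, hA, κ, hκ, hgrad⟩ := F.grad_inf M
  have hd := F.hd
  have hd1 : ((d - 1 : ℕ) : ℝ) = (d : ℝ) - 1 := by
    rw [Nat.cast_sub (by omega)]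
    simp
  set r : ℝ := 2 * (d - 1) - γ with hr
  have hr4 : 4 < r := by
    rw [hr]
    linarith
  set C' : ℝ := κ⁻¹ ^ 2 * 2 ^ (2 * (d - 1)) with hC'
  have hC'0 : 0 < C' := by positivity
  set Φ : ℂ × ℂ → ℝ≥0∞ := fun q => ENNReal.ofReal C' * ENNReal.ofReal ((1 + ‖q‖) ^ (-r)) with hΦ
  have hΦm : Measurable Φ := by
    refine Measurable.const_mul (ENNReal.measurable_ofReal.comp ?_) _
    exact (measurable_const.add measurable_norm).pow_const _
  have hint : ∫⁻ q, Φ q < ∞ := by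
    rw [hΦ, lintegral_const_mul' _ _ ENNReal.ofReal_ne_top]
    refine ENNReal.mul_lt_top ENNReal.ofReal_lt_top ?_
    refine finite_integral_one_add_norm ?_
    have h1 : Module.finrank ℝ (ℂ × ℂ) = 4 := by
      rw [Module.finrank_prod, Complex.finrank_real_complex]
    rw [h1]
    exact_mod_cast hr4
  have hfin : 3 * d * ∫⁻ q, Φ q < ∞ :=
    ENNReal.mul_lt_top (ENNReal.mul_lt_top (by norm_num) (ENNReal.natCast_lt_top d)) hint
  refine ⟨A, hA, (3 * d * ∫⁻ q, Φ q).toNNReal, fun t ht s => ?_⟩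
  rw [ENNReal.coe_toNNReal hfin.ne]
  have hm : Measurable ({x : Fin 3 → ℂ | A ≤ ‖x‖}.indicator fun x =>
      ENNReal.ofReal ((1 + ‖x‖) ^ γ)) := by
    refine Measurable.indicator (ENNReal.measurable_ofReal.comp ?_)
      (measurableSet_le measurable_const measurable_norm)
    exact (measurable_const.add measurable_norm).pow_const _
  refine F.nu_le_three t s hm hΦm fun x _ => ?_
  by_cases hx : A ≤ ‖x‖
  swap
  · refine ⟨0, ?_⟩
    rw [indicator_of_notMem (show x ∉ {x : Fin 3 → ℂ | A ≤ ‖x‖} from hx)]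
    exact zero_le
  obtain ⟨k, hk⟩ := hgrad t ht x hx
  refine ⟨k, ?_⟩
  rw [indicator_of_mem (show x ∈ {x : Fin 3 → ℂ | A ≤ ‖x‖} from hx)]
  have hX : 1 ≤ ‖x‖ := hA.trans hx
  have h0 : 0 < 1 + ‖x‖ := by linarith
  have h1 : ‖pd k (F.f t) x‖ₑ ^ 2 = ENNReal.ofReal (‖pd k (F.f t) x‖ ^ 2) := by
    rw [← ofReal_norm, ENNReal.ofReal_pow (norm_nonneg _)]
  rw [h1]
  change _ ≤ ENNReal.ofReal (‖pd k (F.f t) x‖ ^ 2) *
    (ENNReal.ofReal C' * ENNReal.ofReal ((1 + ‖prk k x‖) ^ (-r)))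
  rw [← ENNReal.ofReal_mul hC'0.le, ← ENNReal.ofReal_mul (sq_nonneg _)]
  refine ENNReal.ofReal_le_ofReal ?_
  -- the real inequality
  have h2 : (1 + ‖x‖) ^ (2 * (d - 1)) ≤ C' * ‖pd k (F.f t) x‖ ^ 2 := by
    have h3 : (1 + ‖x‖) ^ (2 * (d - 1)) ≤ 2 ^ (2 * (d - 1)) * ‖x‖ ^ (2 * (d - 1)) :=
      one_add_pow_le hX _
    have h4 : κ ^ 2 * ‖x‖ ^ (2 * (d - 1)) ≤ ‖pd k (F.f t) x‖ ^ 2 := by
      have h5 := pow_le_pow_left₀ (by positivity) hk 2
      calc κ ^ 2 * ‖x‖ ^ (2 * (d - 1)) = (κ * ‖x‖ ^ (d - 1)) ^ 2 := by ring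
        _ ≤ _ := h5
    calc (1 + ‖x‖) ^ (2 * (d - 1)) ≤ 2 ^ (2 * (d - 1)) * ‖x‖ ^ (2 * (d - 1)) := h3
      _ = C' * (κ ^ 2 * ‖x‖ ^ (2 * (d - 1))) := by
          rw [hC']
          field_simp
      _ ≤ C' * ‖pd k (F.f t) x‖ ^ 2 := mul_le_mul_of_nonneg_left h4 hC'0.le
  have h3 : (1 + ‖x‖) ^ (-r) ≤ (1 + ‖prk k x‖) ^ (-r) := by
    rw [Real.rpow_neg h0.le, Real.rpow_neg (by positivity)]
    refine inv_anti₀ (by positivity) ?_
    refine Real.rpow_le_rpow (by positivity) ?_ (by linarith)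
    linarith [norm_prk_le k x]
  have h4 : (1 + ‖x‖) ^ γ = (1 + ‖x‖) ^ (2 * (d - 1)) * (1 + ‖x‖) ^ (-r) := by
    rw [← Real.rpow_natCast, ← Real.rpow_add h0]
    congr 1
    rw [hr]
    push_cast
    rw [hd1]
    ring
  rw [h4]
  calc (1 + ‖x‖) ^ (2 * (d - 1)) * (1 + ‖x‖) ^ (-r)
      ≤ (C' * ‖pd k (F.f t) x‖ ^ 2) * (1 + ‖prk k x‖) ^ (-r) :=
        mul_le_mul h2 h3 (by positivity) (by positivity)
    _ = ‖pd k (F.f t) x‖ ^ 2 * (C' * (1 + ‖prk k x‖) ^ (-r)) := by ring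

theorem PFam.mid {t : ℂ} (ht : t ∈ ball (0 : ℂ) R) {r₀ : ℝ} (hr₀ : 0 < r₀) (A : ℝ) :
    nu (F.f t) 0 ({x : Fin 3 → ℂ | r₀ ≤ ‖x‖ ∧ ‖x‖ ≤ A}.indicator fun _ => 1) < ∞ := by
  classical
  set K : Set (Fin 3 → ℂ) := {x | F.f t x = 0 ∧ r₀ ≤ ‖x‖ ∧ ‖x‖ ≤ A} with hK
  have hcont : Continuous (F.f t) := (F.contDiff_f t (n := 0)).continuous
  have hKc : IsCompact K := by
    have h1 : IsClosed K :=
      (isClosed_eq hcont continuous_const).inter
        ((isClosed_le continuous_const continuous_norm).inter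
          (isClosed_le continuous_norm continuous_const))
    refine (isCompact_closedBall (0 : Fin 3 → ℂ) A).of_isClosed_subset h1 fun x hx => ?_
    rw [mem_closedBall_zero_iff]
    exact hx.2.2
  have hpdc : ∀ k, Continuous (pd k (F.f t)) := fun k => by
    unfold pd
    exact ((F.contDiff_f t (n := 1)).continuous_fderiv one_ne_zero).clm_apply continuous_const
  obtain ⟨κ, hκ, hgrad⟩ : ∃ κ : ℝ, 0 < κ ∧ ∀ x ∈ K, κ ≤ ∑ k, ‖pd k (F.f t) x‖ := by
    rcases K.eq_empty_or_nonempty with hemp | hne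
    · exact ⟨1, one_pos, fun x hx => by rw [hemp] at hx; exact absurd hx (notMem_empty x)⟩
    · have hc : ContinuousOn (fun x => ∑ k, ‖pd k (F.f t) x‖) K :=
        (continuous_finsetSum _ fun k _ => (hpdc k).norm).continuousOn
      obtain ⟨x₀, hx₀, hmin⟩ := hKc.exists_isMinOn hne hc
      refine ⟨_, ?_, fun x hx => hmin hx⟩
      have h1 : 0 ≤ ∑ k, ‖pd k (F.f t) x₀‖ := Finset.sum_nonneg fun k _ => norm_nonneg _
      refine lt_of_le_of_ne h1 fun h2 => ?_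
      have h3 : ∀ k, pd k (F.f t) x₀ = 0 := fun k => by
        have h4 := (Finset.sum_eq_zero_iff_of_nonneg fun k _ => norm_nonneg _).1 h2.symm k
          (Finset.mem_univ k)
        exact norm_eq_zero.1 h4
      have h5 : x₀ = 0 := by
        refine F.crit t ht x₀ ?_ h3
        change ‖F.f t x₀‖ < δ
        rw [hx₀.1, norm_zero]
        exact F.hδ
      have h6 := hx₀.2.1
      rw [h5, norm_zero] at h6
      linarith
  set Φ : ℂ × ℂ → ℝ≥0∞ := (closedBall (0 : ℂ × ℂ) A).indicator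
    fun _ => (ENNReal.ofReal (κ / 3) ^ 2)⁻¹ with hΦ
  have hκ3 : 0 < κ / 3 := by positivity
  have hne0 : ENNReal.ofReal (κ / 3) ^ 2 ≠ 0 := pow_ne_zero 2 (by simpa using hκ3)
  have hΦm : Measurable Φ := measurable_const.indicator measurableSet_closedBall
  have hint : ∫⁻ q, Φ q < ∞ := by
    rw [hΦ, lintegral_indicator measurableSet_closedBall, lintegral_const]
    refine ENNReal.mul_lt_top (ENNReal.inv_lt_top.2 (pos_iff_ne_zero.2 hne0)) ?_
    rw [Measure.restrict_apply_univ]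
    exact (isCompact_closedBall _ _).measure_lt_top
  have hfin : 3 * d * ∫⁻ q, Φ q < ∞ :=
    ENNReal.mul_lt_top (ENNReal.mul_lt_top (by norm_num) (ENNReal.natCast_lt_top d)) hint
  refine lt_of_le_of_lt ?_ hfin
  have hSm : MeasurableSet {x : Fin 3 → ℂ | r₀ ≤ ‖x‖ ∧ ‖x‖ ≤ A} :=
    (measurableSet_le measurable_const measurable_norm).inter
      (measurableSet_le measurable_norm measurable_const)
  refine F.nu_le_three t 0 (measurable_const.indicator hSm) hΦm fun x hx0 => ?_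
  by_cases hx : x ∈ {x : Fin 3 → ℂ | r₀ ≤ ‖x‖ ∧ ‖x‖ ≤ A}
  swap
  · refine ⟨0, ?_⟩
    rw [indicator_of_notMem hx]
    exact zero_le
  rw [indicator_of_mem hx]
  have h1 := hgrad x ⟨hx0, hx.1, hx.2⟩
  obtain ⟨k, hk⟩ : ∃ k, κ / 3 ≤ ‖pd k (F.f t) x‖ := by
    by_contra hcon
    push Not at hcon
    rw [Fin.sum_univ_three] at h1
    linarith [hcon 0, hcon 1, hcon 2]
  refine ⟨k, ?_⟩
  have h2 : prk k x ∈ closedBall (0 : ℂ × ℂ) A := by
    rw [mem_closedBall_zero_iff]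
    exact (norm_prk_le k x).trans hx.2
  rw [hΦ, indicator_of_mem h2]
  have h3 : ENNReal.ofReal (κ / 3) ^ 2 ≤ ‖pd k (F.f t) x‖ₑ ^ 2 := by
    refine pow_le_pow_left₀ zero_le ?_ 2
    rw [← ofReal_norm]
    exact ENNReal.ofReal_le_ofReal hk
  calc (1 : ℝ≥0∞) = ENNReal.ofReal (κ / 3) ^ 2 * (ENNReal.ofReal (κ / 3) ^ 2)⁻¹ :=
        (ENNReal.mul_inv_cancel hne0 (ENNReal.pow_ne_top ENNReal.ofReal_ne_top)).symm
    _ ≤ _ := mul_le_mul_left h3 _

end Vale.Agent.P298.H379
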